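import Mathlib

/-!
A divergence Borel-Cantelli lemma through second moments: if the events are
pairwise independent on average in the asymptotic sense (the variance of the counting
function is `o` of the square of its mean along a subsequence), then almost every point
lies in infinitely many of the events.
-/

open MeasureTheory ProbabilityTheory Filter Finset

namespace Vale.Agent.Lib.P028

theorem ae_frequently_mem_of_variance {Ω : Type*} [MeasurableSpace Ω] (μ : Measure Ω)
    [IsProbabilityMeasure μ] (E : ℕ → Set Ω) (hE : ∀ n, MeasurableSet (E n))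
    (hdiv : Tendsto (fun N => ∑ n ∈ range N, μ.real (E n)) atTop atTop)
    (hvar : ∀ ε > 0, ∃ᶠ N in atTop,
        ∑ m ∈ range N, ∑ n ∈ range N, (μ.real (E m ∩ E n) - μ.real (E m) * μ.real (E n))
          ≤ ε * (∑ n ∈ range N, μ.real (E n)) ^ 2) :
    ∀ᵐ ω ∂μ, ∃ᶠ n in atTop, ω ∈ E n := by
  classical
  set X : ℕ → Ω → ℝ := fun n => (E n).indicator 1 with hX
  have hXmem : ∀ n, MemLp (X n) 2 μ := fun n =>
    memLp_indicator_const 2 (hE n) (1 : ℝ) (Or.inr (measure_ne_top μ _))
  have hXint : ∀ n, μ[X n] = μ.real (E n) := fun n => integral_indicator_one (hE n)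
  have hXX : ∀ m n, μ[X m * X n] = μ.real (E m ∩ E n) := by
    intro m n
    have : X m * X n = (E m ∩ E n).indicator 1 := by
      simp only [hX]
      rw [Set.inter_indicator_one]
    rw [this]
    exact integral_indicator_one ((hE m).inter (hE n))
  set S : ℕ → Ω → ℝ := fun N => ∑ n ∈ range N, X n with hS
  have hSmem : ∀ N, MemLp (S N) 2 μ := fun N => memLp_finsetSum' _ (fun n _ => hXmem n)
  have hSint : ∀ N, μ[S N] = ∑ n ∈ range N, μ.real (E n) := by
    intro N
    simp only [hS, Finset.sum_apply]
    rw [integral_finsetSum _ (fun n _ => (hXmem n).integrable (by norm_num))]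
    exact Finset.sum_congr rfl fun n _ => hXint n
  have hSvar : ∀ N, Var[S N; μ]
      = ∑ m ∈ range N, ∑ n ∈ range N, (μ.real (E m ∩ E n) - μ.real (E m) * μ.real (E n)) := by
    intro N
    simp only [hS]
    rw [variance_sum' (fun n _ => hXmem n)]
    refine Finset.sum_congr rfl fun m _ => Finset.sum_congr rfl fun n _ => ?_
    rw [covariance_eq_sub (hXmem m) (hXmem n), hXX, hXint, hXint]
  -- the bad sets
  set B : ℕ → Set Ω := fun M => {ω | ∀ N, S N ω ≤ M} with hB
  have hBnull : ∀ M, μ (B M) = 0 := by
    intro M
    have hreal : ∀ ε > 0, μ.real (B M) ≤ 4 * ε := by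
      intro ε hε
      obtain ⟨N, hN1, hN2⟩ :=
        ((hvar ε hε).and_eventually (hdiv.eventually_ge_atTop (2 * (M : ℝ) + 2))).exists
      set P : ℝ := ∑ n ∈ range N, μ.real (E n) with hP
      have hPpos : 0 < P / 2 := by
        have : (0 : ℝ) ≤ M := Nat.cast_nonneg M
        linarith
      have hsub : B M ⊆ {ω | P / 2 ≤ |S N ω - μ[S N]|} := by
        intro ω hω
        have h1 : S N ω ≤ M := hω N
        simp only [Set.mem_ofPred_eq]
        rw [hSint N]
        have h2 : S N ω - P ≤ -(P / 2) := by linarith
        have h3 : P / 2 ≤ -(S N ω - P) := by linarith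
        exact le_trans h3 (neg_le_abs _)
      have hcheb := meas_ge_le_variance_div_sq (hSmem N) hPpos
      have hle : μ (B M) ≤ ENNReal.ofReal (4 * ε) := by
        refine le_trans (measure_mono hsub) (le_trans hcheb ?_)
        apply ENNReal.ofReal_le_ofReal
        rw [hSvar N]
        have hP2 : 0 < (P / 2) ^ 2 := by positivity
        rw [div_le_iff₀ hP2]
        calc _ ≤ ε * P ^ 2 := hN1
          _ = 4 * ε * (P / 2) ^ 2 := by ring
      have := ENNReal.toReal_mono ENNReal.ofReal_ne_top hle
      rwa [ENNReal.toReal_ofReal (by positivity)] at this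
    have h0 : μ.real (B M) = 0 := by
      apply le_antisymm _ measureReal_nonneg
      by_contra hcon
      rw [not_le] at hcon
      have := hreal (μ.real (B M) / 8) (by positivity)
      linarith
    exact (measureReal_eq_zero_iff (measure_ne_top μ _)).mp h0
  rw [ae_iff]
  refine measure_mono_null ?_ (measure_iUnion_null hBnull)
  intro ω hω
  simp only [Set.mem_ofPred_eq, not_frequently, eventually_atTop] at hω
  obtain ⟨N0, hN0⟩ := hω
  refine Set.mem_iUnion.mpr ⟨N0, fun N => ?_⟩
  simp only [hS, hX, Finset.sum_apply]
  calc ∑ n ∈ range N, (E n).indicator (1 : Ω → ℝ) ω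
      ≤ ∑ n ∈ range N, (if n < N0 then (1 : ℝ) else 0) := by
        refine Finset.sum_le_sum fun n _ => ?_
        by_cases hn : n < N0
        · rw [if_pos hn]
          by_cases hω' : ω ∈ E n
          · rw [Set.indicator_of_mem hω']
            exact le_refl _
          · rw [Set.indicator_of_notMem hω']
            exact zero_le_one
        · rw [if_neg hn, Set.indicator_of_notMem (hN0 n (not_lt.mp hn))]
    _ = ((range N).filter (fun n => n < N0)).card := by
        rw [Finset.sum_ite, Finset.sum_const_zero, add_zero, Finset.sum_const, nsmul_eq_mul,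
          mul_one]
    _ ≤ (N0 : ℝ) := by
        have : ((range N).filter (fun n => n < N0)).card ≤ (range N0).card := by
          apply Finset.card_le_card
          intro n hn
          simp only [mem_filter, mem_range] at hn ⊢
          exact hn.2
        rw [card_range] at this
        exact_mod_cast this

end Vale.Agent.Lib.P028
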