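import Mathlib

/-!
Arcs on the unit circle pulled back by multiplication maps, and the overlap estimate

`vol (A_q ∩ A_q') ≤ 4 r r' + 2 r' gcd(q, q') / q'`

where `A_q = {x : q • x ∈ ball c r}`, `A_q' = {x : q' • x ∈ ball c' r'}`.
-/

open MeasureTheory Filter Metric Set

namespace Vale.Agent.Lib.P028

/-- The set of points `x` of the unit circle with `q • x` in the open ball of radius `r`
around `c`. -/
def arcSet (q : ℕ) (c : UnitAddCircle) (r : ℝ) : Set UnitAddCircle :=
  {x | q • x ∈ ball c r}

theorem measurableSet_arcSet (q : ℕ) (c : UnitAddCircle) (r : ℝ) :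
    MeasurableSet (arcSet q c r) := by
  have hcont : Continuous fun x : UnitAddCircle => q • x := continuous_const_smul q
  exact (isOpen_ball.preimage hcont).measurableSet

theorem arcSet_eq_preimage (q : ℕ) (c : UnitAddCircle) (r : ℝ) :
    arcSet q c r = (fun x : UnitAddCircle => (q : ℤ) • x) ⁻¹' (ball c r) := by
  ext x
  simp [arcSet]

theorem volume_arcSet (q : ℕ) (hq : q ≠ 0) (c : UnitAddCircle) (r : ℝ) (hr : r ≤ 1 / 2) :
    volume (arcSet q c r) = ENNReal.ofReal (2 * r) := by
  have hmp : MeasurePreserving (fun x : UnitAddCircle => (q : ℤ) • x) volume volume :=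
    Measure.measurePreserving_zsmul volume (by exact_mod_cast hq)
  rw [arcSet_eq_preimage, hmp.measure_preimage measurableSet_ball.nullMeasurableSet,
    ← measure_congr AddCircle.closedBall_ae_eq_ball, AddCircle.volume_closedBall,
    min_eq_right (by linarith)]

/-- Counting lemma: at most `2 r b + 1` of the `b` points `w + i / b` lie in a ball of
radius `r`. -/
theorem card_filter_ball_le (b : ℕ) (hb : 0 < b) (w c : UnitAddCircle) (r : ℝ)
    [DecidablePred fun i : ℕ => w + (((i : ℝ) / b : ℝ) : UnitAddCircle) ∈ ball c r] :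
    (((Finset.range b).filter
        (fun i : ℕ => w + (((i : ℝ) / b : ℝ) : UnitAddCircle) ∈ ball c r)).card : ℝ)
      ≤ max (2 * r * b + 1) 0 := by
  obtain ⟨t, ht⟩ := QuotientAddGroup.mk_surjective (w - c)
  have hbR : (0 : ℝ) < b := by exact_mod_cast hb
  set L : ℝ := -(b * t) - r * b with hL
  set U : ℝ := -(b * t) + r * b with hU
  set f : ℕ → ℤ := fun i => (i : ℤ) - b * round (t + (i : ℝ) / b) with hf
  set s := (Finset.range b).filter
    (fun i : ℕ => w + (((i : ℝ) / b : ℝ) : UnitAddCircle) ∈ ball c r) with hs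
  have hmaps : Set.MapsTo f ↑s ↑(Finset.Ioo ⌊L⌋ ⌈U⌉) := by
    intro i hi
    rw [Finset.mem_coe, hs, Finset.mem_filter] at hi
    have hi2 := hi.2
    rw [mem_ball, dist_eq_norm] at hi2
    have h1 : w + (((i : ℝ) / b : ℝ) : UnitAddCircle) - c
        = ((t + (i : ℝ) / b : ℝ) : UnitAddCircle) := by
      rw [AddCircle.coe_add]
      have : ((t : ℝ) : UnitAddCircle) = w - c := ht
      rw [this]
      abel
    rw [h1, UnitAddCircle.norm_eq] at hi2
    have h2 : (b : ℝ) * t + (f i : ℝ)
        = b * (t + (i : ℝ) / b - round (t + (i : ℝ) / b)) := by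
      simp only [hf]
      push_cast
      field_simp
      ring
    have h3 : |(b : ℝ) * t + (f i : ℝ)| < r * b := by
      rw [h2, abs_mul, abs_of_pos hbR, mul_comm r]
      exact mul_lt_mul_of_pos_left hi2 hbR
    rw [abs_lt] at h3
    rw [Finset.coe_Ioo, Set.mem_Ioo]
    constructor
    · rw [Int.floor_lt]
      simp only [hL]
      linarith [h3.1]
    · rw [Int.lt_ceil]
      simp only [hU]
      linarith [h3.2]
  have hinj : Set.InjOn f ↑s := by
    intro i hi j hj hij
    rw [Finset.mem_coe, hs, Finset.mem_filter, Finset.mem_range] at hi hj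
    simp only [hf] at hij
    have hdvd : (b : ℤ) ∣ (i : ℤ) - (j : ℤ) := by
      refine ⟨round (t + (i : ℝ) / b) - round (t + (j : ℝ) / b), ?_⟩
      linarith
    have hi1 : (i : ℤ) < b := by exact_mod_cast hi.1
    have hj1 : (j : ℤ) < b := by exact_mod_cast hj.1
    have hi0 : (0 : ℤ) ≤ i := Int.natCast_nonneg i
    have hj0 : (0 : ℤ) ≤ j := Int.natCast_nonneg j
    have habs : |(i : ℤ) - (j : ℤ)| < b := by
      rw [abs_lt]
      constructor <;> linarith
    have hzero : (i : ℤ) - (j : ℤ) = 0 := Int.eq_zero_of_abs_lt_dvd hdvd habs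
    have : (i : ℤ) = j := by linarith
    exact_mod_cast this
  have hcard := Finset.card_le_card_of_injOn f hmaps hinj
  rw [Int.card_Ioo] at hcard
  have h1 : ((s.card : ℕ) : ℝ) ≤ (((⌈U⌉ - ⌊L⌋ - 1).toNat : ℕ) : ℝ) := by exact_mod_cast hcard
  refine le_trans h1 ?_
  have h2 : (((⌈U⌉ - ⌊L⌋ - 1).toNat : ℕ) : ℝ) = ((max (⌈U⌉ - ⌊L⌋ - 1) 0 : ℤ) : ℝ) := by
    rw [← Int.toNat_eq_max]
    norm_cast
  rw [h2]
  have hU1 : (⌈U⌉ : ℝ) < U + 1 := Int.ceil_lt_add_one U
  have hL1 : L - 1 < (⌊L⌋ : ℝ) := Int.sub_one_lt_floor L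
  push_cast
  apply max_le_max _ (le_refl _)
  have : U - L = 2 * r * b := by
    simp only [hU, hL]
    ring
  linarith

theorem coe_natCast_eq_zero (n : ℕ) : (((n : ℝ) : ℝ) : UnitAddCircle) = 0 := by
  rw [AddCircle.coe_eq_zero_iff]
  exact ⟨n, by simp⟩

/-- Folding lemma for coprime multipliers. -/
theorem inter_arcSet_le_of_coprime (a b : ℕ) (hb : 0 < b) (hab : Nat.Coprime a b)
    (c c' : UnitAddCircle) (r r' : ℝ) (hr : 0 ≤ r) :
    (b : ENNReal) * volume (arcSet a c r ∩ arcSet b c' r')
      ≤ ENNReal.ofReal (2 * r * b + 1) * volume (arcSet b c' r') := by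
  classical
  have hbR : (0 : ℝ) < b := by exact_mod_cast hb
  rcases Nat.lt_or_ge 1 b with hb1 | hb1
  swap
  · have hb' : b = 1 := by omega
    subst hb'
    simp only [Nat.cast_one, one_mul, mul_one]
    calc volume (arcSet a c r ∩ arcSet 1 c' r') ≤ volume (arcSet 1 c' r') :=
          measure_mono Set.inter_subset_right
      _ = 1 * volume (arcSet 1 c' r') := (one_mul _).symm
      _ ≤ ENNReal.ofReal (2 * r + 1) * volume (arcSet 1 c' r') := by
          gcongr
          rw [← ENNReal.ofReal_one]
          exact ENNReal.ofReal_le_ofReal (by linarith)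
  obtain ⟨s, -, hs⟩ := Nat.exists_mul_mod_eq_one_of_coprime hab hb1
  obtain ⟨k, hk⟩ : ∃ k : ℕ, a * s = b * k + 1 :=
    ⟨a * s / b, by have := Nat.div_add_mod (a * s) b; omega⟩
  set v : UnitAddCircle := (((s : ℝ) / b : ℝ) : UnitAddCircle) with hv
  have hbv : b • v = 0 := by
    rw [hv, ← AddCircle.coe_nsmul]
    have : (b : ℕ) • ((s : ℝ) / b) = (s : ℝ) := by
      rw [nsmul_eq_mul]
      field_simp
    rw [this]
    exact coe_natCast_eq_zero s
  have hav : ∀ i : ℕ, a • (i • v) = (((i : ℝ) / b : ℝ) : UnitAddCircle) := by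
    intro i
    rw [hv, ← AddCircle.coe_nsmul, ← AddCircle.coe_nsmul]
    have hk' : (a : ℝ) * s = b * k + 1 := by exact_mod_cast hk
    have : a • (i • ((s : ℝ) / b)) = (i : ℝ) / b + ((i * k : ℕ) : ℝ) := by
      simp only [nsmul_eq_mul]
      push_cast
      field_simp
      linear_combination (i : ℝ) * hk'
    rw [this, AddCircle.coe_add, coe_natCast_eq_zero, add_zero]
  set S := arcSet a c r ∩ arcSet b c' r' with hS
  have hSmeas : MeasurableSet S := (measurableSet_arcSet _ _ _).inter (measurableSet_arcSet _ _ _)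
  set G : ℕ → Set UnitAddCircle :=
    fun i => {x | a • x + (((i : ℝ) / b : ℝ) : UnitAddCircle) ∈ ball c r} with hG
  have hGmeas : ∀ i, MeasurableSet (G i) := by
    intro i
    have hcont : Continuous fun x : UnitAddCircle =>
        a • x + (((i : ℝ) / b : ℝ) : UnitAddCircle) :=
      (continuous_const_smul a).add continuous_const
    exact (isOpen_ball.preimage hcont).measurableSet
  have hpre : ∀ i : ℕ, (fun x : UnitAddCircle => x + i • v) ⁻¹' S = G i ∩ arcSet b c' r' := by
    intro i
    ext x
    simp only [hS, arcSet, hG, Set.mem_preimage, Set.mem_inter_iff, Set.mem_ofPred_eq]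
    rw [smul_add, smul_add, hav i, smul_comm b i v, hbv, smul_zero, add_zero]
  have hvol : ∀ i : ℕ, volume (G i ∩ arcSet b c' r') = volume S := by
    intro i
    rw [← hpre i]
    exact (measurePreserving_add_right volume (i • v)).measure_preimage
      hSmeas.nullMeasurableSet
  have hsum : (b : ENNReal) * volume S
      = ∑ i ∈ Finset.range b, volume (G i ∩ arcSet b c' r') := by
    rw [Finset.sum_congr rfl (fun i _ => hvol i), Finset.sum_const, Finset.card_range,
      nsmul_eq_mul]
  rw [hsum]
  calc ∑ i ∈ Finset.range b, volume (G i ∩ arcSet b c' r')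
      = ∑ i ∈ Finset.range b,
          ∫⁻ x, (G i ∩ arcSet b c' r').indicator (1 : UnitAddCircle → ENNReal) x := by
        refine Finset.sum_congr rfl fun i _ => ?_
        rw [lintegral_indicator_one ((hGmeas i).inter (measurableSet_arcSet _ _ _))]
    _ = ∫⁻ x, ∑ i ∈ Finset.range b,
          (G i ∩ arcSet b c' r').indicator (1 : UnitAddCircle → ENNReal) x := by
        rw [lintegral_finsetSum]
        intro i _
        exact measurable_one.indicator ((hGmeas i).inter (measurableSet_arcSet _ _ _))
    _ ≤ ∫⁻ x, (arcSet b c' r').indicator (fun _ => ENNReal.ofReal (2 * r * b + 1)) x := by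
        refine lintegral_mono fun x => ?_
        by_cases hx : x ∈ arcSet b c' r'
        · rw [Set.indicator_of_mem hx]
          have hterm : ∀ i : ℕ,
              (G i ∩ arcSet b c' r').indicator (1 : UnitAddCircle → ENNReal) x
                = if a • x + (((i : ℝ) / b : ℝ) : UnitAddCircle) ∈ ball c r then 1 else 0 := by
            intro i
            by_cases hi : a • x + (((i : ℝ) / b : ℝ) : UnitAddCircle) ∈ ball c r
            · have hmem : x ∈ G i ∩ arcSet b c' r' := Set.mem_inter hi hx
              rw [if_pos hi, Set.indicator_of_mem hmem]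
              rfl
            · rw [if_neg hi, Set.indicator_of_notMem (fun h => hi h.1)]
          simp_rw [hterm]
          rw [Finset.sum_boole]
          have hc := card_filter_ball_le b hb (a • x) c r
          rw [max_eq_left (by positivity)] at hc
          rw [← ENNReal.ofReal_natCast]
          exact ENNReal.ofReal_le_ofReal hc
        · rw [Set.indicator_of_notMem hx]
          apply le_of_eq
          apply Finset.sum_eq_zero
          intro i _
          exact Set.indicator_of_notMem (fun h => hx h.2) _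
    _ = ENNReal.ofReal (2 * r * b + 1) * volume (arcSet b c' r') :=
        lintegral_indicator_const (measurableSet_arcSet _ _ _) _

/-- Overlap estimate: for `q, q' ≥ 1` and radii in `[0, 1/2]`,
`vol (A_q ∩ A_q') ≤ 4 r r' + 2 r' gcd(q, q') / q'`. -/
theorem measureReal_inter_arcSet_le (q q' : ℕ) (hq : 0 < q) (hq' : 0 < q')
    (c c' : UnitAddCircle) (r r' : ℝ) (hr : 0 ≤ r) (hr' : 0 ≤ r') (hr1' : r' ≤ 1 / 2) :
    volume.real (arcSet q c r ∩ arcSet q' c' r')
      ≤ 4 * r * r' + 2 * r' * (Nat.gcd q q' : ℝ) / q' := by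
  set d := Nat.gcd q q' with hd
  have hdpos : 0 < d := Nat.gcd_pos_of_pos_left q' hq
  set a := q / d with ha
  set b := q' / d with hb
  have hqa : q = a * d := (Nat.div_mul_cancel (Nat.gcd_dvd_left q q')).symm
  have hqb : q' = b * d := (Nat.div_mul_cancel (Nat.gcd_dvd_right q q')).symm
  have hbpos : 0 < b := Nat.div_pos (Nat.le_of_dvd hq' (Nat.gcd_dvd_right q q')) hdpos
  have hcop : Nat.Coprime a b := Nat.coprime_div_gcd_div_gcd hdpos
  have hmp : MeasurePreserving (fun x : UnitAddCircle => (d : ℤ) • x) volume volume :=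
    Measure.measurePreserving_zsmul volume (by exact_mod_cast hdpos.ne')
  have hset : arcSet q c r ∩ arcSet q' c' r'
      = (fun x : UnitAddCircle => (d : ℤ) • x) ⁻¹' (arcSet a c r ∩ arcSet b c' r') := by
    ext x
    simp only [arcSet, Set.mem_inter_iff, Set.mem_ofPred_eq, Set.mem_preimage, natCast_zsmul]
    rw [hqa, hqb, mul_smul, mul_smul]
  have hvol : volume (arcSet q c r ∩ arcSet q' c' r')
      = volume (arcSet a c r ∩ arcSet b c' r') := by
    rw [hset]
    exact hmp.measure_preimage
      ((measurableSet_arcSet _ _ _).inter (measurableSet_arcSet _ _ _)).nullMeasurableSet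
  have hfold := inter_arcSet_le_of_coprime a b hbpos hcop c c' r r' hr
  rw [volume_arcSet b hbpos.ne' c' r' hr1'] at hfold
  have hbR : (0 : ℝ) < b := by exact_mod_cast hbpos
  have hdR : (0 : ℝ) < d := by exact_mod_cast hdpos
  have hfin : volume (arcSet a c r ∩ arcSet b c' r') ≠ ⊤ := measure_ne_top _ _
  have hreal : (b : ℝ) * (volume (arcSet a c r ∩ arcSet b c' r')).toReal
      ≤ (2 * r * b + 1) * (2 * r') := by
    have h1 := ENNReal.toReal_mono
      (ENNReal.mul_ne_top ENNReal.ofReal_ne_top ENNReal.ofReal_ne_top) hfold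
    rw [ENNReal.toReal_mul, ENNReal.toReal_mul, ENNReal.toReal_natCast,
      ENNReal.toReal_ofReal (by positivity), ENNReal.toReal_ofReal (by positivity)] at h1
    exact h1
  rw [measureReal_def, hvol]
  have hq'R : (q' : ℝ) = b * d := by exact_mod_cast hqb
  have key : (volume (arcSet a c r ∩ arcSet b c' r')).toReal
      ≤ (2 * r * b + 1) * (2 * r') / b := by
    rw [le_div_iff₀ hbR]
    linarith
  refine le_trans key (le_of_eq ?_)
  rw [hq'R]
  field_simp
  ring

end Vale.Agent.Lib.P028
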