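import Mathlib

/-!
Inhomogeneous approximation with a moving target, non-decaying regime:
if `ψ q ≥ c > 0` for infinitely many `q`, then for Lebesgue-almost every real `x`
the inequality `|q x - a - γ q| < ψ q` has infinitely many solutions.
The proof uses the Lebesgue density theorem along balls with moving centres.
-/

open MeasureTheory Filter Metric Set

namespace Vale.Agent.Lib.P028

theorem ae_frequently_of_frequently_ge (γ : ℕ → ℝ) (ψ : ℕ → ℝ) (c : ℝ) (hc : 0 < c)
    (h : ∃ᶠ q : ℕ in atTop, c ≤ ψ q) :
    ∀ᵐ x : ℝ, ∃ᶠ q : ℕ in atTop, ∃ a : ℤ, |(q : ℝ) * x - a - γ q| < ψ q := by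
  set B : ℕ → Set ℝ := fun N =>
    {x | ∀ q : ℕ, N ≤ q → c ≤ ψ q → ¬ ∃ a : ℤ, |(q : ℝ) * x - a - γ q| < ψ q} with hB
  have hnull : ∀ N, volume (B N) = 0 := by
    intro N
    have key := IsUnifLocDoublingMeasure.ae_tendsto_measure_inter_div
      (volume : Measure ℝ) (B N) (2 / c)
    have hfalse : ∀ᵐ x ∂(volume.restrict (B N)), False := by
      filter_upwards [key] with x hx
      set l : Filter ℕ := atTop ⊓ 𝓟 {q | c ≤ ψ q} with hl
      have hne : l.NeBot := frequently_iff_neBot.mp h
      set w : ℕ → ℝ := fun q => ((round ((q : ℝ) * x - γ q) : ℤ) + γ q) / q with hw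
      set δ : ℕ → ℝ := fun q => (c / 2) / q with hδ
      have hle : l ≤ atTop := inf_le_left
      have hδ0 : Tendsto δ l (nhdsWithin 0 (Ioi 0)) := by
        rw [tendsto_nhdsWithin_iff]
        refine ⟨(tendsto_const_div_atTop_nhds_zero_nat (c / 2)).mono_left hle, ?_⟩
        have : ∀ᶠ q : ℕ in atTop, δ q ∈ Ioi (0 : ℝ) := by
          filter_upwards [eventually_gt_atTop 0] with q hq
          have hq' : (0 : ℝ) < q := by exact_mod_cast hq
          simp only [hδ, mem_Ioi]
          positivity
        exact hle this
      have hmem : ∀ᶠ q in l, x ∈ closedBall (w q) (2 / c * δ q) := by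
        have : ∀ᶠ q : ℕ in atTop, x ∈ closedBall (w q) (2 / c * δ q) := by
          filter_upwards [eventually_gt_atTop 0] with q hq
          have hq' : (0 : ℝ) < q := by exact_mod_cast hq
          rw [mem_closedBall, Real.dist_eq]
          have h1 : |(q : ℝ) * x - γ q - round ((q : ℝ) * x - γ q)| ≤ 1 / 2 :=
            abs_sub_round _
          have h2 : x - w q = ((q : ℝ) * x - γ q - round ((q : ℝ) * x - γ q)) / q := by
            simp only [hw]
            field_simp
            ring
          have h3 : 2 / c * δ q = 1 / q := by
            simp only [hδ]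
            field_simp
          rw [h2, h3, abs_div, abs_of_pos hq']
          have : (1 : ℝ) / 2 ≤ 1 := by norm_num
          gcongr
          linarith
        exact hle this
      have hlim := hx w δ hδ0 hmem
      have hzero : ∀ᶠ q in l,
          volume (B N ∩ closedBall (w q) (δ q)) / volume (closedBall (w q) (δ q)) = 0 := by
        have h1 : ∀ᶠ q : ℕ in atTop, c ≤ ψ q →
            volume (B N ∩ closedBall (w q) (δ q)) / volume (closedBall (w q) (δ q)) = 0 := by
          filter_upwards [eventually_gt_atTop 0, eventually_ge_atTop N] with q hq hqN hcq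
          have hq' : (0 : ℝ) < q := by exact_mod_cast hq
          have hempty : B N ∩ closedBall (w q) (δ q) = ∅ := by
            rw [Set.eq_empty_iff_forall_notMem]
            rintro y ⟨hyB, hyball⟩
            apply hyB q hqN hcq
            refine ⟨round ((q : ℝ) * x - γ q), ?_⟩
            rw [mem_closedBall, Real.dist_eq] at hyball
            have h2 : (q : ℝ) * y - round ((q : ℝ) * x - γ q) - γ q = q * (y - w q) := by
              simp only [hw]
              field_simp
              ring
            rw [h2, abs_mul, abs_of_pos hq']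
            have h3 : (q : ℝ) * |y - w q| ≤ q * δ q := by gcongr
            have h4 : (q : ℝ) * δ q = c / 2 := by
              simp only [hδ]
              field_simp
            linarith
          rw [hempty, measure_empty, ENNReal.zero_div]
        have h2 : ∀ᶠ q in l, c ≤ ψ q := by
          rw [hl]
          exact mem_inf_of_right (mem_principal_self _)
        filter_upwards [hle h1, h2] with q hq1 hq2 using hq1 hq2
      have hlim0 : Tendsto (fun _ : ℕ => (0 : ENNReal)) l (nhds 1) := by
        refine Tendsto.congr' ?_ hlim
        filter_upwards [hzero] with q hq using hq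
      exact zero_ne_one (tendsto_nhds_unique tendsto_const_nhds hlim0)
    have h0 : volume.restrict (B N) = 0 := by
      rw [← ae_eq_bot]
      exact eventually_false_iff_eq_bot.mp hfalse
    exact Measure.restrict_eq_zero.mp h0
  rw [ae_iff]
  refine measure_mono_null ?_ (measure_iUnion_null hnull)
  intro x hx
  simp only [Set.mem_ofPred_eq, not_frequently, eventually_atTop] at hx
  obtain ⟨N, hN⟩ := hx
  exact mem_iUnion.mpr ⟨N, fun q hq _ => hN q hq⟩

end Vale.Agent.Lib.P028
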