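import Mathlib
import Vale.Agent.Lib.P028.BorelCantelli
import Vale.Agent.Lib.P028.Circle
import Vale.Agent.Lib.P028.Density

/-!
Inhomogeneous approximation (moving targets allowed) for functions with gcd-sparse support:
divergence of `∑ ψ q` forces full measure.
-/

open MeasureTheory Filter Metric Set

namespace Vale.Agent.Lib.P028

theorem arcSet_zero_radius (q : ℕ) (c : UnitAddCircle) : arcSet q c 0 = ∅ := by
  ext x
  simp [arcSet]

theorem measureReal_arcSet (q : ℕ) (c : UnitAddCircle) (r : ℝ) (hr0 : 0 ≤ r) (hr : r ≤ 1 / 2)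
    (h0 : q = 0 → r = 0) : volume.real (arcSet q c r) = 2 * r := by
  by_cases hq : q = 0
  · rw [h0 hq, arcSet_zero_radius]
    simp
  · rw [measureReal_def, volume_arcSet q hq c r hr, ENNReal.toReal_ofReal (by positivity)]

/-- Circle version of the main theorem. -/
theorem circle_main (γ : ℕ → UnitAddCircle) (ρ : ℕ → ℝ) (hρ0 : ∀ q, 0 ≤ ρ q)
    (hρ1 : ∀ q, ρ q ≤ 1 / 2) (hzero : ρ 0 = 0) (C : ℝ)
    (hC : ∀ n, ρ n ≠ 0 →
      ∑ m ∈ (Finset.Ico 1 n).filter (fun m => ρ m ≠ 0), (Nat.gcd m n : ℝ) ≤ C * n)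
    (hdiv : ¬ Summable ρ) :
    ∀ᵐ x : UnitAddCircle, ∃ᶠ q : ℕ in atTop, x ∈ arcSet q (γ q) (ρ q) := by
  classical
  have hprob : IsProbabilityMeasure (volume : Measure UnitAddCircle) :=
    ⟨UnitAddCircle.measure_univ⟩
  set E : ℕ → Set UnitAddCircle := fun q => arcSet q (γ q) (ρ q) with hE
  have hp : ∀ q, volume.real (E q) = 2 * ρ q := fun q =>
    measureReal_arcSet q (γ q) (ρ q) (hρ0 q) (hρ1 q) (fun h => by rw [h]; exact hzero)
  have hEempty : ∀ q, ρ q = 0 → E q = ∅ := fun q h => by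
    simp only [hE]
    rw [h, arcSet_zero_radius]
  have hpos : ∀ q, ρ q ≠ 0 → 0 < q := fun q h =>
    Nat.pos_of_ne_zero (fun h0 => h (by rw [h0]; exact hzero))
  set h : ℕ → ℕ → ℝ := fun m n =>
    if m < n ∧ ρ m ≠ 0 then 2 * ρ n * (Nat.gcd m n : ℝ) / n else 0 with hh
  have hh0 : ∀ m n, 0 ≤ h m n := by
    intro m n
    simp only [hh]
    split_ifs
    · have := hρ0 n
      positivity
    · exact le_refl _
  set t : ℕ → ℕ → ℝ := fun m n =>
    volume.real (E m ∩ E n) - volume.real (E m) * volume.real (E n) with ht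
  have htlt : ∀ m n, m < n → t m n ≤ h m n := by
    intro m n hmn
    simp only [ht, hh]
    by_cases hm : ρ m = 0
    · rw [hEempty m hm]
      simp [hm]
    · rw [if_pos ⟨hmn, hm⟩, hp m, hp n]
      have hm0 : 0 < m := hpos m hm
      have hn0 : 0 < n := lt_trans hm0 hmn
      have := measureReal_inter_arcSet_le m n hm0 hn0 (γ m) (γ n) (ρ m) (ρ n) (hρ0 m) (hρ0 n)
        (hρ1 n)
      simp only [hE]
      linarith
  have htsymm : ∀ m n, t m n = t n m := by
    intro m n
    simp only [ht]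
    rw [Set.inter_comm, mul_comm]
  have htdiag : ∀ n, t n n ≤ 2 * ρ n := by
    intro n
    simp only [ht]
    rw [Set.inter_self, hp n]
    nlinarith [hρ0 n]
  have hterm : ∀ m n, t m n ≤ (if m = n then 2 * ρ n else 0) + h m n + h n m := by
    intro m n
    rcases lt_trichotomy m n with hmn | hmn | hmn
    · rw [if_neg hmn.ne]
      linarith [htlt m n hmn, hh0 n m]
    · rw [if_pos hmn, hmn]
      linarith [htdiag n, hh0 n n]
    · rw [if_neg hmn.ne', htsymm m n]
      linarith [htlt n m hmn, hh0 m n]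
  -- inner sums of h
  have hinner : ∀ N n, ∑ m ∈ Finset.range N, h m n ≤ 2 * |C| * ρ n := by
    intro N n
    by_cases hn : ρ n = 0
    · have : ∀ m ∈ Finset.range N, h m n = 0 := by
        intro m _
        simp [hh, hn]
      rw [Finset.sum_eq_zero this, hn, mul_zero]
    · have hn0 : 0 < n := hpos n hn
      have hnR : (0 : ℝ) < n := by exact_mod_cast hn0
      have h1 : ∑ m ∈ Finset.range N, h m n
          = ∑ m ∈ (Finset.range N).filter (fun m => m < n ∧ ρ m ≠ 0),
              2 * ρ n * (Nat.gcd m n : ℝ) / n := by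
        simp only [hh]
        rw [Finset.sum_filter]
      have h2 : ∑ m ∈ (Finset.range N).filter (fun m => m < n ∧ ρ m ≠ 0),
              2 * ρ n * (Nat.gcd m n : ℝ) / n
          ≤ ∑ m ∈ (Finset.Ico 1 n).filter (fun m => ρ m ≠ 0),
              2 * ρ n * (Nat.gcd m n : ℝ) / n := by
        apply Finset.sum_le_sum_of_subset_of_nonneg
        · intro m hm
          rw [Finset.mem_filter] at hm ⊢
          exact ⟨Finset.mem_Ico.mpr ⟨hpos m hm.2.2, hm.2.1⟩, hm.2.2⟩
        · intro m _ _
          have := hρ0 n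
          positivity
      have h3 : ∑ m ∈ (Finset.Ico 1 n).filter (fun m => ρ m ≠ 0),
              2 * ρ n * (Nat.gcd m n : ℝ) / n
          = (2 * ρ n / n) * ∑ m ∈ (Finset.Ico 1 n).filter (fun m => ρ m ≠ 0),
              (Nat.gcd m n : ℝ) := by
        rw [Finset.mul_sum]
        refine Finset.sum_congr rfl fun m _ => ?_
        ring
      rw [h1]
      refine le_trans h2 ?_
      rw [h3]
      have h4 := hC n hn
      have h5 : (2 * ρ n / n) * ∑ m ∈ (Finset.Ico 1 n).filter (fun m => ρ m ≠ 0),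
              (Nat.gcd m n : ℝ) ≤ (2 * ρ n / n) * (C * n) := by
        apply mul_le_mul_of_nonneg_left h4
        have := hρ0 n
        positivity
      refine le_trans h5 ?_
      have h6 : (2 * ρ n / n) * (C * n) = 2 * C * ρ n := by
        field_simp
      rw [h6]
      have := le_abs_self C
      nlinarith [hρ0 n]
  set P : ℕ → ℝ := fun N => ∑ n ∈ Finset.range N, volume.real (E n) with hP
  have hPeq : ∀ N, P N = 2 * ∑ n ∈ Finset.range N, ρ n := by
    intro N
    simp only [hP]
    rw [Finset.mul_sum]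
    exact Finset.sum_congr rfl fun n _ => hp n
  have hDbound : ∀ N, ∑ m ∈ Finset.range N, ∑ n ∈ Finset.range N, t m n
      ≤ (1 + 2 * |C|) * P N := by
    intro N
    calc ∑ m ∈ Finset.range N, ∑ n ∈ Finset.range N, t m n
        ≤ ∑ m ∈ Finset.range N, ∑ n ∈ Finset.range N,
            ((if m = n then 2 * ρ n else 0) + h m n + h n m) :=
          Finset.sum_le_sum fun m _ => Finset.sum_le_sum fun n _ => hterm m n
      _ = ∑ m ∈ Finset.range N, ∑ n ∈ Finset.range N, (if m = n then 2 * ρ n else 0)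
            + ∑ m ∈ Finset.range N, ∑ n ∈ Finset.range N, h m n
            + ∑ m ∈ Finset.range N, ∑ n ∈ Finset.range N, h n m := by
          simp only [Finset.sum_add_distrib]
      _ ≤ ∑ n ∈ Finset.range N, 2 * ρ n + ∑ n ∈ Finset.range N, 2 * |C| * ρ n
            + ∑ n ∈ Finset.range N, 2 * |C| * ρ n := by
          have e1 : ∑ m ∈ Finset.range N, ∑ n ∈ Finset.range N,
              (if m = n then 2 * ρ n else 0) = ∑ n ∈ Finset.range N, 2 * ρ n := by
            refine Finset.sum_congr rfl fun m hm => ?_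
            rw [Finset.sum_ite_eq (Finset.range N) m (fun n => 2 * ρ n), if_pos hm]
          have e2 : ∑ m ∈ Finset.range N, ∑ n ∈ Finset.range N, h m n
              ≤ ∑ n ∈ Finset.range N, 2 * |C| * ρ n := by
            rw [Finset.sum_comm]
            exact Finset.sum_le_sum fun n _ => hinner N n
          have e3 : ∑ m ∈ Finset.range N, ∑ n ∈ Finset.range N, h n m
              ≤ ∑ n ∈ Finset.range N, 2 * |C| * ρ n :=
            Finset.sum_le_sum fun n _ => hinner N n
          rw [e1]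
          linarith
      _ = (1 + 2 * |C|) * P N := by
          rw [hPeq N, ← Finset.mul_sum, ← Finset.mul_sum]
          ring
  have hPtend : Tendsto P atTop atTop := by
    have h1 := (not_summable_iff_tendsto_nat_atTop_of_nonneg hρ0).mp hdiv
    have h2 := h1.const_mul_atTop (zero_lt_two' ℝ)
    refine h2.congr fun N => ?_
    exact (hPeq N).symm
  refine ae_frequently_mem_of_variance volume E (fun q => measurableSet_arcSet _ _ _) hPtend ?_
  intro ε hε
  apply Eventually.frequently
  filter_upwards [hPtend.eventually_ge_atTop ((1 + 2 * |C|) / ε),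
    hPtend.eventually_ge_atTop 0] with N hN1 hN0
  refine le_trans (hDbound N) ?_
  have hK : 0 ≤ 1 + 2 * |C| := by positivity
  have h1 : 1 + 2 * |C| ≤ ε * P N := by
    rw [div_le_iff₀ hε] at hN1
    linarith
  calc (1 + 2 * |C|) * P N ≤ (ε * P N) * P N := mul_le_mul_of_nonneg_right h1 hN0
    _ = ε * P N ^ 2 := by ring

/-- Membership in an arc set read on a real representative. -/
theorem exists_int_of_mem_arcSet (q : ℕ) (x g r : ℝ)
    (h : (x : UnitAddCircle) ∈ arcSet q (g : UnitAddCircle) r) :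
    ∃ a : ℤ, |(q : ℝ) * x - a - g| < r := by
  simp only [arcSet, Set.mem_ofPred_eq, mem_ball, dist_eq_norm] at h
  rw [← AddCircle.coe_nsmul, ← AddCircle.coe_sub, UnitAddCircle.norm_eq, nsmul_eq_mul] at h
  refine ⟨round ((q : ℝ) * x - g), ?_⟩
  have : (q : ℝ) * x - round ((q : ℝ) * x - g) - g
      = (q : ℝ) * x - g - round ((q : ℝ) * x - g) := by ring
  rw [this]
  exact h

/-- A property holding almost everywhere on the circle holds almost everywhere on the line. -/
theorem ae_real_of_ae_circle (p : UnitAddCircle → Prop) (h : ∀ᵐ y : UnitAddCircle, p y) :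
    ∀ᵐ x : ℝ, p (x : UnitAddCircle) := by
  rw [ae_iff] at h ⊢
  set S : Set ℝ := {x : ℝ | ¬ p (x : UnitAddCircle)} with hS
  have hn : ∀ n : ℤ, volume (S ∩ Ioc (n : ℝ) (n + 1)) = 0 := by
    intro n
    have hmp := AddCircle.measurePreserving_mk 1 (n : ℝ)
    have h0 := hmp.quasiMeasurePreserving.preimage_null h
    rwa [Measure.restrict_apply' measurableSet_Ioc] at h0
  have hU : S = ⋃ n : ℤ, S ∩ Ioc (n : ℝ) (n + 1) := by
    rw [← Set.inter_iUnion, iUnion_Ioc_intCast, Set.inter_univ]
  rw [hU]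
  exact measure_iUnion_null hn

/-- Main theorem on the line, with a moving target `γ q`: if the support of `ψ` is
gcd-sparse and `∑ ψ q` diverges, then for almost every real `x` the inequality
`|q x - a - γ q| < ψ q` has infinitely many solutions. -/
theorem ae_frequently_of_gcd_sparse (γ : ℕ → ℝ) (ψ : ℕ → ℝ) (hψ : ∀ q, 0 ≤ ψ q) (C : ℝ)
    (hC : ∀ n : ℕ, ψ n ≠ 0 →
      ∑ m ∈ (Finset.Ico 1 n).filter (fun m => ψ m ≠ 0), (Nat.gcd m n : ℝ) ≤ C * n)
    (hdiv : ¬ Summable ψ) :
    ∀ᵐ x : ℝ, ∃ᶠ q : ℕ in atTop, ∃ a : ℤ, |(q : ℝ) * x - a - γ q| < ψ q := by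
  classical
  set ρ : ℕ → ℝ := fun q => if q = 0 then 0 else min (ψ q) (1 / 2) with hρ
  have hρ0 : ∀ q, 0 ≤ ρ q := by
    intro q
    simp only [hρ]
    split_ifs
    · exact le_refl _
    · exact le_min (hψ q) (by norm_num)
  have hρ1 : ∀ q, ρ q ≤ 1 / 2 := by
    intro q
    simp only [hρ]
    split_ifs
    · norm_num
    · exact min_le_right _ _
  have hzero : ρ 0 = 0 := by simp [hρ]
  have hρle : ∀ q, ρ q ≤ ψ q := by
    intro q
    simp only [hρ]
    split_ifs
    · exact hψ q
    · exact min_le_left _ _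
  have hρne : ∀ q, ρ q ≠ 0 → ψ q ≠ 0 := by
    intro q hq hq0
    exact hq (le_antisymm (hq0 ▸ hρle q) (hρ0 q))
  have hCρ : ∀ n : ℕ, ρ n ≠ 0 →
      ∑ m ∈ (Finset.Ico 1 n).filter (fun m => ρ m ≠ 0), (Nat.gcd m n : ℝ) ≤ C * n := by
    intro n hn
    refine le_trans ?_ (hC n (hρne n hn))
    apply Finset.sum_le_sum_of_subset_of_nonneg
    · intro m hm
      rw [Finset.mem_filter] at hm ⊢
      exact ⟨hm.1, hρne m hm.2⟩
    · intro m _ _
      positivity
  have hdivρ : ¬ Summable ρ := by
    intro hs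
    have htend := hs.tendsto_atTop_zero
    have hev : ∀ᶠ q in atTop, ρ q < 1 / 2 :=
      (tendsto_order.1 htend).2 (1 / 2) (by norm_num)
    have heq : ρ =ᶠ[atTop] ψ := by
      filter_upwards [hev, eventually_ne_atTop 0] with q hq hq0
      simp only [hρ, if_neg hq0] at hq ⊢
      rcases min_cases (ψ q) (1 / 2) with h | h
      · exact h.1
      · rw [h.1] at hq
        exact absurd hq (lt_irrefl _)
    exact hdiv ((summable_congr_atTop heq).mp hs)
  have hcircle := circle_main (fun q => ((γ q : ℝ) : UnitAddCircle)) ρ hρ0 hρ1 hzero C hCρ hdivρ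
  have hreal := ae_real_of_ae_circle
    (fun y => ∃ᶠ q : ℕ in atTop, y ∈ arcSet q ((γ q : ℝ) : UnitAddCircle) (ρ q)) hcircle
  filter_upwards [hreal] with x hx
  refine hx.mono fun q hq => ?_
  obtain ⟨a, ha⟩ := exists_int_of_mem_arcSet q x (γ q) (ρ q) hq
  exact ⟨a, lt_of_lt_of_le ha (hρle q)⟩

end Vale.Agent.Lib.P028
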