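import Mathlib
import Vale.Agent.Lib.P028.Sparse

/-!
Consequences of the gcd-sparse theorem: divergence along a gcd-sparse subset suffices, and
integers with a bounded number of divisors form a gcd-sparse set.
-/

open MeasureTheory Filter Finset

namespace Vale.Agent.Lib.P028

/-- `∑_{1 ≤ m ≤ n} gcd(m, n) ≤ n * (number of divisors of n)`. -/
theorem sum_gcd_le (n : ℕ) (hn : 0 < n) :
    ∑ m ∈ Ioc 0 n, Nat.gcd m n ≤ n * (Nat.divisors n).card := by
  have h1 : ∀ m ∈ Ioc 0 n, Nat.gcd m n ≤ ∑ d ∈ Nat.divisors n, (if d ∣ m then d else 0) := by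
    intro m _
    have hmem : Nat.gcd m n ∈ Nat.divisors n :=
      Nat.mem_divisors.mpr ⟨Nat.gcd_dvd_right m n, hn.ne'⟩
    have h2 : (if Nat.gcd m n ∣ m then Nat.gcd m n else 0)
        ≤ ∑ d ∈ Nat.divisors n, (if d ∣ m then d else 0) :=
      Finset.single_le_sum (f := fun d => if d ∣ m then d else 0)
        (fun d _ => Nat.zero_le _) hmem
    rwa [if_pos (Nat.gcd_dvd_left m n)] at h2
  calc ∑ m ∈ Ioc 0 n, Nat.gcd m n
      ≤ ∑ m ∈ Ioc 0 n, ∑ d ∈ Nat.divisors n, (if d ∣ m then d else 0) :=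
        Finset.sum_le_sum h1
    _ = ∑ d ∈ Nat.divisors n, ∑ m ∈ Ioc 0 n, (if d ∣ m then d else 0) := Finset.sum_comm
    _ = ∑ d ∈ Nat.divisors n, d * (n / d) := by
        refine Finset.sum_congr rfl fun d _ => ?_
        rw [← Finset.sum_filter, Finset.sum_const, Nat.Ioc_filter_dvd_card_eq_div, smul_eq_mul,
          mul_comm]
    _ ≤ ∑ _d ∈ Nat.divisors n, n := Finset.sum_le_sum fun d _ => Nat.mul_div_le n d
    _ = n * (Nat.divisors n).card := by rw [Finset.sum_const, smul_eq_mul, mul_comm]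

/-- Divergence along a gcd-sparse subset suffices (moving targets allowed). -/
theorem ae_frequently_of_gcd_sparse_subset (γ : ℕ → ℝ) (ψ : ℕ → ℝ) (hψ : ∀ q, 0 ≤ ψ q)
    (S : Set ℕ) (C : ℝ)
    (hS : ∀ n ∈ S, ∑ m ∈ Ico 1 n, S.indicator (fun m => (Nat.gcd m n : ℝ)) m ≤ C * n)
    (hdiv : ¬ Summable (S.indicator ψ)) :
    ∀ᵐ x : ℝ, ∃ᶠ q : ℕ in atTop, ∃ a : ℤ, |(q : ℝ) * x - a - γ q| < ψ q := by
  classical
  set ψS : ℕ → ℝ := S.indicator ψ with hψS
  have hψS0 : ∀ q, 0 ≤ ψS q := fun q => Set.indicator_nonneg (fun q _ => hψ q) q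
  have hψSle : ∀ q, ψS q ≤ ψ q := fun q => Set.indicator_le_self' (fun _ _ => hψ q) q
  have hmem : ∀ q, ψS q ≠ 0 → q ∈ S := by
    intro q hq
    by_contra hqS
    exact hq (Set.indicator_of_notMem hqS ψ)
  have hC : ∀ n : ℕ, ψS n ≠ 0 →
      ∑ m ∈ (Ico 1 n).filter (fun m => ψS m ≠ 0), (Nat.gcd m n : ℝ) ≤ C * n := by
    intro n hn
    refine le_trans ?_ (hS n (hmem n hn))
    rw [Finset.sum_filter]
    refine Finset.sum_le_sum fun m _ => ?_
    by_cases hm : ψS m ≠ 0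
    · rw [if_pos hm, Set.indicator_of_mem (hmem m hm)]
    · rw [if_neg hm]
      exact Set.indicator_nonneg (fun _ _ => Nat.cast_nonneg _) m
  have key := ae_frequently_of_gcd_sparse γ ψS hψS0 C hC hdiv
  filter_upwards [key] with x hx
  refine hx.mono fun q hq => ?_
  obtain ⟨a, ha⟩ := hq
  exact ⟨a, lt_of_lt_of_le ha (hψSle q)⟩

/-- Divergence along the integers with at most `K` divisors suffices. -/
theorem ae_frequently_of_bounded_divisors (γ : ℕ → ℝ) (ψ : ℕ → ℝ) (hψ : ∀ q, 0 ≤ ψ q)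
    (K : ℕ)
    (hdiv : ¬ Summable (fun q : ℕ => if (Nat.divisors q).card ≤ K then ψ q else 0)) :
    ∀ᵐ x : ℝ, ∃ᶠ q : ℕ in atTop, ∃ a : ℤ, |(q : ℝ) * x - a - γ q| < ψ q := by
  classical
  set S : Set ℕ := {q | (Nat.divisors q).card ≤ K} with hSdef
  have hind : S.indicator ψ = fun q : ℕ => if (Nat.divisors q).card ≤ K then ψ q else 0 := by
    funext q
    by_cases hq : (Nat.divisors q).card ≤ K
    · rw [if_pos hq, Set.indicator_of_mem (show q ∈ S from hq)]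
    · rw [if_neg hq, Set.indicator_of_notMem (show q ∉ S from hq)]
  refine ae_frequently_of_gcd_sparse_subset γ ψ hψ S K ?_ (by rw [hind]; exact hdiv)
  intro n hn
  rcases Nat.eq_zero_or_pos n with h0 | hpos
  · subst h0
    simp
  have h1 : ∑ m ∈ Ico 1 n, S.indicator (fun m => (Nat.gcd m n : ℝ)) m
      ≤ ∑ m ∈ Ioc 0 n, (Nat.gcd m n : ℝ) := by
    have hsub : Ico 1 n ⊆ Ioc 0 n := by
      intro m hm
      rw [mem_Ico] at hm
      rw [mem_Ioc]
      omega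
    calc ∑ m ∈ Ico 1 n, S.indicator (fun m => (Nat.gcd m n : ℝ)) m
        ≤ ∑ m ∈ Ico 1 n, (Nat.gcd m n : ℝ) :=
          Finset.sum_le_sum fun m _ =>
            Set.indicator_le_self' (fun _ _ => Nat.cast_nonneg _) m
      _ ≤ ∑ m ∈ Ioc 0 n, (Nat.gcd m n : ℝ) :=
          Finset.sum_le_sum_of_subset_of_nonneg hsub (fun _ _ _ => Nat.cast_nonneg _)
  have h2 : ∑ m ∈ Ioc 0 n, (Nat.gcd m n : ℝ) ≤ (n : ℝ) * (Nat.divisors n).card := by
    exact_mod_cast sum_gcd_le n hpos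
  have h3 : ((Nat.divisors n).card : ℝ) ≤ K := by exact_mod_cast hn
  calc ∑ m ∈ Ico 1 n, S.indicator (fun m => (Nat.gcd m n : ℝ)) m
      ≤ (n : ℝ) * (Nat.divisors n).card := le_trans h1 h2
    _ ≤ (n : ℝ) * K := by gcongr
    _ = K * n := by ring

end Vale.Agent.Lib.P028
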