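import Mathlib
import Vale.Agent.Lib.P028.Circle

/-!
Quasi-independence on average forces full measure for periodic sets of growing frequency.

Let `E q` be measurable subsets of the unit circle with `E q` invariant under the rotation by
`1 / q`.  If `∑ vol (E q)` diverges and, for infinitely many `N`,
`∑_{m, n < N} vol (E m ∩ E n) ≤ C (∑_{n < N} vol (E n))²`, then almost every point lies in
infinitely many `E q`.  The proof approximates the indicator of the exceptional set by a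
trigonometric polynomial in `L²` and uses that `E q` is orthogonal to the characters
`e_k`, `0 < |k| < q`.
-/

open MeasureTheory Filter Metric Set
open scoped InnerProductSpace ComplexConjugate ENNReal

namespace Vale.Agent.Lib.P028

/-- The normalised Haar measure of the unit circle. -/
noncomputable abbrev circleHaar : Measure UnitAddCircle := AddCircle.haarAddCircle

theorem volume_eq_circleHaar : (volume : Measure UnitAddCircle) = circleHaar := by
  rw [AddCircle.volume_eq_smul_haarAddCircle]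
  simp

/-- Trigonometric polynomials only see finitely many frequencies. -/
theorem trig_poly_inner (p : Lp ℂ 2 circleHaar)
    (hp : p ∈ Submodule.span ℂ (Set.range (fourierLp (T := (1 : ℝ)) 2))) :
    ∃ D : ℕ, ∀ h : Lp ℂ 2 circleHaar,
      (∀ k : ℤ, k ≠ 0 → |k| ≤ (D : ℤ) → ⟪fourierLp (T := (1 : ℝ)) 2 k, h⟫_ℂ = 0) →
      ⟪p, h⟫_ℂ = ⟪p, fourierLp (T := (1 : ℝ)) 2 0⟫_ℂ * ⟪fourierLp (T := (1 : ℝ)) 2 0, h⟫_ℂ := by
  induction hp using Submodule.span_induction with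
  | mem x hx =>
    obtain ⟨k, rfl⟩ := hx
    by_cases hk : k = 0
    · subst hk
      refine ⟨0, fun h _ => ?_⟩
      have h1 := (orthonormal_iff_ite.mp (orthonormal_fourier (T := (1 : ℝ)))) 0 0
      rw [if_pos rfl] at h1
      rw [h1, one_mul]
    · refine ⟨k.natAbs, fun h hh => ?_⟩
      have h1 := (orthonormal_iff_ite.mp (orthonormal_fourier (T := (1 : ℝ)))) k 0
      rw [if_neg hk] at h1
      rw [h1, zero_mul]
      apply hh k hk
      rw [Int.natCast_natAbs]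
  | zero =>
    refine ⟨0, fun h _ => ?_⟩
    simp
  | add x y hx hy ihx ihy =>
    obtain ⟨D1, h1⟩ := ihx
    obtain ⟨D2, h2⟩ := ihy
    refine ⟨max D1 D2, fun h hh => ?_⟩
    have e1 := h1 h (fun k hk hkD => hh k hk (le_trans hkD (by exact_mod_cast le_max_left D1 D2)))
    have e2 := h2 h (fun k hk hkD => hh k hk (le_trans hkD (by exact_mod_cast le_max_right D1 D2)))
    rw [inner_add_left, inner_add_left, e1, e2]
    ring
  | smul a x hx ih =>
    obtain ⟨D, h1⟩ := ih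
    refine ⟨D, fun h hh => ?_⟩
    rw [inner_smul_left, inner_smul_left, h1 h hh]
    ring

/-- The character `e_k` integrates to zero over a set invariant under the rotation by `1 / q`
when `q` does not divide `k`. -/
theorem setIntegral_fourier_eq_zero (S : Set UnitAddCircle) (hS : MeasurableSet S)
    (q : ℕ) (hq : 0 < q)
    (hper : ∀ x : UnitAddCircle, (x + (((1 : ℝ) / q : ℝ) : UnitAddCircle) ∈ S ↔ x ∈ S))
    (k : ℤ) (hk : ¬ (q : ℤ) ∣ k) :
    ∫ x in S, fourier k x ∂circleHaar = 0 := by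
  classical
  set v : UnitAddCircle := (((1 : ℝ) / q : ℝ) : UnitAddCircle) with hv
  set F : UnitAddCircle → ℂ := S.indicator (fun x => fourier k x) with hF
  have hqR : (q : ℝ) ≠ 0 := by exact_mod_cast hq.ne'
  have hshift : ∀ x, F (x + v) = fourier k v * F x := by
    intro x
    simp only [hF]
    by_cases hx : x ∈ S
    · rw [Set.indicator_of_mem ((hper x).mpr hx), Set.indicator_of_mem hx]
      have : fourier k (x + v) = fourier k x * fourier k v := by
        simp only [fourier_apply, zsmul_add, AddCircle.toCircle_add, Circle.coe_mul]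
      rw [this, mul_comm]
    · rw [Set.indicator_of_notMem (fun h => hx ((hper x).mp h)), Set.indicator_of_notMem hx,
        mul_zero]
  have hne : fourier k v ≠ 1 := by
    intro h1
    rw [hv, fourier_coe_apply, Complex.exp_eq_one_iff] at h1
    obtain ⟨n, hn⟩ := h1
    apply hk
    refine ⟨n, ?_⟩
    have h2 : (k : ℂ) = (n : ℂ) * (q : ℂ) := by
      have hpi : (2 * (Real.pi : ℂ) * Complex.I) ≠ 0 := by
        simp [Real.pi_ne_zero, Complex.I_ne_zero]
      have hqC : (q : ℂ) ≠ 0 := by exact_mod_cast hq.ne'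
      have h3 : 2 * (Real.pi : ℂ) * Complex.I * (k : ℂ) * (((1 : ℝ) / (q : ℝ) : ℝ) : ℂ) / ((1 : ℝ) : ℂ)
          = (2 * (Real.pi : ℂ) * Complex.I) * ((k : ℂ) / (q : ℂ)) := by
        push_cast
        field_simp
      rw [h3] at hn
      have h4 : (k : ℂ) / (q : ℂ) = (n : ℂ) := by
        apply mul_left_cancel₀ hpi
        rw [hn]
        ring
      rw [div_eq_iff hqC] at h4
      exact h4
    have h5 : ((k : ℤ) : ℂ) = (((n * (q : ℤ)) : ℤ) : ℂ) := by
      push_cast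
      exact h2
    have h6 : k = n * (q : ℤ) := by exact_mod_cast h5
    rw [h6, mul_comm]
  have hI : ∫ x, F (x + v) ∂circleHaar = ∫ x, F x ∂circleHaar :=
    integral_add_right_eq_self F v
  have hI2 : ∫ x, F (x + v) ∂circleHaar = fourier k v * ∫ x, F x ∂circleHaar := by
    rw [← integral_const_mul]
    exact integral_congr_ae (Eventually.of_forall hshift)
  have hzero : ∫ x, F x ∂circleHaar = 0 := by
    have h7 : (1 - fourier k v) * ∫ x, F x ∂circleHaar = 0 := by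
      rw [sub_mul, one_mul, ← hI2, hI, sub_self]
    rcases mul_eq_zero.mp h7 with h8 | h8
    · exact absurd (sub_eq_zero.mp h8).symm hne
    · exact h8
  have hmeasS : ∫ x in S, fourier k x ∂circleHaar = ∫ x, F x ∂circleHaar := by
    rw [hF, integral_indicator hS]
  rw [hmeasS, hzero]

/-- Pairing an indicator with the constant character. -/
theorem inner_indicator_fourier_zero (S : Set UnitAddCircle) (hS : MeasurableSet S)
    (hfin : circleHaar S ≠ ∞) :
    ⟪indicatorConstLp 2 hS hfin (1 : ℂ), fourierLp (T := (1 : ℝ)) 2 0⟫_ℂ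
      = ((circleHaar.real S : ℝ) : ℂ) := by
  rw [L2.inner_indicatorConstLp_one]
  have h1 : ∫ x in S, (fourierLp (T := (1 : ℝ)) 2 0 : UnitAddCircle → ℂ) x ∂circleHaar
      = ∫ x in S, (1 : ℂ) ∂circleHaar := by
    apply setIntegral_congr_ae hS
    filter_upwards [coeFn_fourierLp (T := (1 : ℝ)) 2 0] with x hx _
    rw [hx]
    exact fourier_zero
  rw [h1, setIntegral_const]
  simp

/-- A character of frequency not divisible by `q` is orthogonal to the indicator of a set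
invariant under the rotation by `1 / q`. -/
theorem inner_fourier_indicator_eq_zero (S : Set UnitAddCircle) (hS : MeasurableSet S)
    (hfin : circleHaar S ≠ ∞) (q : ℕ) (hq : 0 < q)
    (hper : ∀ x : UnitAddCircle, (x + (((1 : ℝ) / q : ℝ) : UnitAddCircle) ∈ S ↔ x ∈ S))
    (k : ℤ) (hk : ¬ (q : ℤ) ∣ k) :
    ⟪fourierLp (T := (1 : ℝ)) 2 k, indicatorConstLp 2 hS hfin (1 : ℂ)⟫_ℂ = 0 := by
  rw [inner_eq_zero_symm, L2.inner_indicatorConstLp_one]
  have h0 := setIntegral_fourier_eq_zero S hS q hq hper k hk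
  rw [← h0]
  apply setIntegral_congr_ae hS
  filter_upwards [coeFn_fourierLp (T := (1 : ℝ)) 2 k] with x hx _
  exact hx

/-- The squared norm of a sum of indicators is the sum of the measures of the pairwise
intersections. -/
theorem norm_sq_sum_indicator (E : ℕ → Set UnitAddCircle) (hE : ∀ q, MeasurableSet (E q))
    (hfin : ∀ s : Set UnitAddCircle, circleHaar s ≠ ∞) (s : Finset ℕ) :
    ‖∑ q ∈ s, indicatorConstLp 2 (hE q) (hfin (E q)) (1 : ℂ)‖ ^ 2
      = ∑ m ∈ s, ∑ n ∈ s, circleHaar.real (E m ∩ E n) := by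
  set f : Lp ℂ 2 circleHaar := ∑ q ∈ s, indicatorConstLp 2 (hE q) (hfin (E q)) (1 : ℂ) with hf
  have h1 : ((‖f‖ ^ 2 : ℝ) : ℂ) = ⟪f, f⟫_ℂ := by
    rw [inner_self_eq_norm_sq_to_K]
    push_cast
    rfl
  have h2 : ⟪f, f⟫_ℂ = ((∑ m ∈ s, ∑ n ∈ s, circleHaar.real (E m ∩ E n) : ℝ) : ℂ) := by
    rw [hf, sum_inner, Complex.ofReal_sum]
    apply Finset.sum_congr rfl
    intro m _
    rw [inner_sum, Complex.ofReal_sum]
    apply Finset.sum_congr rfl
    intro n _
    exact L2.inner_indicatorConstLp_one_indicatorConstLp_one (hE m) (hE n) (hfin _) (hfin _)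
  exact_mod_cast h1.trans h2

/-- The Hilbert space inequality behind the mixing argument. -/
theorem hilbert_mixing_bound {H : Type*} [NormedAddCommGroup H] [InnerProductSpace ℂ H]
    (g p e0 f : H) (δ Ψ' ε L : ℝ) (hΨ' : 0 ≤ Ψ') (hδ : 0 ≤ δ) (hε : 0 ≤ ε)
    (he0 : ‖e0‖ = 1) (hgf : ⟪g, f⟫_ℂ = 0) (hge0 : ⟪g, e0⟫_ℂ = ((δ : ℝ) : ℂ))
    (he0f : ⟪e0, f⟫_ℂ = ((Ψ' : ℝ) : ℂ)) (hpf : ⟪p, f⟫_ℂ = ⟪p, e0⟫_ℂ * ⟪e0, f⟫_ℂ)
    (hgp : ‖g - p‖ ≤ ε) (hf : ‖f‖ ≤ L * Ψ') :
    δ * Ψ' ≤ ε * Ψ' + ε * (L * Ψ') := by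
  have hident : ((δ * Ψ' : ℝ) : ℂ)
      = ⟪g - p, e0⟫_ℂ * ((Ψ' : ℝ) : ℂ) - ⟪g - p, f⟫_ℂ := by
    rw [inner_sub_left, inner_sub_left, hgf, hpf, he0f, hge0]
    push_cast
    ring
  have h1 : ‖((δ * Ψ' : ℝ) : ℂ)‖ = δ * Ψ' := by
    rw [Complex.norm_real, Real.norm_of_nonneg (mul_nonneg hδ hΨ')]
  rw [← h1, hident]
  have h2 : ‖⟪g - p, e0⟫_ℂ‖ ≤ ε := by
    calc ‖⟪g - p, e0⟫_ℂ‖ ≤ ‖g - p‖ * ‖e0‖ := norm_inner_le_norm _ _
      _ = ‖g - p‖ := by rw [he0, mul_one]
      _ ≤ ε := hgp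
  have h3 : ‖⟪g - p, f⟫_ℂ‖ ≤ ε * (L * Ψ') := by
    calc ‖⟪g - p, f⟫_ℂ‖ ≤ ‖g - p‖ * ‖f‖ := norm_inner_le_norm _ _
      _ ≤ ε * (L * Ψ') := mul_le_mul hgp hf (norm_nonneg _) hε
  calc ‖⟪g - p, e0⟫_ℂ * ((Ψ' : ℝ) : ℂ) - ⟪g - p, f⟫_ℂ‖
      ≤ ‖⟪g - p, e0⟫_ℂ * ((Ψ' : ℝ) : ℂ)‖ + ‖⟪g - p, f⟫_ℂ‖ := norm_sub_le _ _
    _ ≤ ε * Ψ' + ε * (L * Ψ') := by
        rw [norm_mul, Complex.norm_real, Real.norm_of_nonneg hΨ']
        have := mul_le_mul_of_nonneg_right h2 hΨ'
        linarith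

/-- Quasi-independence on average plus periodicity of growing frequency forces full measure
(statement for the normalised Haar measure). -/
theorem ae_frequently_of_qia_periodic_haar (E : ℕ → Set UnitAddCircle)
    (hE : ∀ q, MeasurableSet (E q))
    (hper : ∀ q : ℕ, 0 < q → ∀ x : UnitAddCircle,
      (x + (((1 : ℝ) / q : ℝ) : UnitAddCircle) ∈ E q ↔ x ∈ E q))
    (hdiv : Tendsto (fun N => ∑ n ∈ Finset.range N, circleHaar.real (E n)) atTop atTop)
    (C : ℝ)
    (hqia : ∃ᶠ N in atTop,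
      ∑ m ∈ Finset.range N, ∑ n ∈ Finset.range N, circleHaar.real (E m ∩ E n)
        ≤ C * (∑ n ∈ Finset.range N, circleHaar.real (E n)) ^ 2) :
    ∀ᵐ x ∂circleHaar, ∃ᶠ q in atTop, x ∈ E q := by
  classical
  have hfin : ∀ s : Set UnitAddCircle, circleHaar s ≠ ∞ := fun s => measure_ne_top _ _
  obtain ⟨G, hG⟩ : ∃ G : ℕ → Set UnitAddCircle, ∀ M, G M = ⋂ q ∈ Set.Ici M, (E q)ᶜ :=
    ⟨_, fun _ => rfl⟩
  have hGmeas : ∀ M, MeasurableSet (G M) := fun M => by
    rw [hG]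
    exact MeasurableSet.biInter (Set.to_countable _) (fun q _ => (hE q).compl)
  have hGdisj : ∀ M q, M ≤ q → G M ∩ E q = ∅ := by
    intro M q hq
    ext x
    simp only [hG, Set.mem_inter_iff, Set.mem_iInter, Set.mem_Ici, Set.mem_compl_iff,
      Set.mem_empty_iff_false, iff_false, not_and]
    intro h1 h2
    exact h1 q hq h2
  obtain ⟨Ψ, hΨ⟩ : ∃ Ψ : ℕ → ℝ, ∀ N, Ψ N = ∑ n ∈ Finset.range N, circleHaar.real (E n) :=
    ⟨_, fun _ => rfl⟩
  simp only [← hΨ] at hdiv hqia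
  have hΨ0 : ∀ N, 0 ≤ Ψ N := fun N => by
    rw [hΨ]
    exact Finset.sum_nonneg fun n _ => measureReal_nonneg
  have hGnull : ∀ M, circleHaar (G M) = 0 := by
    intro M
    by_contra hne
    obtain ⟨δ, hδ⟩ : ∃ δ : ℝ, δ = circleHaar.real (G M) := ⟨_, rfl⟩
    have hδpos : 0 < δ := by
      rw [hδ]
      exact ENNReal.toReal_pos hne (hfin _)
    obtain ⟨K, hK⟩ : ∃ K : ℝ, K = 1 + |C| := ⟨_, rfl⟩
    have hK1 : 1 ≤ K := by
      rw [hK]
      exact le_add_of_nonneg_right (abs_nonneg C)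
    have hCK : C ≤ K := by
      have := le_abs_self C
      linarith
    obtain ⟨ε, hε⟩ : ∃ ε : ℝ, ε = δ / (2 * (1 + 2 * K)) := ⟨_, rfl⟩
    have hεpos : 0 < ε := by
      rw [hε]
      positivity
    obtain ⟨g, hg⟩ : ∃ g : Lp ℂ 2 circleHaar,
        g = indicatorConstLp 2 (hGmeas M) (hfin _) (1 : ℂ) := ⟨_, rfl⟩
    have hdense : g ∈ closure ((Submodule.span ℂ (Set.range (fourierLp (T := (1 : ℝ)) 2)) :
        Submodule ℂ (Lp ℂ 2 circleHaar)) : Set (Lp ℂ 2 circleHaar)) := by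
      rw [← Submodule.topologicalClosure_coe, span_fourierLp_closure_eq_top (by norm_num)]
      trivial
    obtain ⟨p, hp, hgp⟩ := Metric.mem_closure_iff.mp hdense ε hεpos
    obtain ⟨D, hD⟩ := trig_poly_inner p hp
    obtain ⟨q0, hq0M, hq0D⟩ : ∃ q0 : ℕ, M ≤ q0 ∧ D + 1 ≤ q0 :=
      ⟨max M (D + 1), le_max_left _ _, le_max_right _ _⟩
    obtain ⟨N, hN1, hN2, hN3⟩ : ∃ N,
        ∑ m ∈ Finset.range N, ∑ n ∈ Finset.range N, circleHaar.real (E m ∩ E n)
          ≤ C * (Ψ N) ^ 2 ∧ q0 ≤ N ∧ 2 * Ψ q0 + 1 ≤ Ψ N := by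
      obtain ⟨N, h1, h2, h3⟩ := (hqia.and_eventually
        ((eventually_ge_atTop q0).and (hdiv.eventually_ge_atTop (2 * Ψ q0 + 1)))).exists
      exact ⟨N, h1, h2, h3⟩
    obtain ⟨f, hf⟩ : ∃ f : Lp ℂ 2 circleHaar,
        f = ∑ q ∈ Finset.Ico q0 N, indicatorConstLp 2 (hE q) (hfin (E q)) (1 : ℂ) := ⟨_, rfl⟩
    obtain ⟨Ψ', hΨ'⟩ : ∃ Ψ' : ℝ, Ψ' = ∑ q ∈ Finset.Ico q0 N, circleHaar.real (E q) :=
      ⟨_, rfl⟩
    have hΨsplit : Ψ N = Ψ q0 + Ψ' := by
      rw [hΨ, hΨ, hΨ']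
      exact (Finset.sum_range_add_sum_Ico _ hN2).symm
    have hΨq0 : 0 ≤ Ψ q0 := hΨ0 q0
    have hΨ'pos : 0 < Ψ' := by linarith
    have hΨN : Ψ N ≤ 2 * Ψ' := by linarith
    have hΨN0 : 0 ≤ Ψ N := hΨ0 N
    have he0norm : ‖fourierLp (T := (1 : ℝ)) 2 0‖ = 1 :=
      (orthonormal_fourier (T := (1 : ℝ))).1 0
    have hfk : ∀ k : ℤ, k ≠ 0 → |k| ≤ (D : ℤ) →
        ⟪fourierLp (T := (1 : ℝ)) 2 k, f⟫_ℂ = 0 := by
      intro k hk hkD
      rw [hf, inner_sum]
      apply Finset.sum_eq_zero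
      intro q hq
      rw [Finset.mem_Ico] at hq
      have hq1 : 0 < q := by omega
      have hndvd : ¬ (q : ℤ) ∣ k := by
        intro hdvd
        have h1 := Int.le_of_dvd (abs_pos.mpr hk) ((dvd_abs _ _).mpr hdvd)
        omega
      exact inner_fourier_indicator_eq_zero (E q) (hE q) (hfin _) q hq1 (hper q hq1) k hndvd
    have he0f : ⟪fourierLp (T := (1 : ℝ)) 2 0, f⟫_ℂ = ((Ψ' : ℝ) : ℂ) := by
      rw [hf, inner_sum, hΨ', Complex.ofReal_sum]
      apply Finset.sum_congr rfl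
      intro q _
      rw [← inner_conj_symm, inner_indicator_fourier_zero (E q) (hE q), Complex.conj_ofReal]
    have hgf : ⟪g, f⟫_ℂ = 0 := by
      rw [hf, inner_sum]
      apply Finset.sum_eq_zero
      intro q hq
      rw [Finset.mem_Ico] at hq
      rw [hg, L2.inner_indicatorConstLp_one_indicatorConstLp_one,
        hGdisj M q (le_trans hq0M hq.1)]
      simp
    have hfnorm : ‖f‖ ^ 2 ≤ C * Ψ N ^ 2 := by
      rw [hf, norm_sq_sum_indicator E hE hfin]
      refine le_trans ?_ hN1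
      calc ∑ m ∈ Finset.Ico q0 N, ∑ n ∈ Finset.Ico q0 N, circleHaar.real (E m ∩ E n)
          ≤ ∑ m ∈ Finset.Ico q0 N, ∑ n ∈ Finset.range N, circleHaar.real (E m ∩ E n) := by
            apply Finset.sum_le_sum
            intro m _
            apply Finset.sum_le_sum_of_subset_of_nonneg
            · intro n hn
              rw [Finset.mem_Ico] at hn
              exact Finset.mem_range.mpr hn.2
            · intro n _ _
              exact measureReal_nonneg
        _ ≤ ∑ m ∈ Finset.range N, ∑ n ∈ Finset.range N, circleHaar.real (E m ∩ E n) := by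
            apply Finset.sum_le_sum_of_subset_of_nonneg
            · intro n hn
              rw [Finset.mem_Ico] at hn
              exact Finset.mem_range.mpr hn.2
            · intro n _ _
              exact Finset.sum_nonneg fun _ _ => measureReal_nonneg
    have hfnorm2 : ‖f‖ ≤ 2 * K * Ψ' := by
      have hK0 : 0 ≤ K := by linarith
      have h0 : 0 ≤ 2 * K * Ψ' := mul_nonneg (mul_nonneg zero_le_two hK0) hΨ'pos.le
      have h2 : Ψ N ^ 2 ≤ (2 * Ψ') ^ 2 := pow_le_pow_left₀ hΨN0 hΨN 2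
      have h1 : ‖f‖ ^ 2 ≤ (2 * K * Ψ') ^ 2 := by
        calc ‖f‖ ^ 2 ≤ C * Ψ N ^ 2 := hfnorm
          _ ≤ K * Ψ N ^ 2 := mul_le_mul_of_nonneg_right hCK (sq_nonneg _)
          _ ≤ K * (2 * Ψ') ^ 2 := mul_le_mul_of_nonneg_left h2 hK0
          _ ≤ K ^ 2 * (2 * Ψ') ^ 2 := by
              have : K ≤ K ^ 2 := by nlinarith
              exact mul_le_mul_of_nonneg_right this (sq_nonneg _)
          _ = (2 * K * Ψ') ^ 2 := by ring
      exact (sq_le_sq₀ (norm_nonneg f) h0).mp h1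
    have hge0 : ⟪g, fourierLp (T := (1 : ℝ)) 2 0⟫_ℂ = ((δ : ℝ) : ℂ) := by
      rw [hg, hδ]
      exact inner_indicator_fourier_zero (G M) (hGmeas M) (hfin _)
    have hpf := hD f hfk
    have hgpn : ‖g - p‖ ≤ ε := by
      rw [dist_eq_norm] at hgp
      exact hgp.le
    have hnorm := hilbert_mixing_bound g p (fourierLp (T := (1 : ℝ)) 2 0) f δ Ψ' ε (2 * K)
      hΨ'pos.le hδpos.le hεpos.le he0norm hgf hge0 he0f hpf hgpn hfnorm2
    have hfinal : ε * Ψ' + ε * (2 * K * Ψ') = δ * Ψ' / 2 := by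
      rw [hε]
      field_simp
    have := mul_pos hδpos hΨ'pos
    linarith
  rw [ae_iff]
  refine measure_mono_null ?_ (measure_iUnion_null hGnull)
  intro x hx
  simp only [Set.mem_ofPred_eq, not_frequently, eventually_atTop] at hx
  obtain ⟨M, hM⟩ := hx
  refine Set.mem_iUnion.mpr ⟨M, ?_⟩
  rw [hG]
  exact Set.mem_iInter₂.mpr (fun q hq => hM q hq)

end Vale.Agent.Lib.P028
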