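import Mathlib
import Vale.Agent.Lib.P028.Sparse
import Vale.Agent.Lib.P028.Mixing
import Vale.Agent.Lib.P028.GcdSum

/-!
The gcd quasi-independence criterion: for arbitrary (moving) targets, divergence of `∑ ψ q`
together with the bound

`∑_{n < N} ∑_{1 ≤ m < n} gcd(m, n) min(ψ m / m, ψ n / n) ≤ C (∑_{n < N} ψ n)²`

for infinitely many `N` forces the inequality `|q x - a - γ q| < ψ q` to have infinitely many
solutions for almost every `x`.
-/

open MeasureTheory Filter Metric Set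

namespace Vale.Agent.Lib.P028

/-- Quasi-independence on average plus periodicity of growing frequency forces full measure. -/
theorem ae_frequently_of_qia_periodic (E : ℕ → Set UnitAddCircle)
    (hE : ∀ q, MeasurableSet (E q))
    (hper : ∀ q : ℕ, 0 < q → ∀ x : UnitAddCircle,
      (x + (((1 : ℝ) / q : ℝ) : UnitAddCircle) ∈ E q ↔ x ∈ E q))
    (hdiv : Tendsto (fun N => ∑ n ∈ Finset.range N, volume.real (E n)) atTop atTop)
    (C : ℝ)
    (hqia : ∃ᶠ N in atTop,
      ∑ m ∈ Finset.range N, ∑ n ∈ Finset.range N, volume.real (E m ∩ E n)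
        ≤ C * (∑ n ∈ Finset.range N, volume.real (E n)) ^ 2) :
    ∀ᵐ x : UnitAddCircle, ∃ᶠ q in atTop, x ∈ E q := by
  have h := ae_frequently_of_qia_periodic_haar E hE hper
    (by rw [← volume_eq_circleHaar]; exact hdiv) C (by rw [← volume_eq_circleHaar]; exact hqia)
  rw [volume_eq_circleHaar]
  exact h

theorem arcSet_add_inv (q : ℕ) (hq : 0 < q) (c : UnitAddCircle) (r : ℝ) (x : UnitAddCircle) :
    x + (((1 : ℝ) / q : ℝ) : UnitAddCircle) ∈ arcSet q c r ↔ x ∈ arcSet q c r := by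
  have hqR : (q : ℝ) ≠ 0 := by exact_mod_cast hq.ne'
  have h : q • (((1 : ℝ) / q : ℝ) : UnitAddCircle) = 0 := by
    rw [← AddCircle.coe_nsmul]
    have h1 : (q : ℕ) • ((1 : ℝ) / q) = ((1 : ℕ) : ℝ) := by
      rw [nsmul_eq_mul]
      field_simp
      simp
    rw [h1]
    exact coe_natCast_eq_zero 1
  simp only [arcSet, Set.mem_ofPred_eq]
  rw [smul_add, h, add_zero]

/-- Non-resonant pairs give disjoint arc sets. -/
theorem arcSet_inter_eq_empty (q q' : ℕ) (c c' : UnitAddCircle) (r r' : ℝ)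
    (a b : ℕ) (ha : 0 < a) (hb : 0 < b) (hab : b * q = a * q')
    (hres : (b : ℝ) * r + a * r' ≤ ‖b • c - a • c'‖) :
    arcSet q c r ∩ arcSet q' c' r' = ∅ := by
  ext x
  simp only [Set.mem_inter_iff, Set.mem_empty_iff_false, iff_false, not_and]
  intro h1 h2
  simp only [arcSet, Set.mem_ofPred_eq, mem_ball, dist_eq_norm] at h1 h2
  have e : b • c - a • c' = a • (q' • x - c') - b • (q • x - c) := by
    rw [smul_sub, smul_sub, smul_smul, smul_smul, hab]
    abel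
  have n1 : ‖b • (q • x - c)‖ ≤ b * ‖q • x - c‖ := norm_nsmul_le
  have n2 : ‖a • (q' • x - c')‖ ≤ a * ‖q' • x - c'‖ := norm_nsmul_le
  have hbR : (0 : ℝ) < b := by exact_mod_cast hb
  have haR : (0 : ℝ) < a := by exact_mod_cast ha
  have m1 := mul_lt_mul_of_pos_left h1 hbR
  have m2 := mul_lt_mul_of_pos_left h2 haR
  have key : ‖b • c - a • c'‖ < b * r + a * r' := by
    rw [e]
    calc ‖a • (q' • x - c') - b • (q • x - c)‖
        ≤ ‖a • (q' • x - c')‖ + ‖b • (q • x - c)‖ := norm_sub_le _ _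
      _ ≤ a * ‖q' • x - c'‖ + b * ‖q • x - c‖ := add_le_add n2 n1
      _ < b * r + a * r' := by linarith
  linarith

/-- Circle version of the quasi-independence criterion with an abstract overlap weight. -/
theorem circle_master_gen (γ : ℕ → UnitAddCircle) (ρ : ℕ → ℝ) (hρ0 : ∀ q, 0 ≤ ρ q)
    (hρ1 : ∀ q, ρ q ≤ 1 / 2) (hzero : ρ 0 = 0) (w : ℕ → ℕ → ℝ) (hw0 : ∀ m n, 0 ≤ w m n)
    (hw : ∀ m n, 1 ≤ m → m < n →
      volume.real (arcSet m (γ m) (ρ m) ∩ arcSet n (γ n) (ρ n)) ≤ 4 * ρ m * ρ n + 2 * w m n)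
    (C : ℝ)
    (hC : ∃ᶠ N in atTop, ∑ n ∈ Finset.range N, ∑ m ∈ Finset.Ico 1 n, w m n
        ≤ C * (∑ n ∈ Finset.range N, ρ n) ^ 2)
    (hdiv : ¬ Summable ρ) :
    ∀ᵐ x : UnitAddCircle, ∃ᶠ q : ℕ in atTop, x ∈ arcSet q (γ q) (ρ q) := by
  classical
  obtain ⟨E, hE⟩ : ∃ E : ℕ → Set UnitAddCircle, ∀ q, E q = arcSet q (γ q) (ρ q) :=
    ⟨_, fun _ => rfl⟩
  have hEmeas : ∀ q, MeasurableSet (E q) := fun q => by
    rw [hE]
    exact measurableSet_arcSet _ _ _
  have hp : ∀ q, volume.real (E q) = 2 * ρ q := fun q => by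
    rw [hE]
    exact measureReal_arcSet q (γ q) (ρ q) (hρ0 q) (hρ1 q) (fun h => by rw [h]; exact hzero)
  have hE0 : E 0 = ∅ := by rw [hE, hzero, arcSet_zero_radius]
  obtain ⟨R, hR⟩ : ∃ R : ℕ → ℝ, ∀ N, R N = ∑ n ∈ Finset.range N, ρ n := ⟨_, fun _ => rfl⟩
  obtain ⟨T, hT⟩ : ∃ T : ℕ → ℝ, ∀ N, T N = ∑ n ∈ Finset.range N, ∑ m ∈ Finset.Ico 1 n,
      w m n := ⟨_, fun _ => rfl⟩
  simp only [← hR, ← hT] at hC
  have hRtend : Tendsto R atTop atTop := by
    have h1 := (not_summable_iff_tendsto_nat_atTop_of_nonneg hρ0).mp hdiv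
    exact h1.congr fun N => (hR N).symm
  have hPsum : ∀ N, ∑ n ∈ Finset.range N, volume.real (E n) = 2 * R N := by
    intro N
    rw [hR, Finset.mul_sum]
    exact Finset.sum_congr rfl fun n _ => hp n
  obtain ⟨h, hh⟩ : ∃ h : ℕ → ℕ → ℝ, ∀ m n, h m n = if 1 ≤ m ∧ m < n then
      4 * ρ m * ρ n + 2 * w m n else 0 :=
    ⟨_, fun _ _ => rfl⟩
  have hh0 : ∀ m n, 0 ≤ h m n := by
    intro m n
    rw [hh]
    split_ifs
    · have h1 := hρ0 m
      have h2 := hρ0 n
      have h3 := hw0 m n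
      positivity
    · exact le_refl _
  have hlt : ∀ m n, m < n → volume.real (E m ∩ E n) ≤ h m n := by
    intro m n hmn
    rw [hh]
    by_cases hm : 1 ≤ m
    · rw [if_pos ⟨hm, hmn⟩, hE m, hE n]
      exact hw m n hm hmn
    · have hm0 : m = 0 := by omega
      rw [if_neg (fun hcon => hm hcon.1), hm0, hE0, Set.empty_inter]
      simp
  have hsymm : ∀ m n, volume.real (E m ∩ E n) = volume.real (E n ∩ E m) := fun m n => by
    rw [Set.inter_comm]
  have hterm : ∀ m n, volume.real (E m ∩ E n)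
      ≤ (if m = n then 2 * ρ n else 0) + h m n + h n m := by
    intro m n
    rcases lt_trichotomy m n with hmn | hmn | hmn
    · rw [if_neg hmn.ne]
      linarith [hlt m n hmn, hh0 n m]
    · rw [if_pos hmn, hmn, Set.inter_self, hp n]
      linarith [hh0 n n]
    · rw [if_neg hmn.ne', hsymm m n]
      linarith [hlt n m hmn, hh0 m n]
  have hhsum : ∀ N, ∑ n ∈ Finset.range N, ∑ m ∈ Finset.range N, h m n
      ≤ 4 * R N ^ 2 + 2 * T N := by
    intro N
    have h1 : ∀ n ∈ Finset.range N, ∑ m ∈ Finset.range N, h m n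
        ≤ 4 * ρ n * R N + 2 * ∑ m ∈ Finset.Ico 1 n, w m n := by
      intro n hn
      rw [Finset.mem_range] at hn
      have e1 : ∑ m ∈ Finset.range N, h m n = ∑ m ∈ Finset.Ico 1 n,
          (4 * ρ m * ρ n + 2 * w m n) := by
        have hIco : Finset.Ico 1 n = (Finset.range N).filter (fun m => 1 ≤ m ∧ m < n) := by
          ext m
          simp only [Finset.mem_Ico, Finset.mem_filter, Finset.mem_range]
          constructor
          · intro hm
            exact ⟨by omega, hm⟩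
          · intro hm
            exact hm.2
        rw [hIco, Finset.sum_filter]
        exact Finset.sum_congr rfl fun m _ => hh m n
      rw [e1, Finset.sum_add_distrib, ← Finset.mul_sum]
      have e2 : ∑ m ∈ Finset.Ico 1 n, 4 * ρ m * ρ n ≤ 4 * ρ n * R N := by
        rw [hR, Finset.mul_sum]
        have e3 : ∑ m ∈ Finset.Ico 1 n, 4 * ρ m * ρ n
            ≤ ∑ m ∈ Finset.range N, 4 * ρ m * ρ n := by
          apply Finset.sum_le_sum_of_subset_of_nonneg
          · intro m hm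
            rw [Finset.mem_Ico] at hm
            exact Finset.mem_range.mpr (by omega)
          · intro m _ _
            have a1 := hρ0 m
            have a2 := hρ0 n
            positivity
        refine le_trans e3 (le_of_eq ?_)
        exact Finset.sum_congr rfl fun m _ => by ring
      linarith
    have a1 : ∑ n ∈ Finset.range N, 4 * ρ n * R N = 4 * R N ^ 2 := by
      rw [← Finset.sum_mul, ← Finset.mul_sum, ← hR N]
      ring
    have a2 : ∑ n ∈ Finset.range N, 2 * ∑ m ∈ Finset.Ico 1 n, w m n = 2 * T N := by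
      rw [← Finset.mul_sum, hT N]
    calc ∑ n ∈ Finset.range N, ∑ m ∈ Finset.range N, h m n
        ≤ ∑ n ∈ Finset.range N, (4 * ρ n * R N + 2 * ∑ m ∈ Finset.Ico 1 n, w m n) :=
          Finset.sum_le_sum h1
      _ = 4 * R N ^ 2 + 2 * T N := by
          rw [Finset.sum_add_distrib, a1, a2]
  have htotal : ∀ N, ∑ m ∈ Finset.range N, ∑ n ∈ Finset.range N, volume.real (E m ∩ E n)
      ≤ 2 * R N + 8 * R N ^ 2 + 4 * T N := by
    intro N
    calc ∑ m ∈ Finset.range N, ∑ n ∈ Finset.range N, volume.real (E m ∩ E n)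
        ≤ ∑ m ∈ Finset.range N, ∑ n ∈ Finset.range N,
            ((if m = n then 2 * ρ n else 0) + h m n + h n m) :=
          Finset.sum_le_sum fun m _ => Finset.sum_le_sum fun n _ => hterm m n
      _ = ∑ m ∈ Finset.range N, ∑ n ∈ Finset.range N, (if m = n then 2 * ρ n else 0)
            + ∑ m ∈ Finset.range N, ∑ n ∈ Finset.range N, h m n
            + ∑ m ∈ Finset.range N, ∑ n ∈ Finset.range N, h n m := by
          simp only [Finset.sum_add_distrib]
      _ ≤ 2 * R N + (4 * R N ^ 2 + 2 * T N) + (4 * R N ^ 2 + 2 * T N) := by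
          have e1 : ∑ m ∈ Finset.range N, ∑ n ∈ Finset.range N,
              (if m = n then 2 * ρ n else 0) = 2 * R N := by
            rw [hR, Finset.mul_sum]
            refine Finset.sum_congr rfl fun m hm => ?_
            rw [Finset.sum_ite_eq (Finset.range N) m (fun n => 2 * ρ n), if_pos hm]
          have e2 : ∑ m ∈ Finset.range N, ∑ n ∈ Finset.range N, h m n
              ≤ 4 * R N ^ 2 + 2 * T N := by
            rw [Finset.sum_comm]
            exact hhsum N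
          have e3 : ∑ m ∈ Finset.range N, ∑ n ∈ Finset.range N, h n m
              ≤ 4 * R N ^ 2 + 2 * T N := hhsum N
          rw [e1]
          linarith
      _ = 2 * R N + 8 * R N ^ 2 + 4 * T N := by ring
  have key : ∀ᵐ x : UnitAddCircle, ∃ᶠ q in atTop, x ∈ E q := by
    refine ae_frequently_of_qia_periodic E hEmeas ?_ ?_ (3 + |C|) ?_
    · intro q hq x
      rw [hE]
      exact arcSet_add_inv q hq (γ q) (ρ q) x
    · exact (hRtend.const_mul_atTop (zero_lt_two' ℝ)).congr fun N => (hPsum N).symm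
    · have hev : ∀ᶠ N in atTop, 1 ≤ R N := hRtend.eventually_ge_atTop 1
      refine (hC.and_eventually hev).mono ?_
      rintro N ⟨hN1, hN2⟩
      rw [hPsum N]
      refine le_trans (htotal N) ?_
      have hCabs := le_abs_self C
      have hsq : 0 ≤ R N ^ 2 := sq_nonneg _
      have h1 : T N ≤ |C| * R N ^ 2 := le_trans hN1 (mul_le_mul_of_nonneg_right hCabs hsq)
      have h2 : R N ≤ R N ^ 2 := by nlinarith
      have h3 : (3 + |C|) * (2 * R N) ^ 2 = 12 * R N ^ 2 + 4 * (|C| * R N ^ 2) := by ring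
      rw [h3]
      linarith
  filter_upwards [key] with x hx
  refine hx.mono fun q hq => ?_
  rw [← hE]
  exact hq

/-- The resonance weight of a pair `m < n` for radii `ρ` and real targets `γ`: the quantity
`gcd(m, n) min(ρ m / m, ρ n / n)` when `(n γ_m - m γ_n) / gcd(m, n)` is within
`(n ρ m + m ρ n) / gcd(m, n)` of an integer, and zero otherwise. -/
noncomputable def resWeight (γ : ℕ → ℝ) (ρ : ℕ → ℝ) (m n : ℕ) : ℝ :=
  if (Nat.gcd m n : ℝ) * |((n : ℝ) * γ m - (m : ℝ) * γ n) / (Nat.gcd m n : ℝ)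
        - round (((n : ℝ) * γ m - (m : ℝ) * γ n) / (Nat.gcd m n : ℝ))|
      < (n : ℝ) * ρ m + (m : ℝ) * ρ n
  then (Nat.gcd m n : ℝ) * min (ρ m / m) (ρ n / n) else 0

theorem resWeight_nonneg (γ : ℕ → ℝ) (ρ : ℕ → ℝ) (hρ0 : ∀ q, 0 ≤ ρ q) (m n : ℕ) :
    0 ≤ resWeight γ ρ m n := by
  unfold resWeight
  split_ifs
  · have h1 := hρ0 m
    have h2 := hρ0 n
    have h3 : 0 ≤ min (ρ m / m) (ρ n / n) := le_min (by positivity) (by positivity)
    positivity
  · exact le_refl _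

theorem resWeight_le (γ : ℕ → ℝ) (ρ : ℕ → ℝ) (hρ0 : ∀ q, 0 ≤ ρ q) (m n : ℕ) :
    resWeight γ ρ m n ≤ (Nat.gcd m n : ℝ) * min (ρ m / m) (ρ n / n) := by
  unfold resWeight
  split_ifs
  · exact le_refl _
  · have h1 := hρ0 m
    have h2 := hρ0 n
    have h3 : 0 ≤ min (ρ m / m) (ρ n / n) := le_min (by positivity) (by positivity)
    positivity

theorem resWeight_mono (γ : ℕ → ℝ) (ρ ψ : ℕ → ℝ) (hρ0 : ∀ q, 0 ≤ ρ q)
    (hle : ∀ q, ρ q ≤ ψ q) (m n : ℕ) :
    resWeight γ ρ m n ≤ resWeight γ ψ m n := by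
  have hψ0 : ∀ q, 0 ≤ ψ q := fun q => le_trans (hρ0 q) (hle q)
  by_cases hres : (Nat.gcd m n : ℝ) * |((n : ℝ) * γ m - (m : ℝ) * γ n) / (Nat.gcd m n : ℝ)
        - round (((n : ℝ) * γ m - (m : ℝ) * γ n) / (Nat.gcd m n : ℝ))|
      < (n : ℝ) * ρ m + (m : ℝ) * ρ n
  · have hres' : (Nat.gcd m n : ℝ) * |((n : ℝ) * γ m - (m : ℝ) * γ n) / (Nat.gcd m n : ℝ)
        - round (((n : ℝ) * γ m - (m : ℝ) * γ n) / (Nat.gcd m n : ℝ))|
        < (n : ℝ) * ψ m + (m : ℝ) * ψ n := by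
      have hmR : (0 : ℝ) ≤ m := Nat.cast_nonneg m
      have hnR : (0 : ℝ) ≤ n := Nat.cast_nonneg n
      have h1 := mul_le_mul_of_nonneg_left (hle m) hnR
      have h2 := mul_le_mul_of_nonneg_left (hle n) hmR
      linarith
    unfold resWeight
    rw [if_pos hres, if_pos hres']
    apply mul_le_mul_of_nonneg_left _ (Nat.cast_nonneg _)
    exact min_le_min (div_le_div_of_nonneg_right (hle m) (Nat.cast_nonneg m))
      (div_le_div_of_nonneg_right (hle n) (Nat.cast_nonneg n))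
  · have h0 : resWeight γ ρ m n = 0 := by
      unfold resWeight
      rw [if_neg hres]
    rw [h0]
    exact resWeight_nonneg γ ψ hψ0 m n

/-- Overlap estimate with resonance: non-resonant pairs do not meet at all. -/
theorem measureReal_inter_arcSet_le_res (γ : ℕ → ℝ) (ρ : ℕ → ℝ) (hρ0 : ∀ q, 0 ≤ ρ q)
    (hρ1 : ∀ q, ρ q ≤ 1 / 2) (m n : ℕ) (hm : 1 ≤ m) (hmn : m < n) :
    volume.real (arcSet m ((γ m : ℝ) : UnitAddCircle) (ρ m)
        ∩ arcSet n ((γ n : ℝ) : UnitAddCircle) (ρ n))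
      ≤ 4 * ρ m * ρ n + 2 * resWeight γ ρ m n := by
  have hm0 : 0 < m := hm
  have hn0 : 0 < n := lt_trans hm0 hmn
  by_cases hres : (Nat.gcd m n : ℝ) * |((n : ℝ) * γ m - (m : ℝ) * γ n) / (Nat.gcd m n : ℝ)
        - round (((n : ℝ) * γ m - (m : ℝ) * γ n) / (Nat.gcd m n : ℝ))|
      < (n : ℝ) * ρ m + (m : ℝ) * ρ n
  · have hw : resWeight γ ρ m n = (Nat.gcd m n : ℝ) * min (ρ m / m) (ρ n / n) := by
      unfold resWeight
      rw [if_pos hres]
    rw [hw]
    have b1 := measureReal_inter_arcSet_le m n hm0 hn0 ((γ m : ℝ) : UnitAddCircle)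
      ((γ n : ℝ) : UnitAddCircle) (ρ m) (ρ n) (hρ0 m) (hρ0 n) (hρ1 n)
    have b2 := measureReal_inter_arcSet_le n m hn0 hm0 ((γ n : ℝ) : UnitAddCircle)
      ((γ m : ℝ) : UnitAddCircle) (ρ n) (ρ m) (hρ0 n) (hρ0 m) (hρ1 m)
    rw [Set.inter_comm, Nat.gcd_comm] at b2
    rcases min_cases (ρ m / m) (ρ n / n) with hc | hc
    · rw [hc.1]
      have e : 2 * ρ m * (Nat.gcd m n : ℝ) / m = 2 * ((Nat.gcd m n : ℝ) * (ρ m / m)) := by
        ring
      linarith
    · rw [hc.1]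
      have e : 2 * ρ n * (Nat.gcd m n : ℝ) / n = 2 * ((Nat.gcd m n : ℝ) * (ρ n / n)) := by
        ring
      linarith
  · have hw : resWeight γ ρ m n = 0 := by
      unfold resWeight
      rw [if_neg hres]
    rw [hw]
    set g := Nat.gcd m n with hg
    have hgpos : 0 < g := Nat.gcd_pos_of_pos_left n hm0
    have hgR : (0 : ℝ) < g := by exact_mod_cast hgpos
    obtain ⟨a, ha⟩ : ∃ a, m = g * a := Nat.gcd_dvd_left m n
    obtain ⟨b, hb⟩ : ∃ b, n = g * b := Nat.gcd_dvd_right m n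
    have hapos : 0 < a := by
      rcases Nat.eq_zero_or_pos a with h | h
      · rw [h, mul_zero] at ha
        omega
      · exact h
    have hbpos : 0 < b := by
      rcases Nat.eq_zero_or_pos b with h | h
      · rw [h, mul_zero] at hb
        omega
      · exact h
    have hmR : (m : ℝ) = g * a := by exact_mod_cast ha
    have hnR : (n : ℝ) = g * b := by exact_mod_cast hb
    have hs : ((n : ℝ) * γ m - (m : ℝ) * γ n) / (g : ℝ) = (b : ℝ) * γ m - (a : ℝ) * γ n := by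
      rw [hmR, hnR]
      field_simp
    rw [hs] at hres
    have hnorm : ‖b • ((γ m : ℝ) : UnitAddCircle) - a • ((γ n : ℝ) : UnitAddCircle)‖
        = |(b : ℝ) * γ m - (a : ℝ) * γ n - round ((b : ℝ) * γ m - (a : ℝ) * γ n)| := by
      rw [← AddCircle.coe_nsmul, ← AddCircle.coe_nsmul, ← AddCircle.coe_sub,
        UnitAddCircle.norm_eq, nsmul_eq_mul, nsmul_eq_mul]
    have hge : (b : ℝ) * ρ m + (a : ℝ) * ρ n
        ≤ ‖b • ((γ m : ℝ) : UnitAddCircle) - a • ((γ n : ℝ) : UnitAddCircle)‖ := by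
      rw [hnorm]
      rw [not_lt, hmR, hnR] at hres
      have h1 : (g : ℝ) * ((b : ℝ) * ρ m + (a : ℝ) * ρ n)
          ≤ (g : ℝ) * |(b : ℝ) * γ m - (a : ℝ) * γ n
            - round ((b : ℝ) * γ m - (a : ℝ) * γ n)| := by
        linarith
      exact le_of_mul_le_mul_left h1 hgR
    have hab : b * m = a * n := by
      rw [ha, hb]
      ring
    rw [arcSet_inter_eq_empty m n _ _ (ρ m) (ρ n) a b hapos hbpos hab hge]
    have h1 := hρ0 m
    have h2 := hρ0 n
    simp only [measureReal_empty]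
    positivity

/-- Circle version of the resonant gcd quasi-independence criterion. -/
theorem circle_master_res (γ : ℕ → ℝ) (ρ : ℕ → ℝ) (hρ0 : ∀ q, 0 ≤ ρ q)
    (hρ1 : ∀ q, ρ q ≤ 1 / 2) (hzero : ρ 0 = 0) (C : ℝ)
    (hC : ∃ᶠ N in atTop, ∑ n ∈ Finset.range N, ∑ m ∈ Finset.Ico 1 n, resWeight γ ρ m n
        ≤ C * (∑ n ∈ Finset.range N, ρ n) ^ 2)
    (hdiv : ¬ Summable ρ) :
    ∀ᵐ x : UnitAddCircle, ∃ᶠ q : ℕ in atTop,
      x ∈ arcSet q ((γ q : ℝ) : UnitAddCircle) (ρ q) :=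
  circle_master_gen (fun q => ((γ q : ℝ) : UnitAddCircle)) ρ hρ0 hρ1 hzero
    (resWeight γ ρ) (resWeight_nonneg γ ρ hρ0)
    (fun m n hm hmn => measureReal_inter_arcSet_le_res γ ρ hρ0 hρ1 m n hm hmn) C hC hdiv

/-- The resonant gcd quasi-independence criterion on the line, with a moving target. -/
theorem ae_frequently_of_res_qia (γ : ℕ → ℝ) (ψ : ℕ → ℝ) (hψ : ∀ q, 0 ≤ ψ q) (C : ℝ)
    (hC : ∃ᶠ N in atTop, ∑ n ∈ Finset.range N, ∑ m ∈ Finset.Ico 1 n, resWeight γ ψ m n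
        ≤ C * (∑ n ∈ Finset.range N, ψ n) ^ 2)
    (hdiv : ¬ Summable ψ) :
    ∀ᵐ x : ℝ, ∃ᶠ q : ℕ in atTop, ∃ a : ℤ, |(q : ℝ) * x - a - γ q| < ψ q := by
  classical
  by_cases hbig : ∃ᶠ q in atTop, 1 / 2 < ψ q
  · refine Eventually.of_forall fun x => hbig.mono fun q hq => ?_
    refine ⟨round ((q : ℝ) * x - γ q), ?_⟩
    have h1 : (q : ℝ) * x - round ((q : ℝ) * x - γ q) - γ q
        = (q : ℝ) * x - γ q - round ((q : ℝ) * x - γ q) := by ring
    rw [h1]
    exact lt_of_le_of_lt (abs_sub_round _) hq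
  · rw [not_frequently] at hbig
    obtain ⟨ρ, hρdef⟩ : ∃ ρ : ℕ → ℝ, ∀ q, ρ q = if q = 0 then 0 else min (ψ q) (1 / 2) :=
      ⟨_, fun _ => rfl⟩
    have hρ0 : ∀ q, 0 ≤ ρ q := by
      intro q
      rw [hρdef]
      split_ifs
      · exact le_refl _
      · exact le_min (hψ q) (by norm_num)
    have hρ1 : ∀ q, ρ q ≤ 1 / 2 := by
      intro q
      rw [hρdef]
      split_ifs
      · norm_num
      · exact min_le_right _ _
    have hzero : ρ 0 = 0 := by
      rw [hρdef]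
      simp
    have hρle : ∀ q, ρ q ≤ ψ q := by
      intro q
      rw [hρdef]
      split_ifs
      · exact hψ q
      · exact min_le_left _ _
    have heq : ∀ᶠ q in atTop, ρ q = ψ q := by
      filter_upwards [hbig, eventually_ne_atTop 0] with q hq hq0
      rw [hρdef, if_neg hq0]
      exact min_eq_left (not_lt.mp hq)
    have hdivρ : ¬ Summable ρ := fun hs => hdiv ((summable_congr_atTop heq).mp hs)
    obtain ⟨Q, hQ⟩ := eventually_atTop.mp heq
    have hRtend : Tendsto (fun N => ∑ n ∈ Finset.range N, ρ n) atTop atTop :=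
      (not_summable_iff_tendsto_nat_atTop_of_nonneg hρ0).mp hdivρ
    obtain ⟨c0, hc0⟩ : ∃ c0 : ℝ,
        c0 = ∑ n ∈ Finset.range Q, ψ n - ∑ n ∈ Finset.range Q, ρ n := ⟨_, rfl⟩
    have hsum : ∀ N, Q ≤ N →
        ∑ n ∈ Finset.range N, ψ n = ∑ n ∈ Finset.range N, ρ n + c0 := by
      intro N hN
      rw [← Finset.sum_range_add_sum_Ico _ hN, ← Finset.sum_range_add_sum_Ico (fun n => ρ n) hN]
      have e : ∑ n ∈ Finset.Ico Q N, ψ n = ∑ n ∈ Finset.Ico Q N, ρ n :=
        Finset.sum_congr rfl fun n hn => (hQ n (Finset.mem_Ico.mp hn).1).symm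
      rw [e, hc0]
      ring
    have hCρ : ∃ᶠ N in atTop, ∑ n ∈ Finset.range N, ∑ m ∈ Finset.Ico 1 n, resWeight γ ρ m n
          ≤ (4 * |C|) * (∑ n ∈ Finset.range N, ρ n) ^ 2 := by
      have hev := (eventually_ge_atTop Q).and (hRtend.eventually_ge_atTop (max 0 c0))
      refine (hC.and_eventually hev).mono ?_
      rintro N ⟨hN1, hN2, hN3⟩
      have hmono : ∑ n ∈ Finset.range N, ∑ m ∈ Finset.Ico 1 n, resWeight γ ρ m n
          ≤ ∑ n ∈ Finset.range N, ∑ m ∈ Finset.Ico 1 n, resWeight γ ψ m n :=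
        Finset.sum_le_sum fun n _ => Finset.sum_le_sum fun m _ =>
          resWeight_mono γ ρ ψ hρ0 hρle m n
      refine le_trans hmono (le_trans hN1 ?_)
      have hψsum := hsum N hN2
      obtain ⟨A, hA⟩ : ∃ A : ℝ, A = ∑ n ∈ Finset.range N, ρ n := ⟨_, rfl⟩
      obtain ⟨B, hB⟩ : ∃ B : ℝ, B = ∑ n ∈ Finset.range N, ψ n := ⟨_, rfl⟩
      have hB0 : 0 ≤ B := by
        rw [hB]
        exact Finset.sum_nonneg fun n _ => hψ n
      rw [← hA, ← hB] at hψsum
      rw [← hA] at hN3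
      rw [← hA, ← hB]
      have h1 : B ≤ 2 * A := by
        have := le_max_right 0 c0
        linarith
      have h2 : B ^ 2 ≤ (2 * A) ^ 2 := pow_le_pow_left₀ hB0 h1 2
      calc C * B ^ 2 ≤ |C| * B ^ 2 := mul_le_mul_of_nonneg_right (le_abs_self C) (sq_nonneg _)
        _ ≤ |C| * (2 * A) ^ 2 := mul_le_mul_of_nonneg_left h2 (abs_nonneg C)
        _ = 4 * |C| * A ^ 2 := by ring
    have hcircle := circle_master_res γ ρ hρ0 hρ1 hzero (4 * |C|) hCρ hdivρ
    have hreal := ae_real_of_ae_circle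
      (fun y => ∃ᶠ q : ℕ in atTop, y ∈ arcSet q ((γ q : ℝ) : UnitAddCircle) (ρ q)) hcircle
    filter_upwards [hreal] with x hx
    refine hx.mono fun q hq => ?_
    obtain ⟨a, ha⟩ := exists_int_of_mem_arcSet q x (γ q) (ρ q) hq
    exact ⟨a, lt_of_lt_of_le ha (hρle q)⟩

/-- The gcd quasi-independence criterion on the line, with a moving target `γ q`. -/
theorem ae_frequently_of_gcd_qia (γ : ℕ → ℝ) (ψ : ℕ → ℝ) (hψ : ∀ q, 0 ≤ ψ q) (C : ℝ)
    (hC : ∃ᶠ N in atTop, ∑ n ∈ Finset.range N, ∑ m ∈ Finset.Ico 1 n,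
        (Nat.gcd m n : ℝ) * min (ψ m / m) (ψ n / n) ≤ C * (∑ n ∈ Finset.range N, ψ n) ^ 2)
    (hdiv : ¬ Summable ψ) :
    ∀ᵐ x : ℝ, ∃ᶠ q : ℕ in atTop, ∃ a : ℤ, |(q : ℝ) * x - a - γ q| < ψ q := by
  refine ae_frequently_of_res_qia γ ψ hψ C ?_ hdiv
  refine hC.mono fun N hN => le_trans ?_ hN
  exact Finset.sum_le_sum fun n _ => Finset.sum_le_sum fun m _ => resWeight_le γ ψ hψ m n

end Vale.Agent.Lib.P028
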