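import Mathlib
import Vale.Agent.Lib.P028.Master

/-!
Shifts of finite Diophantine type.  If `‖k γ‖ ≥ c k^(-τ)` for all `k ≥ 1` and `ψ q ≤ K / q`,
then the resonant pairs `(m, n)`, `m < n`, are sparse (gap principle), and

`∑_{1 ≤ m < n} resWeight m n ≤ B ψ n ∑_{d ∣ n} d^(-1/τ)`.
-/

open MeasureTheory Filter Finset

namespace Vale.Agent.Lib.P028

/-- The distance to the nearest integer is subadditive under subtraction. -/
theorem abs_sub_round_sub_le (x y : ℝ) :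
    |x - y - round (x - y)| ≤ |x - round x| + |y - round y| := by
  have h1 := round_le (x - y) (round x - round y)
  have h2 : |x - y - ((round x - round y : ℤ) : ℝ)| ≤ |x - round x| + |y - round y| := by
    have e : x - y - ((round x - round y : ℤ) : ℝ) = (x - round x) - (y - round y) := by
      push_cast
      ring
    rw [e]
    exact abs_sub _ _
  exact le_trans h1 h2

/-- A `D`-separated set of natural numbers in an interval of length `U - L` has at most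
`1 + (U - L) / D` elements. -/
theorem card_le_of_separated (F : Finset ℕ) (L U D : ℝ) (hD : 0 < D) (hLU : L ≤ U)
    (hF : ∀ m ∈ F, L < (m : ℝ) ∧ (m : ℝ) ≤ U)
    (hsep : ∀ m1 ∈ F, ∀ m2 ∈ F, m1 < m2 → D < (m2 : ℝ) - m1) :
    (F.card : ℝ) ≤ 1 + (U - L) / D := by
  have hnn : 0 ≤ (U - L) / D := div_nonneg (by linarith) hD.le
  set f : ℕ → ℕ := fun m => ⌊((m : ℝ) - L) / D⌋₊ with hf
  have hmaps : Set.MapsTo f ↑F ↑(Finset.range (⌊(U - L) / D⌋₊ + 1)) := by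
    intro m hm
    rw [Finset.mem_coe] at hm
    rw [Finset.mem_coe, Finset.mem_range]
    have h1 := hF m hm
    have h2 : ((m : ℝ) - L) / D ≤ (U - L) / D := by
      apply div_le_div_of_nonneg_right _ hD.le
      linarith [h1.2]
    have h3 := Nat.floor_le_floor h2
    simp only [hf]
    omega
  have hinj : Set.InjOn f ↑F := by
    intro m1 h1 m2 h2 h12
    rw [Finset.mem_coe] at h1 h2
    by_contra hne
    have key : ∀ a ∈ F, ∀ b ∈ F, a < b → f a ≠ f b := by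
      intro a ha b hb hab hfab
      have hsepab := hsep a ha b hb hab
      have ha0 : 0 ≤ ((a : ℝ) - L) / D := div_nonneg (by linarith [(hF a ha).1]) hD.le
      have hb0 : 0 ≤ ((b : ℝ) - L) / D := div_nonneg (by linarith [(hF b hb).1]) hD.le
      have e1 : (f a : ℝ) ≤ ((a : ℝ) - L) / D := Nat.floor_le ha0
      have e2 : ((b : ℝ) - L) / D < (f b : ℝ) + 1 := Nat.lt_floor_add_one _
      have e3 : ((b : ℝ) - L) / D - ((a : ℝ) - L) / D = ((b : ℝ) - a) / D := by ring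
      have e4 : 1 < ((b : ℝ) - a) / D := by
        rw [lt_div_iff₀ hD]
        linarith
      have e5 : (f a : ℝ) = (f b : ℝ) := by exact_mod_cast hfab
      linarith
    rcases Nat.lt_or_gt_of_ne hne with h | h
    · exact key m1 h1 m2 h2 h h12
    · exact key m2 h2 m1 h1 h h12.symm
  have hcard := Finset.card_le_card_of_injOn f hmaps hinj
  rw [Finset.card_range] at hcard
  have h1 : (F.card : ℝ) ≤ ((⌊(U - L) / D⌋₊ + 1 : ℕ) : ℝ) := by exact_mod_cast hcard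
  have h2 : ((⌊(U - L) / D⌋₊ : ℕ) : ℝ) ≤ (U - L) / D := Nat.floor_le hnn
  push_cast at h1
  linarith

/-- The gap principle in one dyadic block: resonant `m` with `gcd(m, n) = g` and
`n / 2^(j+1) < m ≤ n / 2^j` are separated. -/
theorem card_res_block_le (γ c τ K : ℝ) (hc : 0 < c) (hτ : 1 < τ) (hK : 0 < K)
    (hγ : ∀ k : ℕ, 1 ≤ k → c ≤ (k : ℝ) ^ τ * |(k : ℝ) * γ - round ((k : ℝ) * γ)|)
    (n g j : ℕ) (hg : 0 < g) (F : Finset ℕ)
    (hF : ∀ m ∈ F, g ∣ m ∧ m * 2 ^ j ≤ n ∧ n < m * 2 ^ (j + 1) ∧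
        (g : ℝ) * |γ * (((n : ℝ) - m) / g) - round (γ * (((n : ℝ) - m) / g))|
          < 3 * K * 2 ^ j) :
    (F.card : ℝ)
      ≤ 1 + (n : ℝ) / (2 * g * (c * g / (6 * K)) ^ τ⁻¹) * ((2 : ℝ) ^ τ⁻¹ / 2) ^ j := by
  have hgR : (0 : ℝ) < g := by exact_mod_cast hg
  have hτ0 : 0 < τ := by linarith
  have hs0 : 0 < τ⁻¹ := inv_pos.mpr hτ0
  have h2j : (0 : ℝ) < 2 ^ j := by positivity
  obtain ⟨a, ha⟩ : ∃ a : ℝ, a = c * g / (6 * K * 2 ^ j) := ⟨_, rfl⟩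
  have ha0 : 0 < a := by
    rw [ha]
    positivity
  obtain ⟨D, hD⟩ : ∃ D : ℝ, D = g * a ^ τ⁻¹ := ⟨_, rfl⟩
  have hD0 : 0 < D := by
    rw [hD]
    have := Real.rpow_pos_of_pos ha0 τ⁻¹
    positivity
  have hnR : (0 : ℝ) ≤ n := Nat.cast_nonneg n
  have hLU : (n : ℝ) / 2 ^ (j + 1) ≤ (n : ℝ) / 2 ^ j := by
    apply div_le_div_of_nonneg_left hnR h2j
    rw [pow_succ]
    linarith
  have hbounds : ∀ m ∈ F, (n : ℝ) / 2 ^ (j + 1) < (m : ℝ) ∧ (m : ℝ) ≤ (n : ℝ) / 2 ^ j := by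
    intro m hm
    obtain ⟨_, h1, h2, _⟩ := hF m hm
    constructor
    · rw [div_lt_iff₀ (by positivity)]
      exact_mod_cast h2
    · rw [le_div_iff₀ h2j]
      exact_mod_cast h1
  have hsep : ∀ m1 ∈ F, ∀ m2 ∈ F, m1 < m2 → D < (m2 : ℝ) - m1 := by
    intro m1 h1 m2 h2 h12
    obtain ⟨hgm1, _, _, hr1⟩ := hF m1 h1
    obtain ⟨hgm2, _, _, hr2⟩ := hF m2 h2
    obtain ⟨δ, hδ⟩ : g ∣ m2 - m1 := Nat.dvd_sub hgm2 hgm1
    have hδ1 : 1 ≤ δ := by
      rcases Nat.eq_zero_or_pos δ with h | h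
      · rw [h, mul_zero] at hδ
        omega
      · exact h
    have hδR : (m2 : ℝ) - m1 = g * δ := by
      have e : ((m2 - m1 : ℕ) : ℝ) = (g : ℝ) * δ := by exact_mod_cast hδ
      rw [← e, Nat.cast_sub h12.le]
    obtain ⟨x1, hx1⟩ : ∃ x1 : ℝ, x1 = γ * (((n : ℝ) - m1) / g) := ⟨_, rfl⟩
    obtain ⟨x2, hx2⟩ : ∃ x2 : ℝ, x2 = γ * (((n : ℝ) - m2) / g) := ⟨_, rfl⟩
    rw [← hx1] at hr1
    rw [← hx2] at hr2
    have hx12 : x1 - x2 = (δ : ℝ) * γ := by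
      rw [hx1, hx2]
      have e : ((n : ℝ) - m1) / g - ((n : ℝ) - m2) / g = δ := by
        rw [← sub_div, div_eq_iff hgR.ne']
        linarith
      calc γ * (((n : ℝ) - m1) / g) - γ * (((n : ℝ) - m2) / g)
          = γ * (((n : ℝ) - m1) / g - ((n : ℝ) - m2) / g) := by ring
        _ = (δ : ℝ) * γ := by rw [e, mul_comm]
    have hb1 : |x1 - round x1| < 3 * K * 2 ^ j / g := by
      rw [lt_div_iff₀ hgR]
      linarith
    have hb2 : |x2 - round x2| < 3 * K * 2 ^ j / g := by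
      rw [lt_div_iff₀ hgR]
      linarith
    have hsub := abs_sub_round_sub_le x1 x2
    rw [hx12] at hsub
    have htype := hγ δ hδ1
    have hδpos : (0 : ℝ) < δ := by exact_mod_cast hδ1
    have hδτ : 0 < (δ : ℝ) ^ τ := Real.rpow_pos_of_pos hδpos τ
    have h6 : |(δ : ℝ) * γ - round ((δ : ℝ) * γ)| < 6 * K * 2 ^ j / g := by
      have e : 3 * K * 2 ^ j / g + 3 * K * 2 ^ j / g = 6 * K * 2 ^ j / (g : ℝ) := by ring
      linarith
    have h7 : c < (δ : ℝ) ^ τ * (6 * K * 2 ^ j / g) :=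
      lt_of_le_of_lt htype (mul_lt_mul_of_pos_left h6 hδτ)
    have h8 : a < (δ : ℝ) ^ τ := by
      rw [ha, div_lt_iff₀ (by positivity)]
      have h := mul_lt_mul_of_pos_right h7 hgR
      have e : (δ : ℝ) ^ τ * (6 * K * 2 ^ j / g) * g = (δ : ℝ) ^ τ * (6 * K * 2 ^ j) := by
        field_simp
      linarith
    have h9 : a ^ τ⁻¹ < (δ : ℝ) := by
      have h := Real.rpow_lt_rpow ha0.le h8 hs0
      rwa [Real.rpow_rpow_inv hδpos.le hτ0.ne'] at h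
    rw [hδR, hD]
    exact mul_lt_mul_of_pos_left h9 hgR
  have hcount := card_le_of_separated F _ _ D hD0 hLU hbounds hsep
  refine le_trans hcount (le_of_eq ?_)
  congr 1
  have e1 : (n : ℝ) / 2 ^ j - (n : ℝ) / 2 ^ (j + 1) = (n : ℝ) / (2 * 2 ^ j) := by
    rw [pow_succ]
    field_simp
    ring
  have e2 : a ^ τ⁻¹ = (c * g / (6 * K)) ^ τ⁻¹ / ((2 : ℝ) ^ τ⁻¹) ^ j := by
    have e : a = (c * g / (6 * K)) / 2 ^ j := by
      rw [ha]
      field_simp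
    rw [e, Real.div_rpow (by positivity) h2j.le]
    congr 1
    rw [← Real.rpow_natCast 2 j, ← Real.rpow_mul (by norm_num), mul_comm,
      Real.rpow_mul (by norm_num), Real.rpow_natCast]
  have hpos1 : 0 < (c * g / (6 * K)) ^ τ⁻¹ := Real.rpow_pos_of_pos (by positivity) _
  have hpos2 : 0 < ((2 : ℝ) ^ τ⁻¹) ^ j := pow_pos (Real.rpow_pos_of_pos (by norm_num) _) _
  rw [e1, hD, e2, div_pow]
  field_simp

/-- Resonance of the pair `(m, n)` for a constant shift `γ`. -/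
def ResCond (γ : ℝ) (ψ : ℕ → ℝ) (m n : ℕ) : Prop :=
  (Nat.gcd m n : ℝ) * |γ * (((n : ℝ) - m) / (Nat.gcd m n : ℝ))
      - round (γ * (((n : ℝ) - m) / (Nat.gcd m n : ℝ)))| < (n : ℝ) * ψ m + (m : ℝ) * ψ n

theorem resWeight_const (γ : ℝ) (ψ : ℕ → ℝ) (m n : ℕ) :
    resWeight (fun _ => γ) ψ m n
      = if (Nat.gcd m n : ℝ) * |γ * (((n : ℝ) - m) / (Nat.gcd m n : ℝ))
            - round (γ * (((n : ℝ) - m) / (Nat.gcd m n : ℝ)))| < (n : ℝ) * ψ m + (m : ℝ) * ψ n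
        then (Nat.gcd m n : ℝ) * min (ψ m / m) (ψ n / n) else 0 := by
  unfold resWeight
  have e : ((n : ℝ) * γ - (m : ℝ) * γ) / (Nat.gcd m n : ℝ)
      = γ * (((n : ℝ) - m) / (Nat.gcd m n : ℝ)) := by ring
  simp only [e]

theorem resWeight_const_eq_zero (γ : ℝ) (ψ : ℕ → ℝ) (m n : ℕ) (h : ¬ ResCond γ ψ m n) :
    resWeight (fun _ => γ) ψ m n = 0 := by
  rw [resWeight_const]
  exact if_neg h

theorem resWeight_const_le (γ : ℝ) (ψ : ℕ → ℝ) (hψ : ∀ q, 0 ≤ ψ q) (m n : ℕ) :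
    resWeight (fun _ => γ) ψ m n ≤ (Nat.gcd m n : ℝ) * (ψ n / n) :=
  le_trans (resWeight_le (fun _ => γ) ψ hψ m n)
    (mul_le_mul_of_nonneg_left (min_le_right _ _) (Nat.cast_nonneg _))

/-- For a shift of finite type and `ψ q ≤ K / q`, the resonant mass attached to `n` is at most
a constant times `ψ n ∑_{d ∣ n} d^(-1/τ)`. -/
theorem sum_resWeight_le (γ c τ K : ℝ) (hc : 0 < c) (hτ : 1 < τ) (hK : 0 < K)
    (hγ : ∀ k : ℕ, 1 ≤ k → c ≤ (k : ℝ) ^ τ * |(k : ℝ) * γ - round ((k : ℝ) * γ)|)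
    (ψ : ℕ → ℝ) (hψ : ∀ q, 0 ≤ ψ q) (hψK : ∀ q : ℕ, 1 ≤ q → ψ q ≤ K / q)
    (n : ℕ) (hn : 1 ≤ n) :
    ∑ m ∈ Finset.Ico 1 n, resWeight (fun _ => γ) ψ m n
      ≤ (1 + 1 / (2 * (c / (6 * K)) ^ τ⁻¹)) / (1 - (2 : ℝ) ^ τ⁻¹ / 2)
          * (ψ n * ∑ d ∈ Nat.divisors n, ((d : ℝ) ^ τ⁻¹)⁻¹) := by
  classical
  have hτ0 : 0 < τ := by linarith
  have hs0 : 0 < τ⁻¹ := inv_pos.mpr hτ0
  have hs1 : τ⁻¹ < 1 := inv_lt_one_of_one_lt₀ hτ
  have hnR : (0 : ℝ) < n := by exact_mod_cast hn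
  have h2s : 0 < (2 : ℝ) ^ τ⁻¹ := Real.rpow_pos_of_pos (zero_lt_two' ℝ) τ⁻¹
  obtain ⟨r, hr⟩ : ∃ r : ℝ, r = (2 : ℝ) ^ τ⁻¹ / 2 := ⟨_, rfl⟩
  have hr0 : 0 < r := by
    rw [hr]
    positivity
  have hr1 : r < 1 := by
    rw [hr, div_lt_one (by norm_num)]
    calc (2 : ℝ) ^ τ⁻¹ < (2 : ℝ) ^ (1 : ℝ) :=
          Real.rpow_lt_rpow_of_exponent_lt (by norm_num) hs1
      _ = 2 := Real.rpow_one 2
  obtain ⟨A0, hA0⟩ : ∃ A0 : ℝ, A0 = (c / (6 * K)) ^ τ⁻¹ := ⟨_, rfl⟩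
  have hA0pos : 0 < A0 := by
    rw [hA0]
    exact Real.rpow_pos_of_pos (by positivity) _
  obtain ⟨σ, hσ⟩ : ∃ σ : ℝ, σ = ∑ d ∈ Nat.divisors n, ((d : ℝ) ^ τ⁻¹)⁻¹ := ⟨_, rfl⟩
  rw [← hr, ← hA0, ← hσ]
  obtain ⟨R, hR⟩ : ∃ R : Finset ℕ, R = (Finset.Ico 1 n).filter (fun m => ResCond γ ψ m n) :=
    ⟨_, rfl⟩
  have hRmem : ∀ m ∈ R, 1 ≤ m ∧ m < n ∧ ResCond γ ψ m n := by
    intro m hm
    rw [hR, Finset.mem_filter, Finset.mem_Ico] at hm
    exact ⟨hm.1.1, hm.1.2, hm.2⟩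
  -- Step 1: reduce to a gcd sum over resonant m
  have step1 : ∑ m ∈ Finset.Ico 1 n, resWeight (fun _ => γ) ψ m n
      ≤ (ψ n / n) * ∑ m ∈ R, (Nat.gcd m n : ℝ) := by
    rw [Finset.mul_sum, hR, Finset.sum_filter]
    apply Finset.sum_le_sum
    intro m _
    by_cases h : ResCond γ ψ m n
    · rw [if_pos h, mul_comm]
      exact resWeight_const_le γ ψ hψ m n
    · rw [if_neg h, resWeight_const_eq_zero γ ψ m n h]
  -- Step 2: split according to the gcd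
  have hmaps : ∀ m ∈ R, Nat.gcd m n ∈ Nat.divisors n := fun m _ =>
    Nat.mem_divisors.mpr ⟨Nat.gcd_dvd_right m n, by omega⟩
  have step2 : ∑ m ∈ R, (Nat.gcd m n : ℝ)
      = ∑ g ∈ Nat.divisors n, (g : ℝ) * ((R.filter (fun m => Nat.gcd m n = g)).card : ℝ) := by
    rw [← Finset.sum_fiberwise_of_maps_to hmaps]
    refine Finset.sum_congr rfl fun g _ => ?_
    have e : ∑ m ∈ R.filter (fun m => Nat.gcd m n = g), (Nat.gcd m n : ℝ)
        = ∑ _m ∈ R.filter (fun m => Nat.gcd m n = g), (g : ℝ) :=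
      Finset.sum_congr rfl (fun m hm => by rw [(Finset.mem_filter.mp hm).2])
    rw [e, Finset.sum_const, nsmul_eq_mul, mul_comm]
  -- Step 3: count each gcd class through dyadic blocks
  have step3 : ∀ g ∈ Nat.divisors n, ((R.filter (fun m => Nat.gcd m n = g)).card : ℝ)
      ≤ ((Nat.log 2 (n / g) : ℕ) : ℝ) + 1
        + (n : ℝ) / (2 * g * (c * g / (6 * K)) ^ τ⁻¹) * (1 / (1 - r)) := by
    intro g hg
    have hg0 : 0 < g := Nat.pos_of_mem_divisors hg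
    have hgR : (0 : ℝ) < g := by exact_mod_cast hg0
    obtain ⟨Rg, hRg⟩ : ∃ Rg : Finset ℕ, Rg = R.filter (fun m => Nat.gcd m n = g) := ⟨_, rfl⟩
    rw [← hRg]
    have hmem : ∀ m ∈ Rg, 1 ≤ m ∧ m < n ∧ ResCond γ ψ m n ∧ Nat.gcd m n = g := by
      intro m hm
      rw [hRg, Finset.mem_filter] at hm
      obtain ⟨h1, h2, h3⟩ := hRmem m hm.1
      exact ⟨h1, h2, h3, hm.2⟩
    have hmapsj : Set.MapsTo (fun m => Nat.log 2 (n / m)) ↑Rg
        ↑(Finset.range (Nat.log 2 (n / g) + 1)) := by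
      intro m hm
      rw [Finset.mem_coe] at hm
      obtain ⟨hm1, hmn, _, hgm⟩ := hmem m hm
      rw [Finset.mem_coe, Finset.mem_range]
      have hgm' : g ∣ m := hgm ▸ Nat.gcd_dvd_left m n
      have hgle : g ≤ m := Nat.le_of_dvd hm1 hgm'
      have h1 : n / m ≤ n / g := Nat.div_le_div_left hgle hg0
      have h2 := Nat.log_mono_right (b := 2) h1
      show Nat.log 2 (n / m) < Nat.log 2 (n / g) + 1
      omega
    rw [Finset.card_eq_sum_card_fiberwise hmapsj]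
    push_cast
    obtain ⟨A, hA⟩ : ∃ A : ℝ, A = (n : ℝ) / (2 * g * (c * g / (6 * K)) ^ τ⁻¹) := ⟨_, rfl⟩
    have hApos : 0 ≤ A := by
      rw [hA]
      have := Real.rpow_pos_of_pos (show (0 : ℝ) < c * g / (6 * K) by positivity) τ⁻¹
      positivity
    rw [← hA]
    have hfib : ∀ j ∈ Finset.range (Nat.log 2 (n / g) + 1),
        ((Rg.filter (fun m => Nat.log 2 (n / m) = j)).card : ℝ) ≤ 1 + A * r ^ j := by
      intro j _
      rw [hA, hr]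
      apply card_res_block_le γ c τ K hc hτ hK hγ n g j hg0
      intro m hm
      rw [Finset.mem_filter] at hm
      obtain ⟨hm1, hmn, hres, hgm⟩ := hmem m hm.1
      have hlog := hm.2
      have hgm' : g ∣ m := hgm ▸ Nat.gcd_dvd_left m n
      have hnm : n / m ≠ 0 := by
        have h1 : 1 ≤ n / m := (Nat.le_div_iff_mul_le (by omega)).mpr (by omega)
        omega
      have h1 : 2 ^ j ≤ n / m := by
        rw [← hlog]
        exact Nat.pow_log_le_self 2 hnm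
      have h2 : n / m < 2 ^ (j + 1) := by
        rw [← hlog]
        exact Nat.lt_pow_succ_log_self (by norm_num) _
      have h1' : m * 2 ^ j ≤ n := by
        have h := (Nat.le_div_iff_mul_le (by omega : 0 < m)).mp h1
        rw [mul_comm]
        exact h
      have h2' : n < m * 2 ^ (j + 1) := by
        have h := (Nat.div_lt_iff_lt_mul (by omega : 0 < m)).mp h2
        rw [mul_comm]
        exact h
      refine ⟨hgm', h1', h2', ?_⟩
      have hmR : (0 : ℝ) < m := by exact_mod_cast hm1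
      have hres' : (g : ℝ) * |γ * (((n : ℝ) - m) / g) - round (γ * (((n : ℝ) - m) / g))|
          < (n : ℝ) * ψ m + (m : ℝ) * ψ n := by
        have h := hres
        unfold ResCond at h
        rw [hgm] at h
        exact h
      have b1 : (n : ℝ) * ψ m ≤ K * ((n : ℝ) / m) := by
        have h := hψK m hm1
        calc (n : ℝ) * ψ m ≤ n * (K / m) := mul_le_mul_of_nonneg_left h hnR.le
          _ = K * ((n : ℝ) / m) := by ring
      have b2 : (m : ℝ) * ψ n ≤ K := by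
        have h := hψK n hn
        calc (m : ℝ) * ψ n ≤ m * (K / n) := mul_le_mul_of_nonneg_left h hmR.le
          _ = K * ((m : ℝ) / n) := by ring
          _ ≤ K * 1 := by
              apply mul_le_mul_of_nonneg_left _ hK.le
              rw [div_le_one hnR]
              exact_mod_cast hmn.le
          _ = K := mul_one K
      have b3 : (n : ℝ) / m < 2 ^ (j + 1) := by
        rw [div_lt_iff₀ hmR]
        have h : (n : ℝ) < (m : ℝ) * 2 ^ (j + 1) := by exact_mod_cast h2'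
        linarith
      have b4 : (1 : ℝ) ≤ 2 ^ j := one_le_pow₀ (by norm_num)
      have b5 : K * ((n : ℝ) / m) < K * 2 ^ (j + 1) := mul_lt_mul_of_pos_left b3 hK
      have b6 : K * 2 ^ (j + 1) + K ≤ 3 * K * 2 ^ j := by
        rw [pow_succ]
        nlinarith
      linarith
    have hgeo : ∑ j ∈ Finset.range (Nat.log 2 (n / g) + 1), r ^ j ≤ 1 / (1 - r) := by
      rw [geom_sum_eq hr1.ne, le_div_iff₀ (by linarith)]
      have e : (r ^ (Nat.log 2 (n / g) + 1) - 1) / (r - 1) * (1 - r)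
          = 1 - r ^ (Nat.log 2 (n / g) + 1) := by
        have hne : r - 1 ≠ 0 := by linarith
        field_simp
        ring
      rw [e]
      have h := pow_pos hr0 (Nat.log 2 (n / g) + 1)
      linarith
    calc ∑ j ∈ Finset.range (Nat.log 2 (n / g) + 1),
          ((Rg.filter (fun m => Nat.log 2 (n / m) = j)).card : ℝ)
        ≤ ∑ j ∈ Finset.range (Nat.log 2 (n / g) + 1), (1 + A * r ^ j) :=
          Finset.sum_le_sum hfib
      _ = ((Nat.log 2 (n / g) : ℕ) : ℝ) + 1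
            + A * ∑ j ∈ Finset.range (Nat.log 2 (n / g) + 1), r ^ j := by
          rw [Finset.sum_add_distrib, Finset.sum_const, Finset.card_range, nsmul_eq_mul, mul_one,
            ← Finset.mul_sum]
          push_cast
          ring
      _ ≤ ((Nat.log 2 (n / g) : ℕ) : ℝ) + 1 + A * (1 / (1 - r)) := by
          have h := mul_le_mul_of_nonneg_left hgeo hApos
          linarith
  -- Step 4: the two divisor sums
  have step4 : ∀ g ∈ Nat.divisors n,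
      (g : ℝ) * ((R.filter (fun m => Nat.gcd m n = g)).card : ℝ)
        ≤ (n : ℝ) / (1 - r) * ((((n / g : ℕ) : ℝ)) ^ τ⁻¹)⁻¹
          + (n : ℝ) / (2 * (1 - r) * A0) * ((g : ℝ) ^ τ⁻¹)⁻¹ := by
    intro g hg
    have hgn : g ∣ n := Nat.dvd_of_mem_divisors hg
    have hg0 : 0 < g := Nat.pos_of_mem_divisors hg
    have hgR : (0 : ℝ) < g := by exact_mod_cast hg0
    have h3 := step3 g hg
    have hgs : 0 < (g : ℝ) ^ τ⁻¹ := Real.rpow_pos_of_pos hgR _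
    -- part (a)
    obtain ⟨J, hJ⟩ : ∃ J : ℕ, J = Nat.log 2 (n / g) := ⟨_, rfl⟩
    rw [← hJ] at h3
    have hdiv0 : n / g ≠ 0 := by
      have h1 : 1 ≤ n / g := (Nat.le_div_iff_mul_le hg0).mpr (by
        rw [one_mul]
        exact Nat.le_of_dvd hn hgn)
      omega
    have hpow : 2 ^ J ≤ n / g := by
      rw [hJ]
      exact Nat.pow_log_le_self 2 hdiv0
    obtain ⟨e, he⟩ : ∃ e : ℝ, e = ((n / g : ℕ) : ℝ) := ⟨_, rfl⟩
    have he' : e = (n : ℝ) / g := by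
      rw [he, Nat.cast_div hgn hgR.ne']
    have hy : ((2 : ℝ) ^ J) ≤ e := by
      rw [he]
      exact_mod_cast hpow
    have hy1 : (1 : ℝ) ≤ (2 : ℝ) ^ J := one_le_pow₀ (by norm_num)
    have he0 : 0 < e := by linarith
    have hes : 0 < e ^ τ⁻¹ := Real.rpow_pos_of_pos he0 _
    have hbern : ((J : ℝ) + 1) * (1 - r) ≤ (1 / r) ^ J := by
      have hx : (0 : ℝ) ≤ 1 / r - 1 := by
        rw [sub_nonneg, le_div_iff₀ hr0]
        linarith
      have hb := one_add_mul_le_pow (show (-2 : ℝ) ≤ 1 / r - 1 by linarith) J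
      have e1 : 1 + (1 / r - 1) = 1 / r := by ring
      rw [e1] at hb
      have e2 : 1 - r ≤ 1 / r - 1 := by
        have e3 : 1 / r - 1 = (1 - r) / r := by
          field_simp
        rw [e3, le_div_iff₀ hr0]
        nlinarith
      have hJ0 : (0 : ℝ) ≤ J := Nat.cast_nonneg J
      nlinarith
    have hrpow : (1 / r) ^ J = ((2 : ℝ) ^ J) ^ (1 - τ⁻¹) := by
      have e1 : 1 / r = (2 : ℝ) ^ (1 - τ⁻¹) := by
        rw [hr, Real.rpow_sub (zero_lt_two' ℝ), Real.rpow_one]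
        field_simp
      rw [e1, ← Real.rpow_natCast ((2 : ℝ) ^ (1 - τ⁻¹)) J, ← Real.rpow_mul (by norm_num),
        mul_comm, Real.rpow_mul (by norm_num), Real.rpow_natCast]
    have hmono : ((2 : ℝ) ^ J) ^ (1 - τ⁻¹) ≤ e ^ (1 - τ⁻¹) :=
      Real.rpow_le_rpow (by positivity) hy (by linarith)
    have hsplit : e ^ (1 - τ⁻¹) = e * (e ^ τ⁻¹)⁻¹ := by
      rw [Real.rpow_sub he0, Real.rpow_one, div_eq_mul_inv]
    have ha : (g : ℝ) * (((J : ℕ) : ℝ) + 1) ≤ (n : ℝ) / (1 - r) * (e ^ τ⁻¹)⁻¹ := by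
      have h1 : ((J : ℝ) + 1) * (1 - r) ≤ e * (e ^ τ⁻¹)⁻¹ := by
        rw [← hsplit]
        exact le_trans hbern (hrpow ▸ hmono)
      have h1r : 0 < 1 - r := by linarith
      have h2 : (J : ℝ) + 1 ≤ e * (e ^ τ⁻¹)⁻¹ / (1 - r) := by
        rw [le_div_iff₀ h1r]
        exact h1
      have h3' : (g : ℝ) * ((J : ℝ) + 1) ≤ g * (e * (e ^ τ⁻¹)⁻¹ / (1 - r)) :=
        mul_le_mul_of_nonneg_left h2 hgR.le
      refine le_trans h3' (le_of_eq ?_)
      rw [he']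
      field_simp
    -- part (b)
    have hb : (g : ℝ) * ((n : ℝ) / (2 * g * (c * g / (6 * K)) ^ τ⁻¹) * (1 / (1 - r)))
        = (n : ℝ) / (2 * (1 - r) * A0) * ((g : ℝ) ^ τ⁻¹)⁻¹ := by
      have e1 : (c * g / (6 * K)) ^ τ⁻¹ = A0 * (g : ℝ) ^ τ⁻¹ := by
        rw [hA0, ← Real.mul_rpow (by positivity) hgR.le]
        congr 1
        ring
      have h1r : (1 - r) ≠ 0 := by linarith
      rw [e1]
      field_simp
    rw [← he]
    calc (g : ℝ) * ((R.filter (fun m => Nat.gcd m n = g)).card : ℝ)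
        ≤ (g : ℝ) * (((J : ℕ) : ℝ) + 1
            + (n : ℝ) / (2 * g * (c * g / (6 * K)) ^ τ⁻¹) * (1 / (1 - r))) :=
          mul_le_mul_of_nonneg_left h3 hgR.le
      _ = (g : ℝ) * (((J : ℕ) : ℝ) + 1)
            + (g : ℝ) * ((n : ℝ) / (2 * g * (c * g / (6 * K)) ^ τ⁻¹) * (1 / (1 - r))) := by
          ring
      _ ≤ (n : ℝ) / (1 - r) * (e ^ τ⁻¹)⁻¹ + (n : ℝ) / (2 * (1 - r) * A0) * ((g : ℝ) ^ τ⁻¹)⁻¹ := by
          rw [hb]
          linarith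
  -- Step 5: assemble
  have hsum1 : ∑ g ∈ Nat.divisors n, ((((n / g : ℕ) : ℝ)) ^ τ⁻¹)⁻¹ = σ := by
    rw [hσ]
    exact Nat.sum_div_divisors n (fun d => ((d : ℝ) ^ τ⁻¹)⁻¹)
  have hψn : 0 ≤ ψ n / n := div_nonneg (hψ n) hnR.le
  have h1r : 0 < 1 - r := by linarith
  calc ∑ m ∈ Finset.Ico 1 n, resWeight (fun _ => γ) ψ m n
      ≤ (ψ n / n) * ∑ m ∈ R, (Nat.gcd m n : ℝ) := step1
    _ = (ψ n / n) * ∑ g ∈ Nat.divisors n,
          (g : ℝ) * ((R.filter (fun m => Nat.gcd m n = g)).card : ℝ) := by rw [step2]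
    _ ≤ (ψ n / n) * ∑ g ∈ Nat.divisors n,
          ((n : ℝ) / (1 - r) * ((((n / g : ℕ) : ℝ)) ^ τ⁻¹)⁻¹
            + (n : ℝ) / (2 * (1 - r) * A0) * ((g : ℝ) ^ τ⁻¹)⁻¹) :=
        mul_le_mul_of_nonneg_left (Finset.sum_le_sum step4) hψn
    _ = (1 + 1 / (2 * A0)) / (1 - r) * (ψ n * σ) := by
        rw [Finset.sum_add_distrib, ← Finset.mul_sum, ← Finset.mul_sum, hsum1, ← hσ]
        field_simp

/-- Criterion for shifts of finite type: `ψ q ≤ K / q`, divergence, and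
`∑_{n < N} ψ n σ(n) ≤ C (∑_{n < N} ψ n)²` for infinitely many `N`, where
`σ(n) = ∑_{d ∣ n} d^(-1/τ)`. -/
theorem ae_frequently_of_type (γ c τ K : ℝ) (hc : 0 < c) (hτ : 1 < τ)
    (hγ : ∀ k : ℕ, 1 ≤ k → c ≤ (k : ℝ) ^ τ * |(k : ℝ) * γ - round ((k : ℝ) * γ)|)
    (ψ : ℕ → ℝ) (hψ : ∀ q, 0 ≤ ψ q) (hψK : ∀ q : ℕ, 1 ≤ q → ψ q ≤ K / q) (C : ℝ)
    (hC : ∃ᶠ N in atTop,
      ∑ n ∈ Finset.range N, ψ n * ∑ d ∈ Nat.divisors n, ((d : ℝ) ^ τ⁻¹)⁻¹
        ≤ C * (∑ n ∈ Finset.range N, ψ n) ^ 2)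
    (hdiv : ¬ Summable ψ) :
    ∀ᵐ x : ℝ, ∃ᶠ q : ℕ in atTop, ∃ a : ℤ, |(q : ℝ) * x - a - γ| < ψ q := by
  obtain ⟨K', hK'⟩ : ∃ K' : ℝ, K' = max K 1 := ⟨_, rfl⟩
  have hK'pos : 0 < K' := by
    rw [hK']
    exact lt_of_lt_of_le one_pos (le_max_right _ _)
  have hψK' : ∀ q : ℕ, 1 ≤ q → ψ q ≤ K' / q := fun q hq =>
    le_trans (hψK q hq)
      (div_le_div_of_nonneg_right (hK' ▸ le_max_left _ _) (Nat.cast_nonneg q))
  have hτ0 : 0 < τ := by linarith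
  have hs1 : τ⁻¹ < 1 := inv_lt_one_of_one_lt₀ hτ
  have hr1 : (2 : ℝ) ^ τ⁻¹ / 2 < 1 := by
    rw [div_lt_one (by norm_num)]
    calc (2 : ℝ) ^ τ⁻¹ < (2 : ℝ) ^ (1 : ℝ) :=
          Real.rpow_lt_rpow_of_exponent_lt (by norm_num) hs1
      _ = 2 := Real.rpow_one 2
  obtain ⟨B, hB⟩ : ∃ B : ℝ,
      B = (1 + 1 / (2 * (c / (6 * K')) ^ τ⁻¹)) / (1 - (2 : ℝ) ^ τ⁻¹ / 2) := ⟨_, rfl⟩
  have hB0 : 0 ≤ B := by
    rw [hB]
    have h1 : 0 < (c / (6 * K')) ^ τ⁻¹ := Real.rpow_pos_of_pos (by positivity) _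
    have h2 : 0 < 1 - (2 : ℝ) ^ τ⁻¹ / 2 := by linarith
    positivity
  refine ae_frequently_of_res_qia (fun _ => γ) ψ hψ (B * C) ?_ hdiv
  refine hC.mono fun N hN => ?_
  calc ∑ n ∈ Finset.range N, ∑ m ∈ Finset.Ico 1 n, resWeight (fun _ => γ) ψ m n
      ≤ ∑ n ∈ Finset.range N, B * (ψ n * ∑ d ∈ Nat.divisors n, ((d : ℝ) ^ τ⁻¹)⁻¹) := by
        apply Finset.sum_le_sum
        intro n _
        rcases Nat.eq_zero_or_pos n with h0 | hpos
        · subst h0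
          simp
        · rw [hB]
          exact sum_resWeight_le γ c τ K' hc hτ hK'pos hγ ψ hψ hψK' n hpos
    _ = B * ∑ n ∈ Finset.range N, ψ n * ∑ d ∈ Nat.divisors n, ((d : ℝ) ^ τ⁻¹)⁻¹ := by
        rw [Finset.mul_sum]
    _ ≤ B * (C * (∑ n ∈ Finset.range N, ψ n) ^ 2) := mul_le_mul_of_nonneg_left hN hB0
    _ = B * C * (∑ n ∈ Finset.range N, ψ n) ^ 2 := by ring

/-- Erdős–Vaaler type statement for shifts of finite type: `ψ q ≤ K / q` and divergence of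
`∑ ψ q` along the integers `q` with `∑_{d ∣ q} d^(-1/τ) ≤ Λ` suffice. -/
theorem ae_frequently_of_type_bounded (γ c τ K Λ : ℝ) (hc : 0 < c) (hτ : 1 < τ)
    (hγ : ∀ k : ℕ, 1 ≤ k → c ≤ (k : ℝ) ^ τ * |(k : ℝ) * γ - round ((k : ℝ) * γ)|)
    (ψ : ℕ → ℝ) (hψ : ∀ q, 0 ≤ ψ q) (hψK : ∀ q : ℕ, 1 ≤ q → ψ q ≤ K / q)
    (hdiv : ¬ Summable
      (Set.indicator {q : ℕ | ∑ d ∈ Nat.divisors q, ((d : ℝ) ^ τ⁻¹)⁻¹ ≤ Λ} ψ)) :
    ∀ᵐ x : ℝ, ∃ᶠ q : ℕ in atTop, ∃ a : ℤ, |(q : ℝ) * x - a - γ| < ψ q := by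
  classical
  obtain ⟨S, hS⟩ : ∃ S : Set ℕ, S = {q : ℕ | ∑ d ∈ Nat.divisors q, ((d : ℝ) ^ τ⁻¹)⁻¹ ≤ Λ} :=
    ⟨_, rfl⟩
  rw [← hS] at hdiv
  obtain ⟨ψS, hψS⟩ : ∃ ψS : ℕ → ℝ, ψS = S.indicator ψ := ⟨_, rfl⟩
  rw [← hψS] at hdiv
  have hψS0 : ∀ q, 0 ≤ ψS q := fun q => by
    rw [hψS]
    exact Set.indicator_nonneg (fun q _ => hψ q) q
  have hψSle : ∀ q, ψS q ≤ ψ q := fun q => by
    rw [hψS]
    exact Set.indicator_le_self' (fun _ _ => hψ q) q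
  have hψSK : ∀ q : ℕ, 1 ≤ q → ψS q ≤ K / q := fun q hq => le_trans (hψSle q) (hψK q hq)
  have hterm : ∀ n, ψS n * ∑ d ∈ Nat.divisors n, ((d : ℝ) ^ τ⁻¹)⁻¹ ≤ |Λ| * ψS n := by
    intro n
    by_cases hn : n ∈ S
    · have h1 : ∑ d ∈ Nat.divisors n, ((d : ℝ) ^ τ⁻¹)⁻¹ ≤ Λ := by
        rw [hS] at hn
        exact hn
      have h2 := le_abs_self Λ
      rw [mul_comm]
      exact mul_le_mul_of_nonneg_right (le_trans h1 h2) (hψS0 n)
    · have h0 : ψS n = 0 := by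
        rw [hψS]
        exact Set.indicator_of_notMem hn ψ
      rw [h0, zero_mul, mul_zero]
  have htend : Tendsto (fun N => ∑ n ∈ Finset.range N, ψS n) atTop atTop :=
    (not_summable_iff_tendsto_nat_atTop_of_nonneg hψS0).mp hdiv
  have hC : ∃ᶠ N in atTop,
      ∑ n ∈ Finset.range N, ψS n * ∑ d ∈ Nat.divisors n, ((d : ℝ) ^ τ⁻¹)⁻¹
        ≤ |Λ| * (∑ n ∈ Finset.range N, ψS n) ^ 2 := by
    apply Eventually.frequently
    filter_upwards [htend.eventually_ge_atTop 1] with N hN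
    obtain ⟨P, hP⟩ : ∃ P : ℝ, P = ∑ n ∈ Finset.range N, ψS n := ⟨_, rfl⟩
    rw [← hP] at hN ⊢
    calc ∑ n ∈ Finset.range N, ψS n * ∑ d ∈ Nat.divisors n, ((d : ℝ) ^ τ⁻¹)⁻¹
        ≤ ∑ n ∈ Finset.range N, |Λ| * ψS n := Finset.sum_le_sum fun n _ => hterm n
      _ = |Λ| * P := by rw [← Finset.mul_sum, hP]
      _ ≤ |Λ| * P ^ 2 := by
          apply mul_le_mul_of_nonneg_left _ (abs_nonneg Λ)
          nlinarith
  have key := ae_frequently_of_type γ c τ K hc hτ hγ ψS hψS0 hψSK |Λ| hC hdiv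
  filter_upwards [key] with x hx
  refine hx.mono fun q hq => ?_
  obtain ⟨a, ha⟩ := hq
  exact ⟨a, lt_of_lt_of_le ha (hψSle q)⟩

end Vale.Agent.Lib.P028
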