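import Mathlib
import Vale.Agent.Lib.P028.Diophantine

/-!
Counting lemmas for the solutions `j` of `‖γ j - t‖ < δ` in an interval, for `γ` of finite
Diophantine type: the gap principle, and the main-term count obtained from Dirichlet's
approximation theorem (long intervals).
-/

open Finset

namespace Vale.Agent.Lib.P028

/-- A `D`-separated set of natural numbers in a closed interval of length `U - L` has at most
`1 + (U - L) / D` elements. -/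
theorem card_le_of_separated_closed (F : Finset ℕ) (L U D : ℝ) (hD : 0 < D) (hLU : L ≤ U)
    (hF : ∀ m ∈ F, L ≤ (m : ℝ) ∧ (m : ℝ) ≤ U)
    (hsep : ∀ m1 ∈ F, ∀ m2 ∈ F, m1 < m2 → D < (m2 : ℝ) - m1) :
    (F.card : ℝ) ≤ 1 + (U - L) / D := by
  have hnn : 0 ≤ (U - L) / D := div_nonneg (by linarith) hD.le
  obtain ⟨f, hf⟩ : ∃ f : ℕ → ℕ, ∀ m, f m = ⌊((m : ℝ) - L) / D⌋₊ := ⟨_, fun _ => rfl⟩
  have hmaps : Set.MapsTo f ↑F ↑(Finset.range (⌊(U - L) / D⌋₊ + 1)) := by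
    intro m hm
    rw [Finset.mem_coe] at hm
    rw [Finset.mem_coe, Finset.mem_range]
    have h1 := hF m hm
    have h2 : ((m : ℝ) - L) / D ≤ (U - L) / D := by
      apply div_le_div_of_nonneg_right _ hD.le
      linarith [h1.2]
    have h3 := Nat.floor_le_floor h2
    rw [hf]
    omega
  have hinj : Set.InjOn f ↑F := by
    intro m1 h1 m2 h2 h12
    rw [Finset.mem_coe] at h1 h2
    by_contra hne
    have key : ∀ a ∈ F, ∀ b ∈ F, a < b → f a ≠ f b := by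
      intro a ha b hb hab hfab
      have hsepab := hsep a ha b hb hab
      have ha0 : 0 ≤ ((a : ℝ) - L) / D := div_nonneg (by linarith [(hF a ha).1]) hD.le
      have hb0 : 0 ≤ ((b : ℝ) - L) / D := div_nonneg (by linarith [(hF b hb).1]) hD.le
      have e1 : (f a : ℝ) ≤ ((a : ℝ) - L) / D := by
        rw [hf]
        exact Nat.floor_le ha0
      have e2 : ((b : ℝ) - L) / D < (f b : ℝ) + 1 := by
        rw [hf]
        exact Nat.lt_floor_add_one _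
      have e3 : ((b : ℝ) - L) / D - ((a : ℝ) - L) / D = ((b : ℝ) - a) / D := by ring
      have e4 : 1 < ((b : ℝ) - a) / D := by
        rw [lt_div_iff₀ hD]
        linarith
      have e5 : (f a : ℝ) = (f b : ℝ) := by exact_mod_cast hfab
      linarith
    rcases Nat.lt_or_gt_of_ne hne with h | h
    · exact key m1 h1 m2 h2 h h12
    · exact key m2 h2 m1 h1 h h12.symm
  have hcard := Finset.card_le_card_of_injOn f hmaps hinj
  rw [Finset.card_range] at hcard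
  have h1 : (F.card : ℝ) ≤ ((⌊(U - L) / D⌋₊ + 1 : ℕ) : ℝ) := by exact_mod_cast hcard
  have h2 : ((⌊(U - L) / D⌋₊ : ℕ) : ℝ) ≤ (U - L) / D := Nat.floor_le hnn
  push_cast at h1
  linarith

/-- Gap principle: for `γ` of finite type, the `j` in an interval of length `Z` with
`‖γ j - t‖ < δ` number at most `1 + Z (2 δ / c)^(1/τ)`. -/
theorem gap_count (γ c τ : ℝ) (hc : 0 < c) (hτ : 0 < τ)
    (hγ : ∀ k : ℕ, 1 ≤ k → c ≤ (k : ℝ) ^ τ * |(k : ℝ) * γ - round ((k : ℝ) * γ)|)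
    (J : Finset ℕ) (L Z δ t : ℝ) (hδ : 0 < δ) (hZ : 0 ≤ Z)
    (hJ : ∀ j ∈ J, L ≤ (j : ℝ) ∧ (j : ℝ) ≤ L + Z)
    (hres : ∀ j ∈ J, |γ * (j : ℝ) - t - round (γ * (j : ℝ) - t)| < δ) :
    (J.card : ℝ) ≤ 1 + Z * (2 * δ / c) ^ τ⁻¹ := by
  obtain ⟨D, hD⟩ : ∃ D : ℝ, D = (c / (2 * δ)) ^ τ⁻¹ := ⟨_, rfl⟩
  have hDpos : 0 < D := by
    rw [hD]
    exact Real.rpow_pos_of_pos (by positivity) _
  have hsep : ∀ m1 ∈ J, ∀ m2 ∈ J, m1 < m2 → D < (m2 : ℝ) - m1 := by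
    intro m1 h1 m2 h2 h12
    obtain ⟨k, hk⟩ : ∃ k : ℕ, k = m2 - m1 := ⟨_, rfl⟩
    have hk1 : 1 ≤ k := by omega
    have hkR : (k : ℝ) = (m2 : ℝ) - m1 := by
      rw [hk, Nat.cast_sub h12.le]
    have e1 := abs_sub_round_sub_le (γ * (m2 : ℝ) - t) (γ * (m1 : ℝ) - t)
    have e2 : γ * (m2 : ℝ) - t - (γ * (m1 : ℝ) - t) = (k : ℝ) * γ := by
      rw [hkR]
      ring
    rw [e2] at e1
    have e3 : |(k : ℝ) * γ - round ((k : ℝ) * γ)| < 2 * δ := by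
      linarith [hres m1 h1, hres m2 h2]
    have e4 := hγ k hk1
    have hkpos : (0 : ℝ) < k := by exact_mod_cast hk1
    have hkτ : 0 < (k : ℝ) ^ τ := Real.rpow_pos_of_pos hkpos _
    have e5 : c < (k : ℝ) ^ τ * (2 * δ) := lt_of_le_of_lt e4 (mul_lt_mul_of_pos_left e3 hkτ)
    have e6 : c / (2 * δ) < (k : ℝ) ^ τ := by
      rw [div_lt_iff₀ (by positivity)]
      exact e5
    have e7 : (c / (2 * δ)) ^ τ⁻¹ < ((k : ℝ) ^ τ) ^ τ⁻¹ :=
      Real.rpow_lt_rpow (by positivity) e6 (inv_pos.mpr hτ)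
    have e8 : ((k : ℝ) ^ τ) ^ τ⁻¹ = k := by
      rw [← Real.rpow_mul hkpos.le, mul_inv_cancel₀ hτ.ne', Real.rpow_one]
    rw [e8, ← hD, hkR] at e7
    exact e7
  have h1 := card_le_of_separated_closed J L (L + Z) D hDpos (by linarith) hJ hsep
  have e9 : (L + Z - L) / D = Z * (2 * δ / c) ^ τ⁻¹ := by
    have h2 : (2 * δ / c) ^ τ⁻¹ = D⁻¹ := by
      rw [hD, ← Real.inv_rpow (by positivity)]
      congr 1
      field_simp
    rw [h2]
    field_simp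
    ring
  rw [e9] at h1
  exact h1

/-- Main-term count from Dirichlet's theorem: for `γ` of finite type and an interval of length
`Z ≥ 1 + 1 / (c δ^τ)`, the `j` in the interval with `‖γ j - t‖ < δ` number at most `16 δ Z`. -/
theorem bohr_count (γ c τ : ℝ) (hc : 0 < c) (hτ : 0 < τ)
    (hγ : ∀ k : ℕ, 1 ≤ k → c ≤ (k : ℝ) ^ τ * |(k : ℝ) * γ - round ((k : ℝ) * γ)|)
    (J : Finset ℕ) (L Z δ t : ℝ) (hδ : 0 < δ)
    (hreg : 1 + 1 / (c * δ ^ τ) ≤ Z)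
    (hJ : ∀ j ∈ J, L ≤ (j : ℝ) ∧ (j : ℝ) < L + Z)
    (hres : ∀ j ∈ J, |γ * (j : ℝ) - t - round (γ * (j : ℝ) - t)| < δ) :
    (J.card : ℝ) ≤ 16 * δ * Z := by
  classical
  obtain ⟨n, hn⟩ : ∃ n : ℕ, n = ⌈1 / (c * δ ^ τ)⌉₊ := ⟨_, rfl⟩
  have hδτ : 0 < δ ^ τ := Real.rpow_pos_of_pos hδ _
  have hy : 0 < 1 / (c * δ ^ τ) := by positivity
  have hn1 : 0 < n := by
    rw [hn]
    exact Nat.ceil_pos.mpr hy
  have hnle : 1 / (c * δ ^ τ) ≤ (n : ℝ) := by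
    rw [hn]
    exact Nat.le_ceil _
  have hnlt : (n : ℝ) < 1 / (c * δ ^ τ) + 1 := by
    rw [hn]
    exact Nat.ceil_lt_add_one hy.le
  have hnZ : (n : ℝ) ≤ Z := by linarith
  have hnpos : (0 : ℝ) < (n : ℝ) + 1 := by positivity
  obtain ⟨ξ, hξ, hden⟩ := Real.exists_rat_abs_sub_le_and_den_le γ hn1
  obtain ⟨q, hq⟩ : ∃ q : ℕ, q = ξ.den := ⟨_, rfl⟩
  obtain ⟨p, hp⟩ : ∃ p : ℤ, p = ξ.num := ⟨_, rfl⟩
  have hq1 : 1 ≤ q := by
    rw [hq]
    exact ξ.den_pos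
  have hqpos : (0 : ℝ) < q := by exact_mod_cast hq1
  have hqn : q ≤ n := by
    rw [hq]
    exact hden
  have hqnR : (q : ℝ) ≤ n := by exact_mod_cast hqn
  have hξpq : (ξ : ℝ) = (p : ℝ) / q := by
    rw [hp, hq]
    exact (Rat.cast_def ξ)
  obtain ⟨ε, hε⟩ : ∃ ε : ℝ, ε = γ - (p : ℝ) / q := ⟨_, rfl⟩
  have hεle : |ε| ≤ 1 / (((n : ℝ) + 1) * q) := by
    rw [hε, ← hξpq, hq]
    exact hξ
  have hqε : (q : ℝ) * |ε| ≤ 1 / ((n : ℝ) + 1) := by
    calc (q : ℝ) * |ε| ≤ q * (1 / (((n : ℝ) + 1) * q)) :=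
          mul_le_mul_of_nonneg_left hεle hqpos.le
      _ = 1 / ((n : ℝ) + 1) := by field_simp
  have hpq : (p : ℝ) = q * (γ - ε) := by
    rw [hε]
    field_simp
    ring
  -- the denominator is large
  have hqδ : 1 < (q : ℝ) * δ := by
    have e1 : (q : ℝ) * γ - p = q * ε := by
      rw [hpq]
      ring
    have e2 : |(q : ℝ) * γ - round ((q : ℝ) * γ)| ≤ |(q : ℝ) * γ - p| := round_le _ _
    have e3 : |(q : ℝ) * γ - p| ≤ 1 / ((n : ℝ) + 1) := by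
      rw [e1, abs_mul, abs_of_pos hqpos]
      exact hqε
    have e4 := hγ q hq1
    have hqτ : 0 < (q : ℝ) ^ τ := Real.rpow_pos_of_pos hqpos _
    have e5 : c ≤ (q : ℝ) ^ τ * (1 / ((n : ℝ) + 1)) :=
      le_trans e4 (mul_le_mul_of_nonneg_left (le_trans e2 e3) hqτ.le)
    have e6 : c * ((n : ℝ) + 1) ≤ (q : ℝ) ^ τ := by
      rw [mul_one_div, le_div_iff₀ hnpos] at e5
      exact e5
    have e7 : (1 / δ) ^ τ < c * ((n : ℝ) + 1) := by
      have h0 : (1 / δ) ^ τ = 1 / δ ^ τ := by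
        rw [Real.div_rpow zero_le_one hδ.le, Real.one_rpow]
      rw [h0]
      have h1 : 1 / δ ^ τ = c * (1 / (c * δ ^ τ)) := by field_simp
      rw [h1]
      apply mul_lt_mul_of_pos_left _ hc
      linarith
    have e8 : (1 / δ) ^ τ < (q : ℝ) ^ τ := lt_of_lt_of_le e7 e6
    have e9 : 1 / δ < (q : ℝ) := by
      by_contra hcon
      rw [not_lt] at hcon
      have h2 := Real.rpow_le_rpow hqpos.le hcon hτ.le
      linarith
    rw [div_lt_iff₀ hδ] at e9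
    exact e9
  -- the block index, the residue and the injective map
  obtain ⟨kf, hkf⟩ : ∃ kf : ℕ → ℕ, ∀ j, kf j = ⌊((j : ℝ) - L) / q⌋₊ := ⟨_, fun _ => rfl⟩
  obtain ⟨mf, hmf⟩ : ∃ mf : ℕ → ℤ, ∀ j, mf j = round (γ * (j : ℝ) - t) := ⟨_, fun _ => rfl⟩
  obtain ⟨cf, hcf⟩ : ∃ cf : ℕ → ℤ,
      ∀ k, cf k = round ((q : ℝ) * t - q * ε * (L + q * k)) := ⟨_, fun _ => rfl⟩
  obtain ⟨wf, hwf⟩ : ∃ wf : ℕ → ℤ,
      ∀ j, wf j = p * (j : ℤ) - (q : ℤ) * mf j - cf (kf j) := ⟨_, fun _ => rfl⟩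
  obtain ⟨M, hM⟩ : ∃ M : ℕ, M = ⌈(q : ℝ) * δ + 3 / 2⌉₊ := ⟨_, rfl⟩
  have hblock : ∀ j ∈ J, (L + (q : ℝ) * (kf j : ℝ) ≤ (j : ℝ)) ∧
      ((j : ℝ) < L + (q : ℝ) * (kf j : ℝ) + q) := by
    intro j hj
    have h0 : 0 ≤ ((j : ℝ) - L) / q := div_nonneg (by linarith [(hJ j hj).1]) hqpos.le
    have h1 : (kf j : ℝ) ≤ ((j : ℝ) - L) / q := by
      rw [hkf]
      exact Nat.floor_le h0
    have h2 : ((j : ℝ) - L) / q < (kf j : ℝ) + 1 := by
      rw [hkf]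
      exact Nat.lt_floor_add_one _
    rw [le_div_iff₀ hqpos] at h1
    rw [div_lt_iff₀ hqpos] at h2
    constructor
    · linarith
    · nlinarith
  have hwbound : ∀ j ∈ J, |(wf j : ℝ)| < (q : ℝ) * δ + 3 / 2 := by
    intro j hj
    obtain ⟨hb1, hb2⟩ := hblock j hj
    have e1 : (wf j : ℝ) = q * (γ * (j : ℝ) - t - (mf j : ℝ))
        + ((q : ℝ) * t - q * ε * (L + q * (kf j : ℝ)) - (cf (kf j) : ℝ))
        - q * ε * ((j : ℝ) - (L + q * (kf j : ℝ))) := by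
      rw [hwf]
      push_cast
      rw [hpq]
      ring
    have e2 : |(q : ℝ) * (γ * (j : ℝ) - t - (mf j : ℝ))| < q * δ := by
      rw [abs_mul, abs_of_pos hqpos, hmf]
      exact mul_lt_mul_of_pos_left (hres j hj) hqpos
    have e3 : |(q : ℝ) * t - q * ε * (L + q * (kf j : ℝ)) - (cf (kf j) : ℝ)| ≤ 1 / 2 := by
      rw [hcf]
      exact abs_sub_round _
    have e4 : |(q : ℝ) * ε * ((j : ℝ) - (L + q * (kf j : ℝ)))| < 1 := by
      rw [abs_mul, abs_mul, abs_of_pos hqpos]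
      have h1 : |(j : ℝ) - (L + q * (kf j : ℝ))| ≤ q := by
        rw [abs_le]
        constructor <;> linarith
      have h2 : (q : ℝ) * |ε| * |(j : ℝ) - (L + q * (kf j : ℝ))| ≤ 1 / ((n : ℝ) + 1) * q :=
        mul_le_mul hqε h1 (abs_nonneg _) (by positivity)
      have h3 : 1 / ((n : ℝ) + 1) * q < 1 := by
        rw [one_div, inv_mul_lt_iff₀ hnpos]
        linarith
      linarith
    rw [e1]
    have t1 := abs_sub ((q : ℝ) * (γ * (j : ℝ) - t - (mf j : ℝ))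
        + ((q : ℝ) * t - q * ε * (L + q * (kf j : ℝ)) - (cf (kf j) : ℝ)))
        ((q : ℝ) * ε * ((j : ℝ) - (L + q * (kf j : ℝ))))
    have t2 := abs_add_le ((q : ℝ) * (γ * (j : ℝ) - t - (mf j : ℝ)))
        ((q : ℝ) * t - q * ε * (L + q * (kf j : ℝ)) - (cf (kf j) : ℝ))
    linarith
  have hMge : (q : ℝ) * δ + 3 / 2 ≤ (M : ℝ) := by
    rw [hM]
    exact Nat.le_ceil _
  have hMlt : (M : ℝ) < (q : ℝ) * δ + 3 / 2 + 1 := by
    rw [hM]
    exact Nat.ceil_lt_add_one (by positivity)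
  obtain ⟨f, hf⟩ : ∃ f : ℕ → ℕ × ℤ, ∀ j, f j = (kf j, wf j) := ⟨_, fun _ => rfl⟩
  have hmaps : Set.MapsTo f ↑J
      ↑(Finset.range (⌊Z / q⌋₊ + 1) ×ˢ Finset.Icc (-(M : ℤ)) (M : ℤ)) := by
    intro j hj
    rw [Finset.mem_coe] at hj
    rw [Finset.mem_coe, hf, Finset.mem_product, Finset.mem_range, Finset.mem_Icc]
    refine ⟨?_, ?_, ?_⟩
    · have h1 : ((j : ℝ) - L) / q ≤ Z / q := by
        apply div_le_div_of_nonneg_right _ hqpos.le
        linarith [(hJ j hj).2]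
      have h2 := Nat.floor_le_floor h1
      rw [hkf]
      omega
    · have h1 := hwbound j hj
      rw [abs_lt] at h1
      have h2 : (-(M : ℝ)) < (wf j : ℝ) := by linarith [h1.1]
      have h3 : ((-(M : ℤ) : ℤ) : ℝ) < ((wf j : ℤ) : ℝ) := by
        push_cast
        exact h2
      exact le_of_lt (by exact_mod_cast h3)
    · have h1 := hwbound j hj
      rw [abs_lt] at h1
      have h2 : (wf j : ℝ) < (M : ℝ) := by linarith [h1.2]
      have h3 : ((wf j : ℤ) : ℝ) < (((M : ℤ) : ℤ) : ℝ) := by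
        push_cast
        exact h2
      exact le_of_lt (by exact_mod_cast h3)
  have hcop : IsCoprime (q : ℤ) p := by
    rw [hp, hq]
    exact (Rat.isCoprime_num_den ξ).symm
  have hinj : Set.InjOn f ↑J := by
    intro j1 h1 j2 h2 h12
    rw [Finset.mem_coe] at h1 h2
    rw [hf, hf, Prod.mk.injEq] at h12
    obtain ⟨hk12, hw12⟩ := h12
    rw [hwf, hwf, hk12] at hw12
    have e1 : p * ((j1 : ℤ) - (j2 : ℤ)) = (q : ℤ) * (mf j1 - mf j2) := by linarith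
    have e2 : (q : ℤ) ∣ p * ((j1 : ℤ) - (j2 : ℤ)) := ⟨_, e1⟩
    have e3 : (q : ℤ) ∣ ((j1 : ℤ) - (j2 : ℤ)) := hcop.dvd_of_dvd_mul_left e2
    obtain ⟨a1, a2⟩ := hblock j1 h1
    obtain ⟨b1, b2⟩ := hblock j2 h2
    rw [hk12] at a1 a2
    have e4 : |((j1 : ℤ) - (j2 : ℤ) : ℤ)| < (q : ℤ) := by
      have h5 : |(j1 : ℝ) - (j2 : ℝ)| < (q : ℝ) := by
        rw [abs_lt]
        constructor <;> linarith
      have h6 : ((|((j1 : ℤ) - (j2 : ℤ) : ℤ)| : ℤ) : ℝ) < ((q : ℤ) : ℝ) := by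
        push_cast
        exact h5
      exact_mod_cast h6
    have e5 := Int.eq_zero_of_abs_lt_dvd e3 e4
    omega
  have hcard := Finset.card_le_card_of_injOn f hmaps hinj
  rw [Finset.card_product, Finset.card_range, Int.card_Icc] at hcard
  have hcard2 : (J.card : ℝ) ≤ ((⌊Z / q⌋₊ : ℕ) + 1 : ℝ) * (2 * (M : ℝ) + 1) := by
    have h1 : ((M : ℤ) + 1 - -(M : ℤ)).toNat = 2 * M + 1 := by omega
    rw [h1] at hcard
    have h2 : (J.card : ℝ) ≤ (((⌊Z / q⌋₊ + 1) * (2 * M + 1) : ℕ) : ℝ) := by exact_mod_cast hcard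
    push_cast at h2
    exact h2
  have hZq : 1 ≤ Z / q := by
    rw [le_div_iff₀ hqpos]
    linarith
  have hfl : ((⌊Z / q⌋₊ : ℕ) : ℝ) ≤ Z / q := Nat.floor_le (by linarith)
  have hA : ((⌊Z / q⌋₊ : ℕ) + 1 : ℝ) ≤ 2 * (Z / q) := by linarith
  have hB : 2 * (M : ℝ) + 1 ≤ 8 * ((q : ℝ) * δ) := by linarith
  calc (J.card : ℝ) ≤ ((⌊Z / q⌋₊ : ℕ) + 1 : ℝ) * (2 * (M : ℝ) + 1) := hcard2
    _ ≤ 2 * (Z / q) * (8 * ((q : ℝ) * δ)) :=
        mul_le_mul hA hB (by positivity) (by linarith)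
    _ = 16 * δ * Z := by
        field_simp
        ring

end Vale.Agent.Lib.P028
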