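import Mathlib

/-!
A fourth moment bound for the tail divisor sums `∑_{d ∣ n, d > z} 1 / d` over a dyadic block,
and its consequence for arbitrary subsets of the block (Hölder).
-/

open Finset

namespace Vale.Agent.Lib.P028

/-- The weight `m^(-3/2)`. -/
noncomputable def invThreeHalves (m : ℕ) : ℝ := 1 / ((m : ℝ) * Real.sqrt (m : ℝ))

theorem invThreeHalves_nonneg (m : ℕ) : 0 ≤ invThreeHalves m := by
  unfold invThreeHalves
  positivity

theorem invThreeHalves_mul (e m : ℕ) :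
    invThreeHalves (e * m) = invThreeHalves e * invThreeHalves m := by
  unfold invThreeHalves
  push_cast
  rw [Real.sqrt_mul (Nat.cast_nonneg e), one_div_mul_one_div]
  congr 1
  ring

theorem invThreeHalves_succ_le (N : ℕ) (hN : 1 ≤ N) :
    invThreeHalves (N + 1) ≤ 2 / Real.sqrt (N : ℝ) - 2 / Real.sqrt ((N : ℝ) + 1) := by
  unfold invThreeHalves
  push_cast
  obtain ⟨a, ha⟩ : ∃ a : ℝ, a = Real.sqrt (N : ℝ) := ⟨_, rfl⟩
  obtain ⟨b, hb⟩ : ∃ b : ℝ, b = Real.sqrt ((N : ℝ) + 1) := ⟨_, rfl⟩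
  have hNpos : (0 : ℝ) < N := by exact_mod_cast hN
  have ha0 : 0 < a := by
    rw [ha]
    exact Real.sqrt_pos.mpr hNpos
  have hb0 : 0 < b := by
    rw [hb]
    exact Real.sqrt_pos.mpr (by linarith)
  have ha2 : a ^ 2 = N := by
    rw [ha]
    exact Real.sq_sqrt hNpos.le
  have hb2 : b ^ 2 = (N : ℝ) + 1 := by
    rw [hb]
    exact Real.sq_sqrt (by linarith)
  rw [← ha, ← hb, ← hb2]
  have hab : a ≤ b := by nlinarith
  have e1 : 2 / a - 2 / b = 2 * (b - a) / (a * b) := by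
    field_simp
  have e2 : (b - a) * (b + a) = 1 := by nlinarith
  have e3 : a * b * (b + a) ≤ 2 * (b ^ 2 * b) := by
    nlinarith [mul_pos ha0 hb0, mul_pos hb0 hb0, mul_nonneg (mul_nonneg hb0.le hb0.le) (sub_nonneg.mpr hab)]
  have hba : 0 ≤ b - a := by linarith
  rw [e1, div_le_div_iff₀ (by positivity) (by positivity)]
  have e4 : (b - a) * (a * b * (b + a)) = a * b * ((b - a) * (b + a)) := by ring
  calc 1 * (a * b) = (b - a) * (a * b * (b + a)) := by
        rw [one_mul, e4, e2, mul_one]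
    _ ≤ (b - a) * (2 * (b ^ 2 * b)) := mul_le_mul_of_nonneg_left e3 hba
    _ = 2 * (b - a) * (b ^ 2 * b) := by ring

theorem sum_Ico_invThreeHalves_le (k N : ℕ) (hk : 1 ≤ k) (hkN : k ≤ N) :
    ∑ m ∈ Finset.Ico (k + 1) (N + 1), invThreeHalves m
      ≤ 2 / Real.sqrt (k : ℝ) - 2 / Real.sqrt (N : ℝ) := by
  induction N, hkN using Nat.le_induction with
  | base => simp
  | succ N hN ih =>
    rw [Finset.sum_Ico_succ_top (by omega)]
    have h1 := invThreeHalves_succ_le N (le_trans hk hN)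
    push_cast
    linarith

theorem sum_range_invThreeHalves_le (M : ℕ) :
    ∑ m ∈ Finset.range M, invThreeHalves m ≤ 3 := by
  have hsub : Finset.range M ⊆ insert 0 (insert 1 (Finset.Ico (1 + 1) (max 1 M + 1))) := by
    intro m hm
    rw [Finset.mem_range] at hm
    rw [Finset.mem_insert, Finset.mem_insert, Finset.mem_Ico]
    have h1 := le_max_right 1 M
    omega
  have h0 : invThreeHalves 0 = 0 := by
    unfold invThreeHalves
    simp
  have h1 : invThreeHalves 1 = 1 := by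
    unfold invThreeHalves
    simp
  have h2 := sum_Ico_invThreeHalves_le 1 (max 1 M) le_rfl (le_max_left _ _)
  have h4 : 0 ≤ 2 / Real.sqrt ((max 1 M : ℕ) : ℝ) := by positivity
  have h5 : (2 : ℝ) / Real.sqrt ((1 : ℕ) : ℝ) = 2 := by simp
  calc ∑ m ∈ Finset.range M, invThreeHalves m
      ≤ ∑ m ∈ insert 0 (insert 1 (Finset.Ico (1 + 1) (max 1 M + 1))), invThreeHalves m :=
        Finset.sum_le_sum_of_subset_of_nonneg hsub (fun m _ _ => invThreeHalves_nonneg m)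
    _ = invThreeHalves 0 + (invThreeHalves 1
          + ∑ m ∈ Finset.Ico (1 + 1) (max 1 M + 1), invThreeHalves m) := by
        rw [Finset.sum_insert (by simp), Finset.sum_insert (by simp)]
    _ ≤ 3 := by
        rw [h0, h1]
        linarith

theorem sum_filter_invThreeHalves_le (M : ℕ) (y : ℝ) (hy : 0 < y) :
    ∑ m ∈ (Finset.range M).filter (fun m : ℕ => y < (m : ℝ)), invThreeHalves m
      ≤ 3 / Real.sqrt y := by
  have hsy : 0 < Real.sqrt y := Real.sqrt_pos.mpr hy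
  rcases le_or_gt 1 y with h1 | h1
  · obtain ⟨k, hk⟩ : ∃ k : ℕ, k = ⌊y⌋₊ := ⟨_, rfl⟩
    have hk1 : 1 ≤ k := by
      rw [hk]
      exact Nat.le_floor (by simpa using h1)
    have hky : (k : ℝ) ≤ y := by
      rw [hk]
      exact Nat.floor_le (by linarith)
    have hyk : y < (k : ℝ) + 1 := by
      rw [hk]
      exact Nat.lt_floor_add_one y
    have hkpos : (0 : ℝ) < k := by exact_mod_cast hk1
    have hk1R : (1 : ℝ) ≤ k := by exact_mod_cast hk1
    have hsub : (Finset.range M).filter (fun m : ℕ => y < (m : ℝ))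
        ⊆ Finset.Ico (k + 1) (max k M + 1) := by
      intro m hm
      rw [Finset.mem_filter, Finset.mem_range] at hm
      rw [Finset.mem_Ico]
      have h2 : (k : ℝ) < m := lt_of_le_of_lt hky hm.2
      have h3 : k < m := by exact_mod_cast h2
      have h4 := le_max_right k M
      omega
    have h2 : Real.sqrt y ≤ 3 / 2 * Real.sqrt k := by
      have e1 : (3 : ℝ) / 2 * Real.sqrt k = Real.sqrt (9 / 4 * k) := by
        rw [Real.sqrt_mul (by norm_num), show (9 : ℝ) / 4 = (3 / 2) ^ 2 by norm_num,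
          Real.sqrt_sq (by norm_num)]
      rw [e1]
      apply Real.sqrt_le_sqrt
      linarith
    calc ∑ m ∈ (Finset.range M).filter (fun m : ℕ => y < (m : ℝ)), invThreeHalves m
        ≤ ∑ m ∈ Finset.Ico (k + 1) (max k M + 1), invThreeHalves m :=
          Finset.sum_le_sum_of_subset_of_nonneg hsub (fun m _ _ => invThreeHalves_nonneg m)
      _ ≤ 2 / Real.sqrt (k : ℝ) - 2 / Real.sqrt ((max k M : ℕ) : ℝ) :=
          sum_Ico_invThreeHalves_le k _ hk1 (le_max_left _ _)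
      _ ≤ 2 / Real.sqrt (k : ℝ) := by
          have h3 : 0 ≤ 2 / Real.sqrt ((max k M : ℕ) : ℝ) := by positivity
          linarith
      _ ≤ 3 / Real.sqrt y := by
          rw [div_le_div_iff₀ (Real.sqrt_pos.mpr hkpos) hsy]
          linarith
  · have hsub : (Finset.range M).filter (fun m : ℕ => y < (m : ℝ)) ⊆ Finset.range M :=
      Finset.filter_subset _ _
    have h2 : Real.sqrt y ≤ 1 := by
      have e1 := Real.sqrt_le_sqrt h1.le
      rw [Real.sqrt_one] at e1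
      exact e1
    calc ∑ m ∈ (Finset.range M).filter (fun m : ℕ => y < (m : ℝ)), invThreeHalves m
        ≤ ∑ m ∈ Finset.range M, invThreeHalves m :=
          Finset.sum_le_sum_of_subset_of_nonneg hsub (fun m _ _ => invThreeHalves_nonneg m)
      _ ≤ 3 := sum_range_invThreeHalves_le M
      _ ≤ 3 / Real.sqrt y := by
          rw [le_div_iff₀ hsy]
          nlinarith

theorem sum_multiples_invThreeHalves_le (M e : ℕ) (he : 1 ≤ e) (z : ℝ) (hz : 0 < z) :
    ∑ d ∈ (Finset.range M).filter (fun d : ℕ => z < (d : ℝ)),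
        (if e ∣ d then invThreeHalves d else 0)
      ≤ 3 / ((e : ℝ) * Real.sqrt z) := by
  classical
  have hepos : (0 : ℝ) < e := by exact_mod_cast he
  rw [← Finset.sum_filter]
  have hsub : ((Finset.range M).filter (fun d : ℕ => z < (d : ℝ))).filter (fun d : ℕ => e ∣ d)
      ⊆ ((Finset.range M).filter (fun m : ℕ => z / e < (m : ℝ))).image (fun m => e * m) := by
    intro d hd
    rw [Finset.mem_filter, Finset.mem_filter, Finset.mem_range] at hd
    obtain ⟨⟨hdM, hzd⟩, m, rfl⟩ := hd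
    rw [Finset.mem_image]
    refine ⟨m, ?_, rfl⟩
    rw [Finset.mem_filter, Finset.mem_range]
    constructor
    · have h1 : m ≤ e * m := Nat.le_mul_of_pos_left m he
      omega
    · rw [div_lt_iff₀ hepos]
      push_cast at hzd
      linarith
  calc ∑ d ∈ ((Finset.range M).filter (fun d : ℕ => z < (d : ℝ))).filter (fun d : ℕ => e ∣ d),
          invThreeHalves d
      ≤ ∑ d ∈ ((Finset.range M).filter (fun m : ℕ => z / e < (m : ℝ))).image (fun m => e * m),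
          invThreeHalves d :=
        Finset.sum_le_sum_of_subset_of_nonneg hsub (fun d _ _ => invThreeHalves_nonneg d)
    _ = ∑ m ∈ (Finset.range M).filter (fun m : ℕ => z / e < (m : ℝ)), invThreeHalves (e * m) := by
        rw [Finset.sum_image]
        intro a _ b _ hab
        exact Nat.eq_of_mul_eq_mul_left (by omega) hab
    _ = invThreeHalves e
          * ∑ m ∈ (Finset.range M).filter (fun m : ℕ => z / e < (m : ℝ)), invThreeHalves m := by
        rw [Finset.mul_sum]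
        exact Finset.sum_congr rfl (fun m _ => invThreeHalves_mul e m)
    _ ≤ invThreeHalves e * (3 / Real.sqrt (z / e)) :=
        mul_le_mul_of_nonneg_left (sum_filter_invThreeHalves_le M (z / e) (by positivity))
          (invThreeHalves_nonneg e)
    _ = 3 / ((e : ℝ) * Real.sqrt z) := by
        unfold invThreeHalves
        rw [Real.sqrt_div hz.le]
        have h1 : 0 < Real.sqrt (e : ℝ) := Real.sqrt_pos.mpr hepos
        have h2 : 0 < Real.sqrt z := Real.sqrt_pos.mpr hz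
        field_simp

/-- A Minkowski type inequality: the `ℓ²` norm of a nonnegative combination is at most the
combination of the `ℓ²` norms. -/
theorem sum_sq_sum_le {ι κ : Type*} (I : Finset ι) (P : Finset κ) (a : κ → ℝ)
    (ha : ∀ p ∈ P, 0 ≤ a p) (v : κ → ι → ℝ) :
    ∑ n ∈ I, (∑ p ∈ P, a p * v p n) ^ 2
      ≤ (∑ p ∈ P, a p * Real.sqrt (∑ n ∈ I, v p n ^ 2)) ^ 2 := by
  have e1 : ∀ n, (∑ p ∈ P, a p * v p n) ^ 2
      = ∑ p ∈ P, ∑ p' ∈ P, (a p * v p n) * (a p' * v p' n) := by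
    intro n
    rw [sq, Finset.sum_mul_sum]
  have e2 : (∑ p ∈ P, a p * Real.sqrt (∑ n ∈ I, v p n ^ 2)) ^ 2
      = ∑ p ∈ P, ∑ p' ∈ P, (a p * Real.sqrt (∑ n ∈ I, v p n ^ 2))
          * (a p' * Real.sqrt (∑ n ∈ I, v p' n ^ 2)) := by
    rw [sq, Finset.sum_mul_sum]
  rw [e2]
  calc ∑ n ∈ I, (∑ p ∈ P, a p * v p n) ^ 2
      = ∑ n ∈ I, ∑ p ∈ P, ∑ p' ∈ P, (a p * v p n) * (a p' * v p' n) :=
        Finset.sum_congr rfl (fun n _ => e1 n)
    _ = ∑ p ∈ P, ∑ p' ∈ P, ∑ n ∈ I, (a p * v p n) * (a p' * v p' n) := by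
        rw [Finset.sum_comm]
        refine Finset.sum_congr rfl (fun p _ => ?_)
        rw [Finset.sum_comm]
    _ ≤ ∑ p ∈ P, ∑ p' ∈ P, (a p * Real.sqrt (∑ n ∈ I, v p n ^ 2))
          * (a p' * Real.sqrt (∑ n ∈ I, v p' n ^ 2)) := by
        refine Finset.sum_le_sum (fun p hp => Finset.sum_le_sum (fun p' hp' => ?_))
        have h1 : ∑ n ∈ I, (a p * v p n) * (a p' * v p' n)
            = a p * a p' * ∑ n ∈ I, v p n * v p' n := by
          rw [Finset.mul_sum]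
          refine Finset.sum_congr rfl (fun n _ => by ring)
        rw [h1]
        have h2 := Real.sum_mul_le_sqrt_mul_sqrt I (v p) (v p')
        have h3 : 0 ≤ a p * a p' := mul_nonneg (ha p hp) (ha p' hp')
        calc a p * a p' * ∑ n ∈ I, v p n * v p' n
            ≤ a p * a p' * (Real.sqrt (∑ n ∈ I, v p n ^ 2) * Real.sqrt (∑ n ∈ I, v p' n ^ 2)) :=
              mul_le_mul_of_nonneg_left h2 h3
          _ = (a p * Real.sqrt (∑ n ∈ I, v p n ^ 2))
                * (a p' * Real.sqrt (∑ n ∈ I, v p' n ^ 2)) := by ring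

theorem card_common_multiples_le (W d1 d2 : ℕ) (hd1 : 1 ≤ d1) (hd2 : 1 ≤ d2) :
    (((Finset.Ico W (2 * W)).filter (fun n : ℕ => d1 ∣ n ∧ d2 ∣ n)).card : ℝ)
      ≤ 2 * (W : ℝ) * (Nat.gcd d1 d2 : ℝ) / ((d1 : ℝ) * (d2 : ℝ)) := by
  have hsub : (Finset.Ico W (2 * W)).filter (fun n : ℕ => d1 ∣ n ∧ d2 ∣ n)
      ⊆ (Finset.Ioc 0 (2 * W)).filter (fun n : ℕ => Nat.lcm d1 d2 ∣ n) := by
    intro n hn
    rw [Finset.mem_filter, Finset.mem_Ico] at hn
    rw [Finset.mem_filter, Finset.mem_Ioc]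
    obtain ⟨⟨h1, h2⟩, h3, h4⟩ := hn
    exact ⟨⟨by omega, by omega⟩, Nat.lcm_dvd h3 h4⟩
  have h1 := Finset.card_le_card hsub
  rw [Nat.Ioc_filter_dvd_card_eq_div] at h1
  have hL : 0 < Nat.lcm d1 d2 := Nat.lcm_pos hd1 hd2
  have hLR : (0 : ℝ) < (Nat.lcm d1 d2 : ℝ) := by exact_mod_cast hL
  have hgR : (0 : ℝ) < (Nat.gcd d1 d2 : ℝ) := by exact_mod_cast Nat.gcd_pos_of_pos_left _ hd1
  have h2 : ((2 * W / Nat.lcm d1 d2 : ℕ) : ℝ) ≤ ((2 * W : ℕ) : ℝ) / (Nat.lcm d1 d2 : ℝ) :=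
    Nat.cast_div_le
  have h3 : (Nat.gcd d1 d2 : ℝ) * (Nat.lcm d1 d2 : ℝ) = (d1 : ℝ) * d2 := by
    exact_mod_cast Nat.gcd_mul_lcm d1 d2
  calc (((Finset.Ico W (2 * W)).filter (fun n : ℕ => d1 ∣ n ∧ d2 ∣ n)).card : ℝ)
      ≤ ((2 * W / Nat.lcm d1 d2 : ℕ) : ℝ) := by exact_mod_cast h1
    _ ≤ ((2 * W : ℕ) : ℝ) / (Nat.lcm d1 d2 : ℝ) := h2
    _ = 2 * (W : ℝ) * (Nat.gcd d1 d2 : ℝ) / ((d1 : ℝ) * (d2 : ℝ)) := by
        rw [← h3]
        push_cast
        field_simp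

/-- The fourth moment of the tail divisor sums over a dyadic block. -/
theorem sum_pow_four_le (W : ℕ) (z : ℝ) (hz : 0 < z) :
    ∑ n ∈ Finset.Ico W (2 * W),
        (∑ d ∈ (Finset.range (2 * W)).filter (fun d : ℕ => z < (d : ℝ)),
          if d ∣ n then 1 / (d : ℝ) else 0) ^ 4
      ≤ 1458 * (W : ℝ) / z ^ 2 := by
  classical
  obtain ⟨T, hT⟩ : ∃ T : Finset ℕ,
      T = (Finset.range (2 * W)).filter (fun d : ℕ => z < (d : ℝ)) := ⟨_, rfl⟩
  obtain ⟨I, hI⟩ : ∃ I : Finset ℕ, I = Finset.Ico W (2 * W) := ⟨_, rfl⟩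
  rw [← hT, ← hI]
  have hTpos : ∀ d ∈ T, 1 ≤ d ∧ d < 2 * W := by
    intro d hd
    rw [hT, Finset.mem_filter, Finset.mem_range] at hd
    refine ⟨?_, hd.1⟩
    by_contra h
    have h0 : d = 0 := by omega
    rw [h0] at hd
    have h1 := hd.2
    simp only [Nat.cast_zero] at h1
    linarith
  obtain ⟨a, ha⟩ : ∃ a : ℕ × ℕ → ℝ, ∀ p, a p = 1 / ((p.1 : ℝ) * (p.2 : ℝ)) :=
    ⟨_, fun _ => rfl⟩
  obtain ⟨v, hv⟩ : ∃ v : ℕ × ℕ → ℕ → ℝ,
      ∀ p n, v p n = if p.1 ∣ n ∧ p.2 ∣ n then 1 else 0 := ⟨_, fun _ _ => rfl⟩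
  have ha0 : ∀ p, 0 ≤ a p := by
    intro p
    rw [ha]
    positivity
  have hsq : ∀ n, (∑ d ∈ T, if d ∣ n then 1 / (d : ℝ) else 0) ^ 4
      = (∑ p ∈ T ×ˢ T, a p * v p n) ^ 2 := by
    intro n
    have h1 : (∑ d ∈ T, if d ∣ n then 1 / (d : ℝ) else 0) ^ 2
        = ∑ p ∈ T ×ˢ T, a p * v p n := by
      rw [sq, Finset.sum_mul_sum, Finset.sum_product]
      refine Finset.sum_congr rfl (fun d1 _ => Finset.sum_congr rfl (fun d2 _ => ?_))
      rw [ha, hv]
      by_cases h1 : d1 ∣ n <;> by_cases h2 : d2 ∣ n <;> simp [h1, h2]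
      ring
    rw [← h1]
    ring
  have hstep1 : ∑ n ∈ I, (∑ d ∈ T, if d ∣ n then 1 / (d : ℝ) else 0) ^ 4
      ≤ (∑ p ∈ T ×ˢ T, a p * Real.sqrt (∑ n ∈ I, v p n ^ 2)) ^ 2 := by
    rw [Finset.sum_congr rfl (fun n _ => hsq n)]
    exact sum_sq_sum_le I (T ×ˢ T) a (fun p _ => ha0 p) v
  obtain ⟨R, hR⟩ : ∃ R : Finset ℕ, R = Finset.range (2 * W) := ⟨_, rfl⟩
  obtain ⟨H, hH⟩ : ∃ H : ℕ → ℝ,
      ∀ e, H e = ∑ d ∈ T, if e ∣ d then invThreeHalves d else 0 := ⟨_, fun _ => rfl⟩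
  have hterm : ∀ p ∈ T ×ˢ T, a p * Real.sqrt (∑ n ∈ I, v p n ^ 2)
      ≤ Real.sqrt (2 * W) * ∑ e ∈ R, Real.sqrt e
          * ((if e ∣ p.1 then invThreeHalves p.1 else 0)
            * (if e ∣ p.2 then invThreeHalves p.2 else 0)) := by
    intro p hp
    rw [Finset.mem_product] at hp
    obtain ⟨h11, h12⟩ := hTpos p.1 hp.1
    obtain ⟨h21, h22⟩ := hTpos p.2 hp.2
    have hd1 : (0 : ℝ) < p.1 := by exact_mod_cast h11
    have hd2 : (0 : ℝ) < p.2 := by exact_mod_cast h21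
    have hcount : ∑ n ∈ I, v p n ^ 2
        ≤ 2 * (W : ℝ) * (Nat.gcd p.1 p.2 : ℝ) / ((p.1 : ℝ) * (p.2 : ℝ)) := by
      have e1 : ∑ n ∈ I, v p n ^ 2
          = ((I.filter (fun n : ℕ => p.1 ∣ n ∧ p.2 ∣ n)).card : ℝ) := by
        rw [Finset.card_filter]
        push_cast
        refine Finset.sum_congr rfl (fun n _ => ?_)
        rw [hv]
        split_ifs <;> simp
      rw [e1, hI]
      exact card_common_multiples_le W p.1 p.2 h11 h21
    have hsqrt : Real.sqrt (∑ n ∈ I, v p n ^ 2)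
        ≤ Real.sqrt (2 * W) * Real.sqrt (Nat.gcd p.1 p.2)
            / (Real.sqrt p.1 * Real.sqrt p.2) := by
      have e2 : Real.sqrt (2 * (W : ℝ) * (Nat.gcd p.1 p.2 : ℝ) / ((p.1 : ℝ) * (p.2 : ℝ)))
          = Real.sqrt (2 * W) * Real.sqrt (Nat.gcd p.1 p.2)
              / (Real.sqrt p.1 * Real.sqrt p.2) := by
        rw [Real.sqrt_div (by positivity), Real.sqrt_mul (by positivity),
          Real.sqrt_mul hd1.le]
      rw [← e2]
      exact Real.sqrt_le_sqrt hcount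
    obtain ⟨g, hg⟩ : ∃ g : ℕ, g = Nat.gcd p.1 p.2 := ⟨_, rfl⟩
    have hgR : g ∈ R := by
      rw [hR, Finset.mem_range, hg]
      have h1 := Nat.gcd_le_left p.2 (show 0 < p.1 by omega)
      omega
    have hsingle : Real.sqrt g * (invThreeHalves p.1 * invThreeHalves p.2)
        ≤ ∑ e ∈ R, Real.sqrt e * ((if e ∣ p.1 then invThreeHalves p.1 else 0)
            * (if e ∣ p.2 then invThreeHalves p.2 else 0)) := by
      have h0 : ∀ e ∈ R, 0 ≤ Real.sqrt e * ((if e ∣ p.1 then invThreeHalves p.1 else 0)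
            * (if e ∣ p.2 then invThreeHalves p.2 else 0)) := by
        intro e _
        have t1 := invThreeHalves_nonneg p.1
        have t2 := invThreeHalves_nonneg p.2
        split_ifs <;> positivity
      have h1 := Finset.single_le_sum h0 hgR
      rw [if_pos (hg ▸ Nat.gcd_dvd_left p.1 p.2), if_pos (hg ▸ Nat.gcd_dvd_right p.1 p.2)] at h1
      exact h1
    calc a p * Real.sqrt (∑ n ∈ I, v p n ^ 2)
        ≤ a p * (Real.sqrt (2 * W) * Real.sqrt (Nat.gcd p.1 p.2)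
            / (Real.sqrt p.1 * Real.sqrt p.2)) :=
          mul_le_mul_of_nonneg_left hsqrt (ha0 p)
      _ = Real.sqrt (2 * W) * (Real.sqrt g * (invThreeHalves p.1 * invThreeHalves p.2)) := by
          rw [ha, ← hg]
          unfold invThreeHalves
          have t1 := Real.sqrt_pos.mpr hd1
          have t2 := Real.sqrt_pos.mpr hd2
          field_simp
      _ ≤ Real.sqrt (2 * W) * ∑ e ∈ R, Real.sqrt e
          * ((if e ∣ p.1 then invThreeHalves p.1 else 0)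
            * (if e ∣ p.2 then invThreeHalves p.2 else 0)) :=
          mul_le_mul_of_nonneg_left hsingle (Real.sqrt_nonneg _)
  have hsum : ∑ p ∈ T ×ˢ T, a p * Real.sqrt (∑ n ∈ I, v p n ^ 2)
      ≤ Real.sqrt (2 * W) * ∑ e ∈ R, Real.sqrt e * H e ^ 2 := by
    calc ∑ p ∈ T ×ˢ T, a p * Real.sqrt (∑ n ∈ I, v p n ^ 2)
        ≤ ∑ p ∈ T ×ˢ T, Real.sqrt (2 * W) * ∑ e ∈ R, Real.sqrt e
          * ((if e ∣ p.1 then invThreeHalves p.1 else 0)
            * (if e ∣ p.2 then invThreeHalves p.2 else 0)) :=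
          Finset.sum_le_sum hterm
      _ = Real.sqrt (2 * W) * ∑ e ∈ R, Real.sqrt e * H e ^ 2 := by
          rw [← Finset.mul_sum, Finset.sum_comm]
          congr 1
          refine Finset.sum_congr rfl (fun e _ => ?_)
          rw [← Finset.mul_sum, hH, sq, Finset.sum_mul_sum, Finset.sum_product]
  have hHle : ∀ e ∈ R, Real.sqrt e * H e ^ 2 ≤ 9 / z * invThreeHalves e := by
    intro e _
    rcases Nat.eq_zero_or_pos e with h0 | hpos
    · rw [h0]
      simp [invThreeHalves]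
    · have h1 : H e ≤ 3 / ((e : ℝ) * Real.sqrt z) := by
        rw [hH, hT]
        exact sum_multiples_invThreeHalves_le (2 * W) e hpos z hz
      have h2 : 0 ≤ H e := by
        rw [hH]
        refine Finset.sum_nonneg (fun d _ => ?_)
        split_ifs
        · exact invThreeHalves_nonneg d
        · exact le_refl _
      have h3 : H e ^ 2 ≤ (3 / ((e : ℝ) * Real.sqrt z)) ^ 2 := pow_le_pow_left₀ h2 h1 2
      have hepos : (0 : ℝ) < e := by exact_mod_cast hpos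
      have hse : 0 < Real.sqrt (e : ℝ) := Real.sqrt_pos.mpr hepos
      have hsz : 0 < Real.sqrt z := Real.sqrt_pos.mpr hz
      have e1 : Real.sqrt z ^ 2 = z := Real.sq_sqrt hz.le
      have e2 : Real.sqrt (e : ℝ) ^ 2 = e := Real.sq_sqrt hepos.le
      calc Real.sqrt e * H e ^ 2 ≤ Real.sqrt e * (3 / ((e : ℝ) * Real.sqrt z)) ^ 2 :=
            mul_le_mul_of_nonneg_left h3 hse.le
        _ = 9 / z * invThreeHalves e := by
            unfold invThreeHalves
            rw [div_pow, mul_pow, e1]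
            field_simp
            rw [e2]
            ring
  have hfinal : ∑ p ∈ T ×ˢ T, a p * Real.sqrt (∑ n ∈ I, v p n ^ 2)
      ≤ Real.sqrt (2 * W) * (27 / z) := by
    refine le_trans hsum (mul_le_mul_of_nonneg_left ?_ (Real.sqrt_nonneg _))
    calc ∑ e ∈ R, Real.sqrt e * H e ^ 2 ≤ ∑ e ∈ R, 9 / z * invThreeHalves e :=
          Finset.sum_le_sum hHle
      _ = 9 / z * ∑ e ∈ R, invThreeHalves e := by rw [Finset.mul_sum]
      _ ≤ 9 / z * 3 :=
          mul_le_mul_of_nonneg_left (hR ▸ sum_range_invThreeHalves_le (2 * W)) (by positivity)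
      _ = 27 / z := by ring
  have hnn : 0 ≤ ∑ p ∈ T ×ˢ T, a p * Real.sqrt (∑ n ∈ I, v p n ^ 2) :=
    Finset.sum_nonneg (fun p _ => mul_nonneg (ha0 p) (Real.sqrt_nonneg _))
  calc ∑ n ∈ I, (∑ d ∈ T, if d ∣ n then 1 / (d : ℝ) else 0) ^ 4
      ≤ (∑ p ∈ T ×ˢ T, a p * Real.sqrt (∑ n ∈ I, v p n ^ 2)) ^ 2 := hstep1
    _ ≤ (Real.sqrt (2 * W) * (27 / z)) ^ 2 := pow_le_pow_left₀ hnn hfinal 2
    _ = 1458 * (W : ℝ) / z ^ 2 := by
        rw [mul_pow, Real.sq_sqrt (by positivity)]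
        field_simp
        ring

/-- Hölder: the tail divisor sums over any subset `B` of a dyadic block `[W, 2W)` satisfy
`(∑_{n ∈ B} ∑_{d ∣ n, d > z} 1/d)^4 ≤ 1458 |B|^3 W / z^2`. -/
theorem fourth_moment (W : ℕ) (z : ℝ) (hz : 0 < z) (B : Finset ℕ)
    (hB : B ⊆ Finset.Ico W (2 * W)) :
    (∑ n ∈ B, ∑ d ∈ n.divisors.filter (fun d : ℕ => z < (d : ℝ)), 1 / (d : ℝ)) ^ 4
      ≤ 1458 * (B.card : ℝ) ^ 3 * W / z ^ 2 := by
  classical
  obtain ⟨f, hf⟩ : ∃ f : ℕ → ℝ, ∀ n, f n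
      = ∑ d ∈ (Finset.range (2 * W)).filter (fun d : ℕ => z < (d : ℝ)),
          if d ∣ n then 1 / (d : ℝ) else 0 := ⟨_, fun _ => rfl⟩
  have hf0 : ∀ n, 0 ≤ f n := by
    intro n
    rw [hf]
    refine Finset.sum_nonneg (fun d _ => ?_)
    split_ifs
    · positivity
    · exact le_refl _
  have hconv : ∀ n ∈ B, ∑ d ∈ n.divisors.filter (fun d : ℕ => z < (d : ℝ)), 1 / (d : ℝ)
      = f n := by
    intro n hn
    have hnI := hB hn
    rw [Finset.mem_Ico] at hnI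
    rw [hf, ← Finset.sum_filter]
    refine Finset.sum_congr ?_ (fun _ _ => rfl)
    ext d
    simp only [Finset.mem_filter, Nat.mem_divisors, Finset.mem_range]
    constructor
    · rintro ⟨⟨h1, h2⟩, h3⟩
      have h4 := Nat.le_of_dvd (by omega) h1
      exact ⟨⟨by omega, h3⟩, h1⟩
    · rintro ⟨⟨h1, h2⟩, h3⟩
      exact ⟨⟨h3, by omega⟩, h2⟩
  rw [Finset.sum_congr rfl hconv]
  have h1 := pow_sum_le_card_mul_sum_pow (s := B) (f := f) (fun n _ => hf0 n) 3
  have h2 : ∑ n ∈ B, f n ^ 4 ≤ ∑ n ∈ Finset.Ico W (2 * W), f n ^ 4 :=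
    Finset.sum_le_sum_of_subset_of_nonneg hB (fun n _ _ => pow_nonneg (hf0 n) 4)
  have h3 : ∑ n ∈ Finset.Ico W (2 * W), f n ^ 4 ≤ 1458 * (W : ℝ) / z ^ 2 := by
    rw [Finset.sum_congr rfl (fun n _ => by rw [hf])]
    exact sum_pow_four_le W z hz
  have hB3 : (0 : ℝ) ≤ (B.card : ℝ) ^ 3 := by positivity
  calc (∑ n ∈ B, f n) ^ 4 ≤ (B.card : ℝ) ^ 3 * ∑ n ∈ B, f n ^ 4 := h1
    _ ≤ (B.card : ℝ) ^ 3 * (1458 * (W : ℝ) / z ^ 2) :=
        mul_le_mul_of_nonneg_left (le_trans h2 h3) hB3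
    _ = 1458 * (B.card : ℝ) ^ 3 * W / z ^ 2 := by ring

end Vale.Agent.Lib.P028
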