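import Mathlib
import Vale.Agent.Lib.P028.Bohr
import Vale.Agent.Lib.P028.FourthMoment

/-!
The resonant gcd sum over a pair of subsets of dyadic blocks, for a shift of finite type.
-/

open Finset

namespace Vale.Agent.Lib.P028

theorem abs_neg_sub_round_neg (x : ℝ) : |(-x) - round (-x)| = |x - round x| := by
  apply le_antisymm
  · have h1 := round_le (-x) (-round x)
    have e : -x - ((-round x : ℤ) : ℝ) = -(x - round x) := by
      push_cast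
      ring
    rw [e, abs_neg] at h1
    exact h1
  · have h1 := round_le x (-round (-x))
    have e : x - ((-round (-x) : ℤ) : ℝ) = -(-x - round (-x)) := by
      push_cast
      ring
    rw [e, abs_neg] at h1
    exact h1

/-- Gap principle for multiples of `d` in `[Y, 2Y]`. -/
theorem gap_count_mul (γ c τ : ℝ) (hc : 0 < c) (hτ : 0 < τ)
    (hγ : ∀ k : ℕ, 1 ≤ k → c ≤ (k : ℝ) ^ τ * |(k : ℝ) * γ - round ((k : ℝ) * γ)|)
    (F : Finset ℕ) (d : ℕ) (hd : 1 ≤ d) (Y s δ : ℝ) (hδ : 0 < δ) (hY : 0 ≤ Y)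
    (hF : ∀ m ∈ F, d ∣ m ∧ Y ≤ (m : ℝ) ∧ (m : ℝ) ≤ 2 * Y ∧
      |γ * (((m : ℝ) - s) / d) - round (γ * (((m : ℝ) - s) / d))| < δ) :
    (F.card : ℝ) ≤ 1 + Y / d * (2 * δ / c) ^ τ⁻¹ := by
  classical
  have hdpos : (0 : ℝ) < d := by exact_mod_cast hd
  obtain ⟨J, hJ⟩ : ∃ J : Finset ℕ, J = F.image (fun m => m / d) := ⟨_, rfl⟩
  have hcard : J.card = F.card := by
    rw [hJ]
    apply Finset.card_image_of_injOn
    intro a ha b hb hab
    exact (Nat.div_left_inj (hF a ha).1 (hF b hb).1).mp hab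
  have hmem : ∀ j ∈ J, ∃ m ∈ F, (j : ℝ) = (m : ℝ) / d := by
    intro j hj
    rw [hJ, Finset.mem_image] at hj
    obtain ⟨m, hm, rfl⟩ := hj
    exact ⟨m, hm, Nat.cast_div (hF m hm).1 hdpos.ne'⟩
  have h1 := gap_count γ c τ hc hτ hγ J (Y / d) (Y / d) δ (γ * s / d) hδ (by positivity) ?_ ?_
  · rw [hcard] at h1
    exact h1
  · intro j hj
    obtain ⟨m, hm, hjm⟩ := hmem j hj
    obtain ⟨_, h2, h3, _⟩ := hF m hm
    rw [hjm]
    constructor
    · exact div_le_div_of_nonneg_right h2 hdpos.le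
    · rw [← add_div]
      apply div_le_div_of_nonneg_right _ hdpos.le
      linarith
  · intro j hj
    obtain ⟨m, hm, hjm⟩ := hmem j hj
    obtain ⟨_, _, _, h4⟩ := hF m hm
    have e : γ * (j : ℝ) - γ * s / d = γ * (((m : ℝ) - s) / d) := by
      rw [hjm]
      ring
    rw [e]
    exact h4

/-- Main-term count for multiples of `d` in `[Y, 2Y)`. -/
theorem bohr_count_mul (γ c τ : ℝ) (hc : 0 < c) (hτ : 0 < τ)
    (hγ : ∀ k : ℕ, 1 ≤ k → c ≤ (k : ℝ) ^ τ * |(k : ℝ) * γ - round ((k : ℝ) * γ)|)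
    (F : Finset ℕ) (d : ℕ) (hd : 1 ≤ d) (Y s δ : ℝ) (hδ : 0 < δ)
    (hreg : 1 + 1 / (c * δ ^ τ) ≤ Y / d)
    (hF : ∀ m ∈ F, d ∣ m ∧ Y ≤ (m : ℝ) ∧ (m : ℝ) < 2 * Y ∧
      |γ * (((m : ℝ) - s) / d) - round (γ * (((m : ℝ) - s) / d))| < δ) :
    (F.card : ℝ) ≤ 16 * δ * (Y / d) := by
  classical
  have hdpos : (0 : ℝ) < d := by exact_mod_cast hd
  obtain ⟨J, hJ⟩ : ∃ J : Finset ℕ, J = F.image (fun m => m / d) := ⟨_, rfl⟩
  have hcard : J.card = F.card := by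
    rw [hJ]
    apply Finset.card_image_of_injOn
    intro a ha b hb hab
    exact (Nat.div_left_inj (hF a ha).1 (hF b hb).1).mp hab
  have hmem : ∀ j ∈ J, ∃ m ∈ F, (j : ℝ) = (m : ℝ) / d := by
    intro j hj
    rw [hJ, Finset.mem_image] at hj
    obtain ⟨m, hm, rfl⟩ := hj
    exact ⟨m, hm, Nat.cast_div (hF m hm).1 hdpos.ne'⟩
  have h1 := bohr_count γ c τ hc hτ hγ J (Y / d) (Y / d) δ (γ * s / d) hδ hreg ?_ ?_
  · rw [hcard] at h1
    exact h1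
  · intro j hj
    obtain ⟨m, hm, hjm⟩ := hmem j hj
    obtain ⟨_, h2, h3, _⟩ := hF m hm
    rw [hjm]
    constructor
    · exact div_le_div_of_nonneg_right h2 hdpos.le
    · rw [← add_div]
      apply div_lt_div_of_pos_right _ hdpos
      linarith
  · intro j hj
    obtain ⟨m, hm, hjm⟩ := hmem j hj
    obtain ⟨_, _, _, h4⟩ := hF m hm
    have e : γ * (j : ℝ) - γ * s / d = γ * (((m : ℝ) - s) / d) := by
      rw [hjm]
      ring
    rw [e]
    exact h4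

/-- Resonance of the pair `(l, n)` at the common divisor `d`. -/
def ResD (γ Δ : ℝ) (d l n : ℕ) : Prop :=
  |γ * (((n : ℝ) - l) / d) - round (γ * (((n : ℝ) - l) / d))| < Δ / d

open Classical in
theorem card_beta_le (γ c τ : ℝ) (hc : 0 < c) (hτ : 0 < τ)
    (hγ : ∀ k : ℕ, 1 ≤ k → c ≤ (k : ℝ) ^ τ * |(k : ℝ) * γ - round ((k : ℝ) * γ)|)
    (X : ℕ) (A : Finset ℕ) (hA : A ⊆ Finset.Ico X (2 * X)) (Δ : ℝ) (hΔ : 0 < Δ)
    (d n : ℕ) (hd : 1 ≤ d)
    (hreg : 1 + 1 / (c * (Δ / d) ^ τ) ≤ (X : ℝ) / d) :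
    ((A.filter (fun l : ℕ => d ∣ l ∧ ResD γ Δ d l n)).card : ℝ)
      ≤ 16 * (Δ / d) * ((X : ℝ) / d) := by
  classical
  have hdpos : (0 : ℝ) < d := by exact_mod_cast hd
  apply bohr_count_mul γ c τ hc hτ hγ _ d hd (X : ℝ) (n : ℝ) (Δ / d) (by positivity) hreg
  intro l hl
  rw [Finset.mem_filter] at hl
  obtain ⟨hlA, hdl, hres⟩ := hl
  have h1 := hA hlA
  rw [Finset.mem_Ico] at h1
  refine ⟨hdl, by exact_mod_cast h1.1, by exact_mod_cast h1.2, ?_⟩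
  unfold ResD at hres
  have e : γ * (((l : ℝ) - n) / d) = -(γ * (((n : ℝ) - l) / d)) := by ring
  rw [e, abs_neg_sub_round_neg]
  exact hres

open Classical in
theorem card_alpha_le (γ c τ : ℝ) (hc : 0 < c) (hτ : 0 < τ)
    (hγ : ∀ k : ℕ, 1 ≤ k → c ≤ (k : ℝ) ^ τ * |(k : ℝ) * γ - round ((k : ℝ) * γ)|)
    (X' : ℕ) (A' : Finset ℕ) (hA' : A' ⊆ Finset.Ico X' (2 * X')) (Δ : ℝ) (hΔ : 0 < Δ)
    (d l : ℕ) (hd : 1 ≤ d) (hdl : d ∣ l) :
    ((A'.filter (fun n : ℕ => d ∣ n ∧ l < n ∧ ResD γ Δ d l n)).card : ℝ)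
      ≤ 3 * ((X' : ℝ) / d * (2 * (Δ / d) / c) ^ τ⁻¹) := by
  classical
  have hdpos : (0 : ℝ) < d := by exact_mod_cast hd
  obtain ⟨F, hF⟩ : ∃ F : Finset ℕ,
      F = A'.filter (fun n : ℕ => d ∣ n ∧ l < n ∧ ResD γ Δ d l n) := ⟨_, rfl⟩
  rw [← hF]
  have hδ : 0 < Δ / d := by positivity
  have hG0 : 0 ≤ (X' : ℝ) / d * (2 * (Δ / d) / c) ^ τ⁻¹ := by positivity
  have hgap : (F.card : ℝ) ≤ 1 + (X' : ℝ) / d * (2 * (Δ / d) / c) ^ τ⁻¹ := by
    apply gap_count_mul γ c τ hc hτ hγ F d hd (X' : ℝ) (l : ℝ) (Δ / d) hδ (by positivity)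
    intro n hn
    rw [hF, Finset.mem_filter] at hn
    obtain ⟨hnA, hdn, hln, hres⟩ := hn
    have h1 := hA' hnA
    rw [Finset.mem_Ico] at h1
    have h2 : (n : ℝ) < 2 * (X' : ℝ) := by exact_mod_cast h1.2
    exact ⟨hdn, by exact_mod_cast h1.1, h2.le, hres⟩
  rcases Finset.eq_empty_or_nonempty F with hemp | ⟨n, hn⟩
  · rw [hemp, Finset.card_empty, Nat.cast_zero]
    linarith
  · rw [hF, Finset.mem_filter] at hn
    obtain ⟨hnA, hdn, hln, hres⟩ := hn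
    have h1 := hA' hnA
    rw [Finset.mem_Ico] at h1
    obtain ⟨l', rfl⟩ := hdl
    obtain ⟨n', rfl⟩ := hdn
    have hl'n' : l' < n' := by
      by_contra h
      have h2 : d * n' ≤ d * l' := Nat.mul_le_mul_left d (by omega)
      omega
    obtain ⟨k, hk⟩ : ∃ k : ℕ, k = n' - l' := ⟨_, rfl⟩
    have hk1 : 1 ≤ k := by omega
    have hkR : (k : ℝ) = (((d * n' : ℕ) : ℝ) - ((d * l' : ℕ) : ℝ)) / d := by
      rw [hk, Nat.cast_sub hl'n'.le]
      push_cast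
      field_simp
    have hkpos : (0 : ℝ) < k := by exact_mod_cast hk1
    unfold ResD at hres
    have e1 : γ * ((((d * n' : ℕ) : ℝ) - ((d * l' : ℕ) : ℝ)) / d) = (k : ℝ) * γ := by
      rw [← hkR]
      ring
    rw [e1] at hres
    have e2 := hγ k hk1
    have hkτ : 0 < (k : ℝ) ^ τ := Real.rpow_pos_of_pos hkpos _
    have e3 : c < (k : ℝ) ^ τ * (Δ / d) :=
      lt_of_le_of_lt e2 (mul_lt_mul_of_pos_left hres hkτ)
    have e4 : c / (Δ / d) < (k : ℝ) ^ τ := by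
      rw [div_lt_iff₀ hδ]
      exact e3
    have e5 : (c / (Δ / d)) ^ τ⁻¹ < (k : ℝ) := by
      have h3 := Real.rpow_lt_rpow (by positivity) e4 (inv_pos.mpr hτ)
      rwa [← Real.rpow_mul hkpos.le, mul_inv_cancel₀ hτ.ne', Real.rpow_one] at h3
    have e6 : (k : ℝ) < 2 * (X' : ℝ) / d := by
      rw [hkR]
      apply div_lt_div_of_pos_right _ hdpos
      have h4 : ((d * n' : ℕ) : ℝ) < 2 * (X' : ℝ) := by exact_mod_cast h1.2
      have h5 : (0 : ℝ) ≤ ((d * l' : ℕ) : ℝ) := Nat.cast_nonneg _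
      linarith
    have e7 : (c / (Δ / d)) ^ τ⁻¹ * ((Δ / d) / c) ^ τ⁻¹ = 1 := by
      rw [← Real.mul_rpow (by positivity) (by positivity)]
      have h6 : c / (Δ / d) * ((Δ / d) / c) = 1 := by field_simp
      rw [h6, Real.one_rpow]
    have e8 : ((Δ / d) / c) ^ τ⁻¹ ≤ (2 * (Δ / d) / c) ^ τ⁻¹ := by
      apply Real.rpow_le_rpow (by positivity) _ (inv_pos.mpr hτ).le
      rw [mul_div_assoc]
      linarith [show 0 ≤ (Δ / d) / c by positivity]
    have hpos9 : 0 < ((Δ / d) / c) ^ τ⁻¹ := Real.rpow_pos_of_pos (by positivity) _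
    have e9 : 1 ≤ 2 * ((X' : ℝ) / d * (2 * (Δ / d) / c) ^ τ⁻¹) := by
      have h2 : (1 : ℝ) < 2 * (X' : ℝ) / d * ((Δ / d) / c) ^ τ⁻¹ := by
        rw [← e7]
        exact mul_lt_mul_of_pos_right (lt_trans e5 e6) hpos9
      have h3 : 2 * (X' : ℝ) / d * ((Δ / d) / c) ^ τ⁻¹
          ≤ 2 * (X' : ℝ) / d * (2 * (Δ / d) / c) ^ τ⁻¹ :=
        mul_le_mul_of_nonneg_left e8 (by positivity)
      calc (1 : ℝ) ≤ 2 * (X' : ℝ) / d * (2 * (Δ / d) / c) ^ τ⁻¹ := le_trans h2.le h3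
        _ = 2 * ((X' : ℝ) / d * (2 * (Δ / d) / c) ^ τ⁻¹) := by ring
    linarith

theorem rpow_le_one_add_sqrt (Δ u : ℝ) (hΔ : 0 < Δ) (hu0 : 0 ≤ u) (hu : u ≤ 1 / 2) :
    Δ ^ u ≤ 1 + Real.sqrt Δ := by
  rcases le_or_gt Δ 1 with h | h
  · have h1 := Real.rpow_le_one hΔ.le h hu0
    linarith [Real.sqrt_nonneg Δ]
  · have h1 := Real.rpow_le_rpow_of_exponent_le h.le hu
    rw [← Real.sqrt_eq_rpow] at h1
    linarith

theorem anom_rpow (c τ : ℝ) (hc : 0 < c) (hτ : 2 ≤ τ) (Δ X d : ℝ) (hΔ : 0 < Δ) (hX : 1 ≤ X)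
    (hd : 1 ≤ d) (hanom : X < 2 * d ∨ c * Δ ^ τ * X < 2 * d * d ^ τ) :
    (2 * (Δ / d) / c) ^ τ⁻¹ / d
      ≤ 2 * (2 / c) ^ τ⁻¹ * (1 + (c ^ (τ⁻¹ / (2 * (1 + τ))))⁻¹) * (1 + Real.sqrt Δ)
          / X ^ (τ⁻¹ / (2 * (1 + τ))) * (1 / d ^ (1 + τ⁻¹ / 2)) := by
  have hτ0 : 0 < τ := by linarith
  obtain ⟨e, he⟩ : ∃ e : ℝ, e = τ⁻¹ := ⟨_, rfl⟩
  obtain ⟨κ, hκ⟩ : ∃ κ : ℝ, κ = τ⁻¹ / (2 * (1 + τ)) := ⟨_, rfl⟩
  obtain ⟨η, hη⟩ : ∃ η : ℝ, η = τ⁻¹ / 2 := ⟨_, rfl⟩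
  rw [← hκ, ← hη, ← he]
  have he0 : 0 < e := by
    rw [he]
    positivity
  have he2 : e ≤ 1 / 2 := by
    rw [he, inv_eq_one_div]
    exact one_div_le_one_div_of_le (by norm_num) hτ
  have hκ0 : 0 < κ := by
    rw [hκ]
    positivity
  have hη0 : 0 < η := by
    rw [hη]
    positivity
  have hκη : κ ≤ η := by
    rw [hκ, hη]
    exact div_le_div_of_nonneg_left (by positivity) (by norm_num) (by linarith)
  have hηe : η + η = e := by
    rw [hη, he]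
    ring
  have hκτ : κ + τ * κ = η := by
    rw [hκ, hη]
    field_simp
  have hτκ : τ * κ = 1 / (2 * (1 + τ)) := by
    rw [hκ]
    field_simp
  have hu0 : 0 ≤ e - τ * κ := by
    rw [hτκ, he, sub_nonneg, inv_eq_one_div, div_le_div_iff₀ (by positivity) hτ0]
    linarith
  have hu1 : e - τ * κ ≤ 1 / 2 := by
    have h1 : 0 ≤ τ * κ := by positivity
    linarith
  have hdpos : 0 < d := by linarith
  have hXpos : 0 < X := by linarith
  have hpe : 0 < Δ ^ e := Real.rpow_pos_of_pos hΔ _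
  have hxk : 0 < X ^ κ := Real.rpow_pos_of_pos hXpos _
  have hdη : 0 < d ^ η := Real.rpow_pos_of_pos hdpos _
  have hck : 0 < c ^ κ := Real.rpow_pos_of_pos hc _
  have hA1 : 0 < (2 / c) ^ e := Real.rpow_pos_of_pos (by positivity) _
  have hde : d ^ e = d ^ η * d ^ η := by
    rw [← Real.rpow_add hdpos, hηe]
  have hd1η : d ^ (1 + η) = d * d ^ η := by
    rw [Real.rpow_add hdpos, Real.rpow_one]
  have hLHS : (2 * (Δ / d) / c) ^ e = (2 / c) ^ e * Δ ^ e / (d ^ η * d ^ η) := by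
    have h1 : 2 * (Δ / d) / c = (2 / c) * Δ / d := by ring
    rw [h1, Real.div_rpow (by positivity) hdpos.le, Real.mul_rpow (by positivity) hΔ.le, hde]
  have hs0 : 0 ≤ Real.sqrt Δ := Real.sqrt_nonneg _
  have h2κ : (2 : ℝ) ^ κ ≤ 2 := by
    calc (2 : ℝ) ^ κ ≤ 2 ^ (1 : ℝ) :=
          Real.rpow_le_rpow_of_exponent_le (by norm_num) (by linarith)
      _ = 2 := Real.rpow_one 2
  have hcki : 0 ≤ (c ^ κ)⁻¹ := by positivity
  have key : Δ ^ e * X ^ κ ≤ 2 * (1 + (c ^ κ)⁻¹) * (1 + Real.sqrt Δ) * d ^ η := by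
    rcases hanom with h | h
    · have h1 : X ^ κ ≤ (2 * d) ^ κ := Real.rpow_le_rpow hXpos.le h.le hκ0.le
      have h2 : (2 * d) ^ κ = 2 ^ κ * d ^ κ := Real.mul_rpow (by norm_num) hdpos.le
      have h4 : d ^ κ ≤ d ^ η := Real.rpow_le_rpow_of_exponent_le hd hκη
      have h5 : Δ ^ e ≤ 1 + Real.sqrt Δ := rpow_le_one_add_sqrt Δ e hΔ he0.le he2
      have h6 : X ^ κ ≤ 2 * d ^ η := by
        rw [h2] at h1
        have h7 : (2 : ℝ) ^ κ * d ^ κ ≤ 2 * d ^ η :=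
          mul_le_mul h2κ h4 (Real.rpow_nonneg hdpos.le _) (by norm_num)
        linarith
      calc Δ ^ e * X ^ κ ≤ (1 + Real.sqrt Δ) * (2 * d ^ η) :=
            mul_le_mul h5 h6 hxk.le (by linarith)
        _ ≤ 2 * (1 + (c ^ κ)⁻¹) * (1 + Real.sqrt Δ) * d ^ η := by
            have h8 : 0 ≤ (c ^ κ)⁻¹ * ((1 + Real.sqrt Δ) * d ^ η) := by positivity
            nlinarith
    · have hΔτ : 0 < Δ ^ τ := Real.rpow_pos_of_pos hΔ _
      have hdτ : 0 < d ^ τ := Real.rpow_pos_of_pos hdpos _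
      have h0 : X < 2 * d * d ^ τ / (c * Δ ^ τ) := by
        rw [lt_div_iff₀ (by positivity)]
        linarith
      have h1 : X ^ κ ≤ (2 * d * d ^ τ / (c * Δ ^ τ)) ^ κ :=
        Real.rpow_le_rpow hXpos.le h0.le hκ0.le
      have h2 : (2 * d * d ^ τ / (c * Δ ^ τ)) ^ κ
          = 2 ^ κ * d ^ η / (c ^ κ * Δ ^ (τ * κ)) := by
        rw [Real.div_rpow (by positivity) (by positivity),
          Real.mul_rpow (by positivity) hdτ.le,
          Real.mul_rpow (by norm_num) hdpos.le, Real.mul_rpow hc.le hΔτ.le,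
          ← Real.rpow_mul hdpos.le, ← Real.rpow_mul hΔ.le, mul_assoc,
          ← Real.rpow_add hdpos, hκτ]
      have h5 : Δ ^ e = Δ ^ (e - τ * κ) * Δ ^ (τ * κ) := by
        rw [← Real.rpow_add hΔ]
        congr 1
        ring
      have h6 : Δ ^ (e - τ * κ) ≤ 1 + Real.sqrt Δ := rpow_le_one_add_sqrt Δ _ hΔ hu0 hu1
      have hΔτκ : 0 < Δ ^ (τ * κ) := Real.rpow_pos_of_pos hΔ _
      have hpu : 0 < Δ ^ (e - τ * κ) := Real.rpow_pos_of_pos hΔ _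
      calc Δ ^ e * X ^ κ ≤ Δ ^ e * (2 ^ κ * d ^ η / (c ^ κ * Δ ^ (τ * κ))) := by
            rw [← h2]
            exact mul_le_mul_of_nonneg_left h1 hpe.le
        _ = Δ ^ (e - τ * κ) * (2 ^ κ * d ^ η * (c ^ κ)⁻¹) := by
            rw [h5]
            field_simp
        _ ≤ (1 + Real.sqrt Δ) * (2 * d ^ η * (c ^ κ)⁻¹) := by
            apply mul_le_mul h6 _ (by positivity) (by linarith)
            apply mul_le_mul_of_nonneg_right _ hcki
            exact mul_le_mul_of_nonneg_right h2κ hdη.le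
        _ ≤ 2 * (1 + (c ^ κ)⁻¹) * (1 + Real.sqrt Δ) * d ^ η := by
            have h8 : 0 ≤ (1 + Real.sqrt Δ) * d ^ η := by positivity
            nlinarith
  rw [hLHS, hd1η]
  have e1 : (2 / c) ^ e * Δ ^ e / (d ^ η * d ^ η) / d
      = (2 / c) ^ e / (d ^ η * d) * (Δ ^ e / d ^ η) := by
    field_simp
  have e2 : 2 * (2 / c) ^ e * (1 + (c ^ κ)⁻¹) * (1 + Real.sqrt Δ) / X ^ κ * (1 / (d * d ^ η))
      = (2 / c) ^ e / (d ^ η * d) * (2 * (1 + (c ^ κ)⁻¹) * (1 + Real.sqrt Δ) / X ^ κ) := by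
    field_simp
  rw [e1, e2]
  apply mul_le_mul_of_nonneg_left _ (by positivity)
  rw [div_le_div_iff₀ hdη hxk]
  exact key

/-- The gcd weight of a pair `l < n` that is resonant at level `Δ`, and zero otherwise. -/
noncomputable def pairGcdRes (γ Δ : ℝ) (l n : ℕ) : ℝ :=
  if l < n ∧ (Nat.gcd l n : ℝ) * |γ * (((n : ℝ) - l) / (Nat.gcd l n : ℝ))
      - round (γ * (((n : ℝ) - l) / (Nat.gcd l n : ℝ)))| < Δ
  then (Nat.gcd l n : ℝ) else 0

theorem pairGcdRes_nonneg (γ Δ : ℝ) (l n : ℕ) : 0 ≤ pairGcdRes γ Δ l n := by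
  unfold pairGcdRes
  split_ifs
  · exact Nat.cast_nonneg _
  · exact le_refl _

/-- The constant of the anomalous part in `cell_pair`. -/
noncomputable def anomConst (c τ : ℝ) : ℝ :=
  12 * (2 / c) ^ τ⁻¹ * (1 + (c ^ (τ⁻¹ / (2 * (1 + τ))))⁻¹)
    * ∑' d : ℕ, 1 / (d : ℝ) ^ (1 + τ⁻¹ / 2)

theorem anomConst_nonneg (c τ : ℝ) (hc : 0 < c) : 0 ≤ anomConst c τ := by
  unfold anomConst
  have h1 : 0 ≤ ∑' d : ℕ, 1 / (d : ℝ) ^ (1 + τ⁻¹ / 2) :=
    tsum_nonneg (fun d => by positivity)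
  have h2 : 0 ≤ (2 / c) ^ τ⁻¹ := Real.rpow_nonneg (by positivity) _
  have h3 : 0 ≤ (c ^ (τ⁻¹ / (2 * (1 + τ))))⁻¹ := inv_nonneg.mpr (Real.rpow_nonneg hc.le _)
  positivity

/-- The resonant gcd sum over a pair of subsets `A ⊆ [X, 2X)`, `A' ⊆ [X', 2X')`, `X ≤ X'`, for a
shift of finite type: a trivial part for small divisors, a main part controlled by tail divisor
sums, and an anomalous part with a power saving in `X`. -/
theorem cell_pair (γ c τ : ℝ) (hc : 0 < c) (hτ : 2 ≤ τ)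
    (hγ : ∀ k : ℕ, 1 ≤ k → c ≤ (k : ℝ) ^ τ * |(k : ℝ) * γ - round ((k : ℝ) * γ)|)
    (X X' : ℕ) (hX : 1 ≤ X) (hXX' : X ≤ X') (A A' : Finset ℕ)
    (hA : A ⊆ Finset.Ico X (2 * X)) (hA' : A' ⊆ Finset.Ico X' (2 * X'))
    (Δ : ℝ) (hΔ : 0 < Δ) (z : ℝ) (hz : 0 < z) :
    ∑ l ∈ A, ∑ n ∈ A', pairGcdRes γ Δ l n
      ≤ (A.card : ℝ) * A'.card * z ^ 2
        + 16 * Δ * X * ∑ n ∈ A', ∑ d ∈ n.divisors.filter (fun d : ℕ => z < (d : ℝ)), 1 / (d : ℝ)
        + anomConst c τ * X * X' * (1 + Real.sqrt Δ) / (X : ℝ) ^ (τ⁻¹ / (2 * (1 + τ))) := by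
  classical
  have hτ0 : 0 < τ := by linarith
  have hXR : (1 : ℝ) ≤ X := by exact_mod_cast hX
  have hXpos : (0 : ℝ) < X := by linarith
  have hX'pos : (0 : ℝ) < X' := by
    have h1 : (X : ℝ) ≤ X' := by exact_mod_cast hXX'
    linarith
  have hsΔ : 0 ≤ Real.sqrt Δ := Real.sqrt_nonneg _
  obtain ⟨D, hD⟩ : ∃ D : Finset ℕ, D = Finset.Ico 1 (2 * X) := ⟨_, rfl⟩
  obtain ⟨ind, hind⟩ : ∃ ind : ℕ → ℕ → ℕ → ℝ, ∀ d l n, ind d l n
      = if d ∣ l ∧ d ∣ n ∧ l < n ∧ ResD γ Δ d l n then 1 else 0 := ⟨_, fun _ _ _ => rfl⟩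
  have hind0 : ∀ d l n, 0 ≤ ind d l n := by
    intro d l n
    rw [hind]
    split_ifs <;> norm_num
  have hind1 : ∀ d l n, ind d l n ≤ 1 := by
    intro d l n
    rw [hind]
    split_ifs <;> norm_num
  -- each resonant pair is charged to its gcd
  have hA1 : ∀ l ∈ A, ∀ n ∈ A', pairGcdRes γ Δ l n ≤ ∑ d ∈ D, (d : ℝ) * ind d l n := by
    intro l hl n hn
    have hnn : ∀ d ∈ D, 0 ≤ (d : ℝ) * ind d l n :=
      fun d _ => mul_nonneg (Nat.cast_nonneg d) (hind0 d l n)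
    unfold pairGcdRes
    split_ifs with hcond
    · obtain ⟨hln, hres⟩ := hcond
      have hl1 := hA hl
      rw [Finset.mem_Ico] at hl1
      have hg1 : 0 < Nat.gcd l n := Nat.gcd_pos_of_pos_left _ (by omega)
      have hgD : Nat.gcd l n ∈ D := by
        rw [hD, Finset.mem_Ico]
        have h1 := Nat.gcd_le_left n (show 0 < l by omega)
        omega
      have h1 := Finset.single_le_sum hnn hgD
      have hgpos : (0 : ℝ) < (Nat.gcd l n : ℝ) := by exact_mod_cast hg1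
      have h2 : ind (Nat.gcd l n) l n = 1 := by
        rw [hind, if_pos]
        refine ⟨Nat.gcd_dvd_left l n, Nat.gcd_dvd_right l n, hln, ?_⟩
        unfold ResD
        rw [lt_div_iff₀ hgpos, mul_comm]
        exact hres
      rw [h2, mul_one] at h1
      exact h1
    · exact Finset.sum_nonneg hnn
  obtain ⟨P, hP⟩ : ∃ P : ℕ → ℝ, ∀ d, P d = ∑ l ∈ A, ∑ n ∈ A', ind d l n :=
    ⟨_, fun _ => rfl⟩
  have hB1 : ∑ l ∈ A, ∑ n ∈ A', pairGcdRes γ Δ l n ≤ ∑ d ∈ D, (d : ℝ) * P d := by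
    calc ∑ l ∈ A, ∑ n ∈ A', pairGcdRes γ Δ l n
        ≤ ∑ l ∈ A, ∑ n ∈ A', ∑ d ∈ D, (d : ℝ) * ind d l n :=
          Finset.sum_le_sum (fun l hl => Finset.sum_le_sum (fun n hn => hA1 l hl n hn))
      _ = ∑ d ∈ D, ∑ l ∈ A, ∑ n ∈ A', (d : ℝ) * ind d l n := by
          rw [Finset.sum_congr rfl (fun l _ => Finset.sum_comm), Finset.sum_comm]
      _ = ∑ d ∈ D, (d : ℝ) * P d := by
          refine Finset.sum_congr rfl (fun d _ => ?_)
          rw [hP, Finset.mul_sum]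
          refine Finset.sum_congr rfl (fun l _ => ?_)
          rw [Finset.mul_sum]
  -- abbreviations for the three parts
  obtain ⟨αc, hαc⟩ : ∃ αc : ℝ, αc = (A.card : ℝ) := ⟨_, rfl⟩
  obtain ⟨βc, hβc⟩ : ∃ βc : ℝ, βc = (A'.card : ℝ) := ⟨_, rfl⟩
  have hαc0 : 0 ≤ αc := by
    rw [hαc]
    positivity
  have hβc0 : 0 ≤ βc := by
    rw [hβc]
    positivity
  obtain ⟨βd, hβd⟩ : ∃ βd : ℕ → ℝ, ∀ d, βd d = ∑ n ∈ A', (if d ∣ n then (1 : ℝ) else 0) :=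
    ⟨_, fun _ => rfl⟩
  have hβd0 : ∀ d, 0 ≤ βd d := by
    intro d
    rw [hβd]
    refine Finset.sum_nonneg (fun n _ => ?_)
    split_ifs <;> norm_num
  obtain ⟨κ, hκ⟩ : ∃ κ : ℝ, κ = τ⁻¹ / (2 * (1 + τ)) := ⟨_, rfl⟩
  obtain ⟨η, hη⟩ : ∃ η : ℝ, η = τ⁻¹ / 2 := ⟨_, rfl⟩
  obtain ⟨Cp, hCp⟩ : ∃ Cp : ℝ, Cp = 12 * (2 / c) ^ τ⁻¹ * (1 + (c ^ κ)⁻¹) := ⟨_, rfl⟩
  have hCp0 : 0 ≤ Cp := by
    rw [hCp]
    have h2 : 0 ≤ (2 / c) ^ τ⁻¹ := Real.rpow_nonneg (by positivity) _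
    have h3 : 0 ≤ (c ^ κ)⁻¹ := inv_nonneg.mpr (Real.rpow_nonneg hc.le _)
    positivity
  have hXκ : 0 < (X : ℝ) ^ κ := Real.rpow_pos_of_pos hXpos _
  -- trivial bound
  have hT : ∀ d, P d ≤ αc * βc := by
    intro d
    rw [hP, hαc, hβc]
    calc ∑ l ∈ A, ∑ n ∈ A', ind d l n ≤ ∑ l ∈ A, ∑ n ∈ A', (1 : ℝ) :=
          Finset.sum_le_sum (fun l _ => Finset.sum_le_sum (fun n _ => hind1 d l n))
      _ = (A.card : ℝ) * A'.card := by
          simp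
  have hP0 : ∀ d, 0 ≤ P d := by
    intro d
    rw [hP]
    exact Finset.sum_nonneg (fun l _ => Finset.sum_nonneg (fun n _ => hind0 d l n))
  -- main-term bound
  have hβ : ∀ d : ℕ, 1 ≤ d → 1 + 1 / (c * (Δ / d) ^ τ) ≤ (X : ℝ) / d →
      P d ≤ βd d * (16 * (Δ / d) * ((X : ℝ) / d)) := by
    intro d hd hreg
    have hdpos : (0 : ℝ) < d := by exact_mod_cast hd
    rw [hP, Finset.sum_comm, hβd, Finset.sum_mul]
    refine Finset.sum_le_sum (fun n _ => ?_)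
    by_cases hdn : d ∣ n
    · rw [if_pos hdn, one_mul]
      have h1 := card_beta_le γ c τ hc hτ0 hγ X A hA Δ hΔ d n hd hreg
      refine le_trans ?_ h1
      rw [Finset.card_filter]
      push_cast
      refine Finset.sum_le_sum (fun l _ => ?_)
      rw [hind]
      by_cases h2 : d ∣ l ∧ d ∣ n ∧ l < n ∧ ResD γ Δ d l n
      · rw [if_pos h2, if_pos ⟨h2.1, h2.2.2.2⟩]
      · rw [if_neg h2]
        split_ifs <;> norm_num
    · rw [if_neg hdn, zero_mul]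
      refine le_of_eq (Finset.sum_eq_zero (fun l _ => ?_))
      rw [hind, if_neg]
      intro h2
      exact hdn h2.2.1
  -- gap bound
  have hα : ∀ d : ℕ, 1 ≤ d → d < 2 * X →
      (d : ℝ) * P d ≤ 6 * X * X' * ((2 * (Δ / d) / c) ^ τ⁻¹ / d) := by
    intro d hd hdX
    have hdpos : (0 : ℝ) < d := by exact_mod_cast hd
    obtain ⟨G, hG⟩ : ∃ G : ℝ, G = (X' : ℝ) / d * (2 * (Δ / d) / c) ^ τ⁻¹ := ⟨_, rfl⟩
    have hG0 : 0 ≤ G := by
      rw [hG]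
      have h1 : 0 ≤ (2 * (Δ / d) / c) ^ τ⁻¹ := Real.rpow_nonneg (by positivity) _
      positivity
    have h1 : P d ≤ ∑ l ∈ A, (if d ∣ l then (1 : ℝ) else 0) * (3 * G) := by
      rw [hP]
      refine Finset.sum_le_sum (fun l _ => ?_)
      by_cases hdl : d ∣ l
      · rw [if_pos hdl, one_mul]
        have h2 := card_alpha_le γ c τ hc hτ0 hγ X' A' hA' Δ hΔ d l hd hdl
        rw [← hG] at h2
        refine le_trans (le_of_eq ?_) h2
        rw [Finset.card_filter]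
        push_cast
        refine Finset.sum_congr rfl (fun n _ => ?_)
        rw [hind]
        by_cases h3 : d ∣ l ∧ d ∣ n ∧ l < n ∧ ResD γ Δ d l n
        · rw [if_pos h3, if_pos h3.2]
        · rw [if_neg h3, if_neg]
          intro h4
          exact h3 ⟨hdl, h4⟩
      · rw [if_neg hdl, zero_mul]
        refine le_of_eq (Finset.sum_eq_zero (fun n _ => ?_))
        rw [hind, if_neg]
        intro h2
        exact hdl h2.1
    have h2 : ∑ l ∈ A, (if d ∣ l then (1 : ℝ) else 0) ≤ 2 * (X : ℝ) / d := by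
      have hsub : A.filter (fun l : ℕ => d ∣ l)
          ⊆ (Finset.Ioc 0 (2 * X)).filter (fun l : ℕ => d ∣ l) := by
        intro l hl
        rw [Finset.mem_filter] at hl
        have h3 := hA hl.1
        rw [Finset.mem_Ico] at h3
        rw [Finset.mem_filter, Finset.mem_Ioc]
        exact ⟨⟨by omega, by omega⟩, hl.2⟩
      have h3 := Finset.card_le_card hsub
      rw [Nat.Ioc_filter_dvd_card_eq_div] at h3
      have h4 : ((2 * X / d : ℕ) : ℝ) ≤ ((2 * X : ℕ) : ℝ) / (d : ℝ) := Nat.cast_div_le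
      have h5 : ∑ l ∈ A, (if d ∣ l then (1 : ℝ) else 0)
          = ((A.filter (fun l : ℕ => d ∣ l)).card : ℝ) := by
        rw [Finset.card_filter]
        push_cast
        rfl
      rw [h5]
      calc ((A.filter (fun l : ℕ => d ∣ l)).card : ℝ) ≤ ((2 * X / d : ℕ) : ℝ) := by
            exact_mod_cast h3
        _ ≤ ((2 * X : ℕ) : ℝ) / (d : ℝ) := h4
        _ = 2 * (X : ℝ) / d := by push_cast; ring
    calc (d : ℝ) * P d ≤ (d : ℝ) * ∑ l ∈ A, (if d ∣ l then (1 : ℝ) else 0) * (3 * G) :=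
          mul_le_mul_of_nonneg_left h1 hdpos.le
      _ = (d : ℝ) * ((∑ l ∈ A, (if d ∣ l then (1 : ℝ) else 0)) * (3 * G)) := by
          rw [Finset.sum_mul]
      _ ≤ (d : ℝ) * (2 * (X : ℝ) / d * (3 * G)) := by
          apply mul_le_mul_of_nonneg_left _ hdpos.le
          exact mul_le_mul_of_nonneg_right h2 (by positivity)
      _ = 6 * X * X' * ((2 * (Δ / d) / c) ^ τ⁻¹ / d) := by
          rw [hG]
          field_simp
          ring
  -- the bound for each d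
  have hC : ∀ d ∈ D, (d : ℝ) * P d
      ≤ (if (d : ℝ) ≤ z then (d : ℝ) * (αc * βc) else 0)
        + (if z < (d : ℝ) then 16 * Δ * X * (βd d / d) else 0)
        + Cp * X * X' * (1 + Real.sqrt Δ) / (X : ℝ) ^ κ * (1 / (d : ℝ) ^ (1 + η)) := by
    intro d hdD
    rw [hD, Finset.mem_Ico] at hdD
    obtain ⟨hd, hdX⟩ := hdD
    have hdpos : (0 : ℝ) < d := by exact_mod_cast hd
    have hd1 : (1 : ℝ) ≤ d := by exact_mod_cast hd
    have hthird : 0 ≤ Cp * X * X' * (1 + Real.sqrt Δ) / (X : ℝ) ^ κ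
        * (1 / (d : ℝ) ^ (1 + η)) := by
      have h1 : 0 < (d : ℝ) ^ (1 + η) := Real.rpow_pos_of_pos hdpos _
      positivity
    by_cases hdz : (d : ℝ) ≤ z
    · rw [if_pos hdz, if_neg (not_lt.mpr hdz), add_zero]
      have h1 : (d : ℝ) * P d ≤ (d : ℝ) * (αc * βc) :=
        mul_le_mul_of_nonneg_left (hT d) hdpos.le
      linarith
    · rw [if_neg hdz, if_pos (not_le.mp hdz), zero_add]
      by_cases hreg : 2 * (d : ℝ) ≤ X ∧ 2 * (d : ℝ) * (d : ℝ) ^ τ ≤ c * Δ ^ τ * X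
      · have hreg' : 1 + 1 / (c * (Δ / d) ^ τ) ≤ (X : ℝ) / d := by
          have hΔτ : 0 < Δ ^ τ := Real.rpow_pos_of_pos hΔ _
          have hdτ : 0 < (d : ℝ) ^ τ := Real.rpow_pos_of_pos hdpos _
          rw [Real.div_rpow hΔ.le hdpos.le, le_div_iff₀ hdpos]
          have e1 : (1 + 1 / (c * (Δ ^ τ / (d : ℝ) ^ τ))) * (d : ℝ)
              = d + d * (d : ℝ) ^ τ / (c * Δ ^ τ) := by
            field_simp
          rw [e1]
          have e2 : (d : ℝ) * (d : ℝ) ^ τ / (c * Δ ^ τ) ≤ X / 2 := by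
            rw [div_le_iff₀ (by positivity)]
            linarith [hreg.2]
          linarith [hreg.1]
        have h1 := hβ d hd hreg'
        have h2 : (d : ℝ) * P d ≤ (d : ℝ) * (βd d * (16 * (Δ / d) * ((X : ℝ) / d))) :=
          mul_le_mul_of_nonneg_left h1 hdpos.le
        have h3 : (d : ℝ) * (βd d * (16 * (Δ / d) * ((X : ℝ) / d)))
            = 16 * Δ * X * (βd d / d) := by
          field_simp
        linarith
      · have hanom : (X : ℝ) < 2 * d ∨ c * Δ ^ τ * X < 2 * (d : ℝ) * (d : ℝ) ^ τ := by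
          by_contra hcon
          rw [not_or, not_lt, not_lt] at hcon
          exact hreg hcon
        have h1 := hα d hd hdX
        have h2 := anom_rpow c τ hc hτ Δ X d hΔ hXR hd1 hanom
        rw [← hκ, ← hη] at h2
        have h3 : 6 * (X : ℝ) * X' * ((2 * (Δ / d) / c) ^ τ⁻¹ / d)
            ≤ 6 * (X : ℝ) * X' * (2 * (2 / c) ^ τ⁻¹ * (1 + (c ^ κ)⁻¹) * (1 + Real.sqrt Δ)
              / (X : ℝ) ^ κ * (1 / (d : ℝ) ^ (1 + η))) :=
          mul_le_mul_of_nonneg_left h2 (by positivity)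
        have h4 : 6 * (X : ℝ) * X' * (2 * (2 / c) ^ τ⁻¹ * (1 + (c ^ κ)⁻¹) * (1 + Real.sqrt Δ)
              / (X : ℝ) ^ κ * (1 / (d : ℝ) ^ (1 + η)))
            = Cp * X * X' * (1 + Real.sqrt Δ) / (X : ℝ) ^ κ * (1 / (d : ℝ) ^ (1 + η)) := by
          rw [hCp]
          ring
        have h5 : 0 ≤ 16 * Δ * X * (βd d / d) := by
          have h6 := hβd0 d
          positivity
        linarith
  -- summation over d
  have hS1 : ∑ d ∈ D, (if (d : ℝ) ≤ z then (d : ℝ) * (αc * βc) else 0) ≤ αc * βc * z ^ 2 := by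
    rw [← Finset.sum_filter]
    have hsub : D.filter (fun d : ℕ => (d : ℝ) ≤ z) ⊆ Finset.Ioc 0 ⌊z⌋₊ := by
      intro d hd
      rw [Finset.mem_filter, hD, Finset.mem_Ico] at hd
      rw [Finset.mem_Ioc]
      exact ⟨by omega, Nat.le_floor hd.2⟩
    have hcard : ((D.filter (fun d : ℕ => (d : ℝ) ≤ z)).card : ℝ) ≤ z := by
      have h1 := Finset.card_le_card hsub
      rw [Nat.card_Ioc] at h1
      have h2 : ((⌊z⌋₊ : ℕ) : ℝ) ≤ z := Nat.floor_le hz.le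
      have h3 : ((D.filter (fun d : ℕ => (d : ℝ) ≤ z)).card : ℝ) ≤ ((⌊z⌋₊ - 0 : ℕ) : ℝ) := by
        exact_mod_cast h1
      simp only [Nat.sub_zero] at h3
      linarith
    have h1 : ∀ d ∈ D.filter (fun d : ℕ => (d : ℝ) ≤ z), (d : ℝ) * (αc * βc) ≤ z * (αc * βc) := by
      intro d hd
      rw [Finset.mem_filter] at hd
      exact mul_le_mul_of_nonneg_right hd.2 (mul_nonneg hαc0 hβc0)
    have h2 := Finset.sum_le_card_nsmul _ _ _ h1
    rw [nsmul_eq_mul] at h2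
    have h3 : ((D.filter (fun d : ℕ => (d : ℝ) ≤ z)).card : ℝ) * (z * (αc * βc))
        ≤ z * (z * (αc * βc)) :=
      mul_le_mul_of_nonneg_right hcard (by positivity)
    calc ∑ d ∈ D.filter (fun d : ℕ => (d : ℝ) ≤ z), (d : ℝ) * (αc * βc)
        ≤ ((D.filter (fun d : ℕ => (d : ℝ) ≤ z)).card : ℝ) * (z * (αc * βc)) := h2
      _ ≤ z * (z * (αc * βc)) := h3
      _ = αc * βc * z ^ 2 := by ring
  have hS2 : ∑ d ∈ D, (if z < (d : ℝ) then 16 * Δ * X * (βd d / d) else 0)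
      ≤ 16 * Δ * X * ∑ n ∈ A', ∑ d ∈ n.divisors.filter (fun d : ℕ => z < (d : ℝ)),
          1 / (d : ℝ) := by
    have e1 : ∀ d ∈ D, (if z < (d : ℝ) then 16 * Δ * X * (βd d / d) else 0)
        = 16 * Δ * X * ∑ n ∈ A', (if z < (d : ℝ) ∧ d ∣ n then 1 / (d : ℝ) else 0) := by
      intro d _
      by_cases hzd : z < (d : ℝ)
      · rw [if_pos hzd, hβd, Finset.sum_div]
        congr 1
        refine Finset.sum_congr rfl (fun n _ => ?_)
        by_cases hdn : d ∣ n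
        · rw [if_pos hdn, if_pos ⟨hzd, hdn⟩]
        · rw [if_neg hdn, if_neg (fun h => hdn h.2), zero_div]
      · rw [if_neg hzd]
        have h1 : ∑ n ∈ A', (if z < (d : ℝ) ∧ d ∣ n then 1 / (d : ℝ) else 0) = 0 :=
          Finset.sum_eq_zero (fun n _ => if_neg (fun h => hzd h.1))
        rw [h1, mul_zero]
    rw [Finset.sum_congr rfl e1, ← Finset.mul_sum, Finset.sum_comm]
    apply mul_le_mul_of_nonneg_left _ (by positivity)
    refine Finset.sum_le_sum (fun n hn => ?_)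
    have hn1 := hA' hn
    rw [Finset.mem_Ico] at hn1
    rw [← Finset.sum_filter]
    apply Finset.sum_le_sum_of_subset_of_nonneg
    · intro d hd
      rw [Finset.mem_filter] at hd
      rw [Finset.mem_filter, Nat.mem_divisors]
      exact ⟨⟨hd.2.2, by omega⟩, hd.2.1⟩
    · intro d _ _
      positivity
  have hS3 : ∑ d ∈ D, Cp * X * X' * (1 + Real.sqrt Δ) / (X : ℝ) ^ κ * (1 / (d : ℝ) ^ (1 + η))
      ≤ Cp * X * X' * (1 + Real.sqrt Δ) / (X : ℝ) ^ κ * ∑' d : ℕ, 1 / (d : ℝ) ^ (1 + η) := by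
    rw [← Finset.mul_sum]
    apply mul_le_mul_of_nonneg_left _ (by positivity)
    have hsum : Summable (fun d : ℕ => 1 / (d : ℝ) ^ (1 + η)) := by
      rw [Real.summable_one_div_nat_rpow]
      have h1 : 0 < η := by
        rw [hη]
        positivity
      linarith
    exact hsum.sum_le_tsum D (fun d _ => by positivity)
  have hfin : anomConst c τ * X * X' * (1 + Real.sqrt Δ) / (X : ℝ) ^ (τ⁻¹ / (2 * (1 + τ)))
      = Cp * X * X' * (1 + Real.sqrt Δ) / (X : ℝ) ^ κ * ∑' d : ℕ, 1 / (d : ℝ) ^ (1 + η) := by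
    unfold anomConst
    rw [hCp, ← hκ, ← hη]
    ring
  rw [hfin, ← hαc, ← hβc]
  calc ∑ l ∈ A, ∑ n ∈ A', pairGcdRes γ Δ l n ≤ ∑ d ∈ D, (d : ℝ) * P d := hB1
    _ ≤ ∑ d ∈ D, ((if (d : ℝ) ≤ z then (d : ℝ) * (αc * βc) else 0)
        + (if z < (d : ℝ) then 16 * Δ * X * (βd d / d) else 0)
        + Cp * X * X' * (1 + Real.sqrt Δ) / (X : ℝ) ^ κ * (1 / (d : ℝ) ^ (1 + η))) :=
        Finset.sum_le_sum hC
    _ = ∑ d ∈ D, (if (d : ℝ) ≤ z then (d : ℝ) * (αc * βc) else 0)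
        + ∑ d ∈ D, (if z < (d : ℝ) then 16 * Δ * X * (βd d / d) else 0)
        + ∑ d ∈ D, Cp * X * X' * (1 + Real.sqrt Δ) / (X : ℝ) ^ κ * (1 / (d : ℝ) ^ (1 + η)) := by
        rw [Finset.sum_add_distrib, Finset.sum_add_distrib]
    _ ≤ αc * βc * z ^ 2
        + 16 * Δ * X * ∑ n ∈ A', ∑ d ∈ n.divisors.filter (fun d : ℕ => z < (d : ℝ)),
            1 / (d : ℝ)
        + Cp * X * X' * (1 + Real.sqrt Δ) / (X : ℝ) ^ κ * ∑' d : ℕ, 1 / (d : ℝ) ^ (1 + η) :=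
        add_le_add (add_le_add hS1 hS2) hS3

end Vale.Agent.Lib.P028
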