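import Mathlib
import Vale.Agent.Lib.P028.CellPair
import Vale.Agent.Lib.P028.Diophantine

/-!
The Erdős–Vaaler type theorem for shifts of finite Diophantine type: decomposition of the
denominators into cells (dyadic scale and dyadic level of `q ψ(q)`), the estimate for a pair of
cells, and the summation over all pairs of cells.
-/

open Finset MeasureTheory Filter

namespace Vale.Agent.Lib.P028

/-- `q` lies in the cell of level `a` and scale `s`. -/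
def InCell (K : ℝ) (ψ : ℕ → ℝ) (a s q : ℕ) : Prop :=
  2 ^ s ≤ q ∧ q < 2 * 2 ^ s ∧ K * (1 / 2 : ℝ) ^ (a + 1) < (q : ℝ) * ψ q
    ∧ (q : ℝ) * ψ q ≤ K * (1 / 2 : ℝ) ^ a

theorem mDelta_aux (K m p ha hb hi : ℝ) (hK : 1 ≤ K) (_hm0 : 0 ≤ m) (hm1 : m ≤ ha)
    (hm2 : m ≤ hb * hi ^ 2) (hp : 0 < p) (hphi : p * hi = 1) (ha0 : 0 < ha) (hb0 : 0 < hb)
    (hi0 : 0 < hi) :
    m * (2 * K * (p * ha + hi * hb)) ≤ 4 * K * (ha * hb * hi) := by
  have h1 : m * (p * ha) ≤ hb * hi ^ 2 * (p * ha) :=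
    mul_le_mul_of_nonneg_right hm2 (by positivity)
  have h2 : hb * hi ^ 2 * (p * ha) = ha * hb * hi * (p * hi) := by ring
  rw [h2, hphi, mul_one] at h1
  have h3 : m * (hi * hb) ≤ ha * (hi * hb) := mul_le_mul_of_nonneg_right hm1 (by positivity)
  have h4 : m * (2 * K * (p * ha + hi * hb)) = 2 * K * (m * (p * ha) + m * (hi * hb)) := by ring
  rw [h4]
  have h5 : m * (p * ha) + m * (hi * hb) ≤ 2 * (ha * hb * hi) := by linarith
  have h6 : 2 * K * (m * (p * ha) + m * (hi * hb)) ≤ 2 * K * (2 * (ha * hb * hi)) :=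
    mul_le_mul_of_nonneg_left h5 (by linarith)
  linarith

theorem term3_aux (K m p ha hb hi Δ R : ℝ) (hK : 1 ≤ K) (hm0 : 0 ≤ m) (hm1 : m ≤ ha)
    (hm2 : m ≤ hb * hi ^ 2) (hp : 0 < p) (hphi : p * hi = 1) (ha0 : 0 < ha) (ha1 : ha ≤ 1)
    (hb0 : 0 < hb) (hb1 : hb ≤ 1) (hi0 : 0 < hi) (hi1 : hi ≤ 1)
    (hΔ : Δ = 2 * K * (p * ha + hi * hb)) (hR0 : 0 ≤ R) (hR : R ^ 4 = ha * hb * hi) :
    m * p * (1 + Real.sqrt Δ) ≤ 3 * K * R := by
  have hΔ0 : 0 ≤ Δ := by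
    rw [hΔ]
    positivity
  have hmp0 : 0 ≤ m * p := by positivity
  have hmp1 : m * p ≤ hb * hi := by
    have h1 : m * p ≤ hb * hi ^ 2 * p := mul_le_mul_of_nonneg_right hm2 hp.le
    have h2 : hb * hi ^ 2 * p = hb * hi * (p * hi) := by ring
    rw [h2, hphi, mul_one] at h1
    exact h1
  have hmp2 : m * p ≤ ha * p := mul_le_mul_of_nonneg_right hm1 hp.le
  have hR41 : R ^ 4 ≤ 1 := by
    rw [hR]
    have h1 : ha * hb ≤ 1 := by nlinarith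
    nlinarith [mul_nonneg ha0.le hb0.le]
  have hR1 : R ≤ 1 := (pow_le_one_iff_of_nonneg hR0 (by norm_num)).mp hR41
  -- (i)
  have hi1' : m * p ≤ R := by
    have h1 : (m * p) ^ 4 ≤ R ^ 4 := by
      rw [hR]
      have h2 : (m * p) ^ 3 ≤ (hb * hi) ^ 3 := pow_le_pow_left₀ hmp0 hmp1 3
      have h3 : (m * p) ^ 4 = (m * p) ^ 3 * (m * p) := by ring
      rw [h3]
      have h4 : (m * p) ^ 3 * (m * p) ≤ (hb * hi) ^ 3 * (ha * p) :=
        mul_le_mul h2 hmp2 hmp0 (by positivity)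
      have h5 : (hb * hi) ^ 3 * (ha * p) = ha * hb ^ 3 * hi ^ 2 * (p * hi) := by ring
      rw [h5, hphi, mul_one] at h4
      have h6 : ha * hb ^ 3 * hi ^ 2 ≤ ha * hb * hi := by
        have h7 : hb ^ 3 ≤ hb := by nlinarith [mul_nonneg hb0.le hb0.le]
        have h8 : hi ^ 2 ≤ hi := by nlinarith
        have h9 : hb ^ 3 * hi ^ 2 ≤ hb * hi := mul_le_mul h7 h8 (by positivity) hb0.le
        nlinarith
      linarith
    exact (pow_le_pow_iff_left₀ hmp0 hR0 (by norm_num)).mp h1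
  -- (ii)
  have hii : m * p * Real.sqrt Δ ≤ 2 * K * R := by
    have hsq : Real.sqrt Δ ^ 2 = Δ := Real.sq_sqrt hΔ0
    have h0 : 0 ≤ m * p * Real.sqrt Δ := by positivity
    have h1 : (m * p * Real.sqrt Δ) ^ 2 ≤ (2 * K * R) ^ 2 := by
      have h2 : (m * p * Real.sqrt Δ) ^ 2 = (m * p) * p * (m * Δ) := by
        rw [mul_pow, hsq]
        ring
      rw [h2]
      have h3 : m * Δ ≤ 4 * K * (ha * hb * hi) := by
        rw [hΔ]
        exact mDelta_aux K m p ha hb hi hK hm0 hm1 hm2 hp hphi ha0 hb0 hi0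
      have h4 : (m * p) * p * (m * Δ) ≤ (hb * hi) * p * (4 * K * (ha * hb * hi)) := by
        apply mul_le_mul _ h3 (by positivity) (by positivity)
        exact mul_le_mul_of_nonneg_right hmp1 hp.le
      have h5 : (hb * hi) * p * (4 * K * (ha * hb * hi)) = 4 * K * (ha * hb ^ 2 * hi) * (p * hi) := by
        ring
      rw [h5, hphi, mul_one] at h4
      have h6 : ha * hb ^ 2 * hi ≤ ha * hb * hi := by
        have h7 : hb ^ 2 ≤ hb := by nlinarith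
        have h8 : ha * hb ^ 2 ≤ ha * hb := mul_le_mul_of_nonneg_left h7 ha0.le
        exact mul_le_mul_of_nonneg_right h8 hi0.le
      have h7 : R ^ 4 ≤ R ^ 2 := by
        have h8 : R ^ 2 ≤ 1 := by nlinarith
        nlinarith [sq_nonneg R]
      have h9 : 4 * K * (ha * hb ^ 2 * hi) ≤ 4 * K * R ^ 4 := by
        rw [hR]
        exact mul_le_mul_of_nonneg_left h6 (by linarith)
      have h10 : 4 * K * R ^ 4 ≤ 4 * K * R ^ 2 := mul_le_mul_of_nonneg_left h7 (by linarith)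
      have h11 : 4 * K * R ^ 2 ≤ (2 * K * R) ^ 2 := by
        have h12 : K ≤ K ^ 2 := by nlinarith
        nlinarith [sq_nonneg R]
      linarith
    exact (pow_le_pow_iff_left₀ h0 (by positivity) (by norm_num)).mp h1
  have hfin : m * p * (1 + Real.sqrt Δ) = m * p + m * p * Real.sqrt Δ := by ring
  rw [hfin]
  nlinarith

theorem cell_pair_mass (γ c τ : ℝ) (hc : 0 < c) (hτ : 2 ≤ τ)
    (hγ : ∀ k : ℕ, 1 ≤ k → c ≤ (k : ℝ) ^ τ * |(k : ℝ) * γ - round ((k : ℝ) * γ)|)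
    (K : ℝ) (hK : 1 ≤ K) (ψ : ℕ → ℝ) (hψ : ∀ q, 0 ≤ ψ q)
    (r : ℝ) (hr0 : 0 < r) (hr8 : r ^ 8 = 1 / 2) (a b s i : ℕ) (A A' : Finset ℕ)
    (hA : ∀ q ∈ A, InCell K ψ a s q) (hA' : ∀ q ∈ A', InCell K ψ b (s + i) q) :
    ∑ l ∈ A, ∑ n ∈ A', (if l < n then resWeight (fun _ => γ) ψ l n else 0)
      ≤ (1 / 2 : ℝ) ^ b * r ^ (8 * a + 4 * i) * ((A.card : ℝ) * K * (1 / 2 : ℝ) ^ a / 2 ^ s)
        + 448 * K * r ^ (4 * a + i) * ((A'.card : ℝ) * K * (1 / 2 : ℝ) ^ b / 2 ^ (s + i))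
        + 3 * K ^ 2 * anomConst c τ * r ^ (2 * a + 2 * b + 2 * i)
            * (((2 : ℝ) ^ (τ⁻¹ / (2 * (1 + τ))))⁻¹) ^ s := by
  classical
  have hK0 : 0 < K := by linarith
  obtain ⟨X, hXdef⟩ : ∃ X : ℕ, X = 2 ^ s := ⟨_, rfl⟩
  obtain ⟨X', hX'def⟩ : ∃ X' : ℕ, X' = 2 ^ (s + i) := ⟨_, rfl⟩
  obtain ⟨x, hx⟩ : ∃ x : ℝ, x = (2 : ℝ) ^ s := ⟨_, rfl⟩
  obtain ⟨p, hp⟩ : ∃ p : ℝ, p = (2 : ℝ) ^ i := ⟨_, rfl⟩
  obtain ⟨ha, hha⟩ : ∃ ha : ℝ, ha = (1 / 2 : ℝ) ^ a := ⟨_, rfl⟩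
  obtain ⟨hb, hhb⟩ : ∃ hb : ℝ, hb = (1 / 2 : ℝ) ^ b := ⟨_, rfl⟩
  obtain ⟨hi, hhi⟩ : ∃ hi : ℝ, hi = (1 / 2 : ℝ) ^ i := ⟨_, rfl⟩
  obtain ⟨ra, hra⟩ : ∃ ra : ℝ, ra = r ^ a := ⟨_, rfl⟩
  obtain ⟨rb, hrb⟩ : ∃ rb : ℝ, rb = r ^ b := ⟨_, rfl⟩
  obtain ⟨ri, hri⟩ : ∃ ri : ℝ, ri = r ^ i := ⟨_, rfl⟩
  obtain ⟨κ, hκ⟩ : ∃ κ : ℝ, κ = τ⁻¹ / (2 * (1 + τ)) := ⟨_, rfl⟩
  have hx0 : 0 < x := by
    rw [hx]
    positivity
  have hp0 : 0 < p := by
    rw [hp]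
    positivity
  have hha0 : 0 < ha := by
    rw [hha]
    positivity
  have hhb0 : 0 < hb := by
    rw [hhb]
    positivity
  have hhi0 : 0 < hi := by
    rw [hhi]
    positivity
  have hha1 : ha ≤ 1 := by
    rw [hha]
    exact pow_le_one₀ (by norm_num) (by norm_num)
  have hhb1 : hb ≤ 1 := by
    rw [hhb]
    exact pow_le_one₀ (by norm_num) (by norm_num)
  have hhi1 : hi ≤ 1 := by
    rw [hhi]
    exact pow_le_one₀ (by norm_num) (by norm_num)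
  have hra0 : 0 < ra := by
    rw [hra]
    positivity
  have hrb0 : 0 < rb := by
    rw [hrb]
    positivity
  have hri0 : 0 < ri := by
    rw [hri]
    positivity
  have hXx : (X : ℝ) = x := by
    rw [hXdef, hx]
    push_cast
    rfl
  have hX'x : (X' : ℝ) = x * p := by
    rw [hX'def, hx, hp]
    push_cast
    rw [pow_add]
  have hphi : p * hi = 1 := by
    rw [hp, hhi, ← mul_pow]
    norm_num
  have hhip : hi = p⁻¹ := by
    rw [hp, hhi, one_div, inv_pow]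
  have hha8 : ha = ra ^ 8 := by
    rw [hha, hra, ← hr8, ← pow_mul, ← pow_mul, mul_comm]
  have hhb8 : hb = rb ^ 8 := by
    rw [hhb, hrb, ← hr8, ← pow_mul, ← pow_mul, mul_comm]
  have hhi8 : hi = ri ^ 8 := by
    rw [hhi, hri, ← hr8, ← pow_mul, ← pow_mul, mul_comm]
  have hR1 : r ^ (8 * a + 4 * i) = ra ^ 8 * ri ^ 4 := by
    rw [hra, hri, pow_add, pow_mul', pow_mul']
  have hR2 : r ^ (4 * a + i) = ra ^ 4 * ri := by
    rw [hra, hri, pow_add, pow_mul']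
  have hR3 : r ^ (2 * a + 2 * b + 2 * i) = ra ^ 2 * rb ^ 2 * ri ^ 2 := by
    rw [hra, hrb, hri, pow_add, pow_add, pow_mul', pow_mul', pow_mul']
  have h2s : (2 : ℝ) ^ (s + i) = x * p := by
    rw [hx, hp, pow_add]
  rw [hR1, hR2, hR3, ← hha, ← hhb, ← hx, h2s, ← hκ]
  -- the blocks
  have hX1 : 1 ≤ X := by
    rw [hXdef]
    exact Nat.one_le_two_pow
  have hXX' : X ≤ X' := by
    rw [hXdef, hX'def]
    exact Nat.pow_le_pow_right (by norm_num) (by omega)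
  have hAsub : A ⊆ Finset.Ico X (2 * X) := by
    intro q hq
    obtain ⟨h1, h2, _, _⟩ := hA q hq
    rw [Finset.mem_Ico, hXdef]
    exact ⟨h1, h2⟩
  have hA'sub : A' ⊆ Finset.Ico X' (2 * X') := by
    intro q hq
    obtain ⟨h1, h2, _, _⟩ := hA' q hq
    rw [Finset.mem_Ico, hX'def]
    exact ⟨h1, h2⟩
  -- data of the elements
  have hAdata : ∀ l ∈ A, x ≤ (l : ℝ) ∧ (l : ℝ) < 2 * x ∧ (l : ℝ) * ψ l ≤ K * ha := by
    intro l hl
    obtain ⟨h1, h2, _, h4⟩ := hA l hl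
    refine ⟨?_, ?_, ?_⟩
    · rw [hx]
      exact_mod_cast h1
    · rw [hx]
      exact_mod_cast h2
    · rw [hha]
      exact h4
  have hA'data : ∀ n ∈ A', x * p ≤ (n : ℝ) ∧ (n : ℝ) < 2 * (x * p)
      ∧ (n : ℝ) * ψ n ≤ K * hb := by
    intro n hn
    obtain ⟨h1, h2, _, h4⟩ := hA' n hn
    refine ⟨?_, ?_, ?_⟩
    · rw [← h2s]
      exact_mod_cast h1
    · rw [← h2s]
      exact_mod_cast h2
    · rw [hhb]
      exact h4
  obtain ⟨Δ, hΔ⟩ : ∃ Δ : ℝ, Δ = 2 * K * (p * ha + hi * hb) := ⟨_, rfl⟩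
  have hΔ0 : 0 < Δ := by
    rw [hΔ]
    positivity
  obtain ⟨m, hm⟩ : ∃ m : ℝ, m = min ha (hb * hi ^ 2) := ⟨_, rfl⟩
  have hm0 : 0 ≤ m := by
    rw [hm]
    exact le_min hha0.le (by positivity)
  have hm1 : m ≤ ha := by
    rw [hm]
    exact min_le_left _ _
  have hm2 : m ≤ hb * hi ^ 2 := by
    rw [hm]
    exact min_le_right _ _
  obtain ⟨w, hw⟩ : ∃ w : ℝ, w = K * m / x ^ 2 := ⟨_, rfl⟩
  have hw0 : 0 ≤ w := by
    rw [hw]
    positivity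
  -- Step 1: pointwise bound
  have hstep1 : ∀ l ∈ A, ∀ n ∈ A', (if l < n then resWeight (fun _ => γ) ψ l n else 0)
      ≤ w * pairGcdRes γ Δ l n := by
    intro l hl n hn
    have hrhs : 0 ≤ w * pairGcdRes γ Δ l n := mul_nonneg hw0 (pairGcdRes_nonneg γ Δ l n)
    by_cases hln : l < n
    · rw [if_pos hln, resWeight_const]
      by_cases hcond : (Nat.gcd l n : ℝ) * |γ * (((n : ℝ) - l) / (Nat.gcd l n : ℝ))
            - round (γ * (((n : ℝ) - l) / (Nat.gcd l n : ℝ)))| < (n : ℝ) * ψ l + (l : ℝ) * ψ n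
      · rw [if_pos hcond]
        obtain ⟨hl1, hl2, hl3⟩ := hAdata l hl
        obtain ⟨hn1, hn2, hn3⟩ := hA'data n hn
        have hlpos : (0 : ℝ) < l := lt_of_lt_of_le hx0 hl1
        have hnpos : (0 : ℝ) < n := lt_of_lt_of_le (by positivity) hn1
        have hψl : ψ l ≤ K * ha / x := by
          rw [le_div_iff₀ hx0]
          calc ψ l * x ≤ ψ l * l := mul_le_mul_of_nonneg_left hl1 (hψ l)
            _ = (l : ℝ) * ψ l := mul_comm _ _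
            _ ≤ K * ha := hl3
        have hψn : ψ n ≤ K * hb / (x * p) := by
          rw [le_div_iff₀ (by positivity)]
          calc ψ n * (x * p) ≤ ψ n * n := mul_le_mul_of_nonneg_left hn1 (hψ n)
            _ = (n : ℝ) * ψ n := mul_comm _ _
            _ ≤ K * hb := hn3
        have hΔle : (n : ℝ) * ψ l + (l : ℝ) * ψ n ≤ Δ := by
          have h1 : (n : ℝ) * ψ l ≤ 2 * (x * p) * (K * ha / x) :=
            mul_le_mul hn2.le hψl (hψ l) (by positivity)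
          have h2 : (l : ℝ) * ψ n ≤ 2 * x * (K * hb / (x * p)) :=
            mul_le_mul hl2.le hψn (hψ n) (by positivity)
          have h3 : 2 * (x * p) * (K * ha / x) = 2 * K * (p * ha) := by
            field_simp
          have h4 : 2 * x * (K * hb / (x * p)) = 2 * K * (hi * hb) := by
            rw [hhip]
            field_simp
          rw [hΔ]
          linarith
        have hpair : pairGcdRes γ Δ l n = (Nat.gcd l n : ℝ) := by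
          unfold pairGcdRes
          rw [if_pos ⟨hln, lt_of_lt_of_le hcond hΔle⟩]
        rw [hpair]
        have hmin : min (ψ l / l) (ψ n / n) ≤ w := by
          rw [hw]
          rcases le_total ha (hb * hi ^ 2) with hc1 | hc1
          · have hmeq : m = ha := by
              rw [hm]
              exact min_eq_left hc1
            rw [hmeq]
            refine le_trans (min_le_left _ _) ?_
            calc ψ l / l ≤ (K * ha / x) / x :=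
                  div_le_div₀ (by positivity) hψl hx0 hl1
              _ = K * ha / x ^ 2 := by
                  field_simp
          · have hmeq : m = hb * hi ^ 2 := by
              rw [hm]
              exact min_eq_right hc1
            rw [hmeq]
            refine le_trans (min_le_right _ _) ?_
            calc ψ n / n ≤ (K * hb / (x * p)) / (x * p) :=
                  div_le_div₀ (by positivity) hψn (by positivity) hn1
              _ = K * (hb * hi ^ 2) / x ^ 2 := by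
                  rw [hhip]
                  field_simp
        calc (Nat.gcd l n : ℝ) * min (ψ l / l) (ψ n / n) ≤ (Nat.gcd l n : ℝ) * w :=
              mul_le_mul_of_nonneg_left hmin (Nat.cast_nonneg _)
          _ = w * (Nat.gcd l n : ℝ) := mul_comm _ _
      · rw [if_neg hcond]
        exact hrhs
    · rw [if_neg hln]
      exact hrhs
  have hstep2 : ∑ l ∈ A, ∑ n ∈ A', (if l < n then resWeight (fun _ => γ) ψ l n else 0)
      ≤ w * ∑ l ∈ A, ∑ n ∈ A', pairGcdRes γ Δ l n := by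
    rw [Finset.mul_sum]
    refine Finset.sum_le_sum (fun l hl => ?_)
    rw [Finset.mul_sum]
    exact Finset.sum_le_sum (fun n hn => hstep1 l hl n hn)
  have hanom := anomConst_nonneg c τ hc
  have h2κ : 0 < (2 : ℝ) ^ κ := Real.rpow_pos_of_pos (by norm_num) _
  -- the case of an empty second cell
  rcases Finset.eq_empty_or_nonempty A' with hemp | hne
  · have h0 : ∑ l ∈ A, ∑ n ∈ A', (if l < n then resWeight (fun _ => γ) ψ l n else 0) = 0 := by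
      rw [hemp]
      simp
    rw [h0]
    have hϱ : 0 ≤ (((2 : ℝ) ^ κ)⁻¹) ^ s := by positivity
    positivity
  obtain ⟨α, hα⟩ : ∃ α : ℝ, α = (A.card : ℝ) := ⟨_, rfl⟩
  obtain ⟨β, hβ⟩ : ∃ β : ℝ, β = (A'.card : ℝ) := ⟨_, rfl⟩
  rw [← hα, ← hβ]
  have hα0 : 0 ≤ α := by
    rw [hα]
    positivity
  have hβ1 : 1 ≤ β := by
    rw [hβ]
    exact_mod_cast Finset.card_pos.mpr hne
  have hβ0 : 0 < β := by linarith
  have hpri : p = (ri ^ 8)⁻¹ := by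
    rw [← hhi8, hhip, inv_inv]
  obtain ⟨μ, hμ⟩ : ∃ μ : ℝ, μ = ra ^ 16 / ri ^ 4 := ⟨_, rfl⟩
  have hμ0 : 0 < μ := by
    rw [hμ]
    positivity
  obtain ⟨z, hzdef⟩ : ∃ z : ℝ, z = Real.sqrt (μ * (x * p) / β) := ⟨_, rfl⟩
  have hz0 : 0 < z := by
    rw [hzdef]
    exact Real.sqrt_pos.mpr (by positivity)
  have hz2 : z ^ 2 = μ * (x * p) / β := by
    rw [hzdef]
    exact Real.sq_sqrt (by positivity)
  have hmain := cell_pair γ c τ hc hτ hγ X X' hX1 hXX' A A' hAsub hA'sub Δ hΔ0 z hz0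
  rw [← hα, ← hβ, hXx, hX'x, ← hκ] at hmain
  obtain ⟨T, hT⟩ : ∃ T : ℝ, T = ∑ n ∈ A',
      ∑ d ∈ n.divisors.filter (fun d : ℕ => z < (d : ℝ)), 1 / (d : ℝ) := ⟨_, rfl⟩
  rw [← hT] at hmain
  have hT0 : 0 ≤ T := by
    rw [hT]
    exact Finset.sum_nonneg (fun n _ => Finset.sum_nonneg (fun d _ => by positivity))
  have hfm := fourth_moment X' z hz0 A' hA'sub
  rw [← hT, ← hβ, hX'x, hz2] at hfm
  have hTle : T ≤ 7 * β * ri / ra ^ 4 := by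
    have h1 : T ^ 4 ≤ (7 * β * ri / ra ^ 4) ^ 4 := by
      refine le_trans hfm ?_
      rw [hμ]
      have e1 : 1458 * β ^ 3 * (x * p) / (ra ^ 16 / ri ^ 4 * (x * p) / β)
          = 1458 * (β ^ 4 * ri ^ 4) / ra ^ 16 := by
        field_simp
      have e2 : (7 * β * ri / ra ^ 4) ^ 4 = 2401 * (β ^ 4 * ri ^ 4) / ra ^ 16 := by
        field_simp
        ring
      rw [e1, e2]
      apply div_le_div_of_nonneg_right _ (by positivity)
      have h2 : 0 ≤ β ^ 4 * ri ^ 4 := by positivity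
      linarith
    exact (pow_le_pow_iff_left₀ hT0 (by positivity) (by norm_num)).mp h1
  have hw2 : w ≤ K * (hb * hi ^ 2) / x ^ 2 := by
    rw [hw]
    apply div_le_div_of_nonneg_right _ (by positivity)
    exact mul_le_mul_of_nonneg_left hm2 hK0.le
  have hwΔ : w * Δ ≤ 4 * K ^ 2 * (ha * hb * hi) / x ^ 2 := by
    have h1 := mDelta_aux K m p ha hb hi hK hm0 hm1 hm2 hp0 hphi hha0 hhb0 hhi0
    rw [← hΔ] at h1
    rw [hw]
    have h2 : K * m / x ^ 2 * Δ = K * (m * Δ) / x ^ 2 := by ring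
    rw [h2]
    apply div_le_div_of_nonneg_right _ (by positivity)
    have h3 : K * (m * Δ) ≤ K * (4 * K * (ha * hb * hi)) :=
      mul_le_mul_of_nonneg_left h1 hK0.le
    linarith
  have hterm1 : w * (α * β * z ^ 2) ≤ hb * (ra ^ 8 * ri ^ 4) * (α * K * ha / x) := by
    have e1 : α * β * z ^ 2 = α * μ * (x * p) := by
      rw [hz2]
      field_simp
    rw [e1]
    have h1 : w * (α * μ * (x * p)) ≤ K * (hb * hi ^ 2) / x ^ 2 * (α * μ * (x * p)) :=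
      mul_le_mul_of_nonneg_right hw2 (by positivity)
    have e2 : K * (hb * hi ^ 2) / x ^ 2 * (α * μ * (x * p))
        = hb * (ra ^ 8 * ri ^ 4) * (α * K * ha / x) := by
      rw [hμ, hha8, hhi8, hpri]
      field_simp
    linarith
  have hterm2 : w * (16 * Δ * x * T)
      ≤ 448 * K * (ra ^ 4 * ri) * (β * K * hb / (x * p)) := by
    have h1 : w * (16 * Δ * x * T) = 16 * x * T * (w * Δ) := by ring
    rw [h1]
    have h2 : 16 * x * T * (w * Δ)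
        ≤ 16 * x * (7 * β * ri / ra ^ 4) * (4 * K ^ 2 * (ha * hb * hi) / x ^ 2) := by
      apply mul_le_mul _ hwΔ (mul_nonneg hw0 hΔ0.le) (by positivity)
      exact mul_le_mul_of_nonneg_left hTle (by positivity)
    have e2 : 16 * x * (7 * β * ri / ra ^ 4) * (4 * K ^ 2 * (ha * hb * hi) / x ^ 2)
        = 448 * K * (ra ^ 4 * ri) * (β * K * hb / (x * p)) := by
      rw [hha8, hhi8, hpri]
      field_simp
      ring
    linarith
  have hterm3 : w * (anomConst c τ * x * (x * p) * (1 + Real.sqrt Δ) / x ^ κ)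
      ≤ 3 * K ^ 2 * anomConst c τ * (ra ^ 2 * rb ^ 2 * ri ^ 2) * ((2 : ℝ) ^ κ)⁻¹ ^ s := by
    have hR : (ra ^ 2 * rb ^ 2 * ri ^ 2) ^ 4 = ha * hb * hi := by
      rw [hha8, hhb8, hhi8]
      ring
    have h1 := term3_aux K m p ha hb hi Δ (ra ^ 2 * rb ^ 2 * ri ^ 2) hK hm0 hm1 hm2 hp0 hphi
      hha0 hha1 hhb0 hhb1 hhi0 hhi1 hΔ (by positivity) hR
    have hxκ : x ^ κ = ((2 : ℝ) ^ κ) ^ s := by
      rw [hx, ← Real.rpow_natCast_mul (by norm_num), ← Real.rpow_mul_natCast (by norm_num),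
        mul_comm]
    have e1 : w * (anomConst c τ * x * (x * p) * (1 + Real.sqrt Δ) / x ^ κ)
        = K * anomConst c τ * (m * p * (1 + Real.sqrt Δ)) * (((2 : ℝ) ^ κ)⁻¹) ^ s := by
      rw [hw, hxκ, inv_pow]
      field_simp
    rw [e1]
    have h3 : K * anomConst c τ * (m * p * (1 + Real.sqrt Δ))
        ≤ K * anomConst c τ * (3 * K * (ra ^ 2 * rb ^ 2 * ri ^ 2)) :=
      mul_le_mul_of_nonneg_left h1 (by positivity)
    have h4 : 0 ≤ (((2 : ℝ) ^ κ)⁻¹) ^ s := by positivity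
    calc K * anomConst c τ * (m * p * (1 + Real.sqrt Δ)) * (((2 : ℝ) ^ κ)⁻¹) ^ s
        ≤ K * anomConst c τ * (3 * K * (ra ^ 2 * rb ^ 2 * ri ^ 2)) * (((2 : ℝ) ^ κ)⁻¹) ^ s :=
          mul_le_mul_of_nonneg_right h3 h4
      _ = 3 * K ^ 2 * anomConst c τ * (ra ^ 2 * rb ^ 2 * ri ^ 2) * ((2 : ℝ) ^ κ)⁻¹ ^ s := by
          ring
  calc ∑ l ∈ A, ∑ n ∈ A', (if l < n then resWeight (fun _ => γ) ψ l n else 0)
      ≤ w * ∑ l ∈ A, ∑ n ∈ A', pairGcdRes γ Δ l n := hstep2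
    _ ≤ w * (α * β * z ^ 2 + 16 * Δ * x * T
          + anomConst c τ * x * (x * p) * (1 + Real.sqrt Δ) / x ^ κ) :=
        mul_le_mul_of_nonneg_left hmain hw0
    _ = w * (α * β * z ^ 2) + w * (16 * Δ * x * T)
          + w * (anomConst c τ * x * (x * p) * (1 + Real.sqrt Δ) / x ^ κ) := by ring
    _ ≤ hb * (ra ^ 8 * ri ^ 4) * (α * K * ha / x)
          + 448 * K * (ra ^ 4 * ri) * (β * K * hb / (x * p))
          + 3 * K ^ 2 * anomConst c τ * (ra ^ 2 * rb ^ 2 * ri ^ 2) * ((2 : ℝ) ^ κ)⁻¹ ^ s :=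
        add_le_add (add_le_add hterm1 hterm2) hterm3

theorem sum_pow_injOn_le (x : ℝ) (hx0 : 0 ≤ x) (hx1 : x < 1) (F : Finset ℕ) (f : ℕ → ℕ)
    (hf : Set.InjOn f ↑F) : ∑ t ∈ F, x ^ f t ≤ (1 - x)⁻¹ := by
  classical
  rw [← Finset.sum_image (f := fun j => x ^ j) hf, ← tsum_geometric_of_lt_one hx0 hx1]
  exact (summable_geometric_of_lt_one hx0 hx1).sum_le_tsum _ (fun j _ => pow_nonneg hx0 j)

theorem sum_range_pow_le (x : ℝ) (hx0 : 0 ≤ x) (hx1 : x < 1) (R : Finset ℕ) :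
    ∑ j ∈ R, x ^ j ≤ (1 - x)⁻¹ :=
  sum_pow_injOn_le x hx0 hx1 R (fun j => j) (fun _ _ _ _ h => h)

theorem sum_ite_sub_le (x : ℝ) (hx0 : 0 ≤ x) (hx1 : x < 1) (R : Finset ℕ) (s : ℕ) :
    ∑ s' ∈ R, (if s ≤ s' then x ^ (s' - s) else 0) ≤ (1 - x)⁻¹ := by
  rw [← Finset.sum_filter]
  apply sum_pow_injOn_le x hx0 hx1 _ (fun s' => s' - s)
  intro u hu v hv huv
  rw [Finset.mem_coe, Finset.mem_filter] at hu hv
  have h1 : u - s = v - s := huv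
  omega

theorem sum_ite_sub_le' (x : ℝ) (hx0 : 0 ≤ x) (hx1 : x < 1) (R : Finset ℕ) (s' : ℕ) :
    ∑ s ∈ R, (if s ≤ s' then x ^ (s' - s) else 0) ≤ (1 - x)⁻¹ := by
  rw [← Finset.sum_filter]
  apply sum_pow_injOn_le x hx0 hx1 _ (fun s => s' - s)
  intro u hu v hv huv
  rw [Finset.mem_coe, Finset.mem_filter] at hu hv
  have h1 : s' - u = s' - v := huv
  omega

theorem sum4_le_one (R : Finset ℕ) (u : ℕ → ℕ → ℝ) (hu : ∀ a s, 0 ≤ u a s) (f : ℕ → ℝ)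
    (hf : ∀ b, 0 ≤ f b) (w : ℕ → ℕ → ℝ) (F W : ℝ)
    (hF : ∑ b ∈ R, f b ≤ F) (hW : ∀ s, ∑ s' ∈ R, w s s' ≤ W) (hW0 : 0 ≤ W) :
    ∑ a ∈ R, ∑ s ∈ R, ∑ b ∈ R, ∑ s' ∈ R, u a s * (f b * w s s')
      ≤ F * W * ∑ a ∈ R, ∑ s ∈ R, u a s := by
  rw [Finset.mul_sum]
  refine Finset.sum_le_sum (fun a _ => ?_)
  rw [Finset.mul_sum]
  refine Finset.sum_le_sum (fun s _ => ?_)
  have e1 : ∀ b, ∑ s' ∈ R, u a s * (f b * w s s') = u a s * (f b * ∑ s' ∈ R, w s s') :=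
    fun b => by rw [← Finset.mul_sum, ← Finset.mul_sum]
  rw [Finset.sum_congr rfl (fun b _ => e1 b), ← Finset.mul_sum, ← Finset.sum_mul]
  have hf0 : 0 ≤ ∑ b ∈ R, f b := Finset.sum_nonneg (fun b _ => hf b)
  have h1 : (∑ b ∈ R, f b) * ∑ s' ∈ R, w s s' ≤ F * W :=
    le_trans (mul_le_mul_of_nonneg_left (hW s) hf0) (mul_le_mul_of_nonneg_right hF hW0)
  calc u a s * ((∑ b ∈ R, f b) * ∑ s' ∈ R, w s s') ≤ u a s * (F * W) :=
        mul_le_mul_of_nonneg_left h1 (hu a s)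
    _ = F * W * u a s := by ring

theorem sum4_le_two (R : Finset ℕ) (u : ℕ → ℕ → ℝ) (hu : ∀ b s', 0 ≤ u b s') (v : ℕ → ℝ)
    (hv : ∀ a, 0 ≤ v a) (w : ℕ → ℕ → ℝ) (V W : ℝ)
    (hV : ∑ a ∈ R, v a ≤ V) (hW : ∀ s', ∑ s ∈ R, w s s' ≤ W) (hW0 : 0 ≤ W) :
    ∑ a ∈ R, ∑ s ∈ R, ∑ b ∈ R, ∑ s' ∈ R, u b s' * (v a * w s s')
      ≤ V * W * ∑ b ∈ R, ∑ s' ∈ R, u b s' := by
  have hU0 : 0 ≤ ∑ b ∈ R, ∑ s' ∈ R, u b s' :=
    Finset.sum_nonneg (fun b _ => Finset.sum_nonneg (fun s' _ => hu b s'))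
  have h1 : ∀ a, ∑ s ∈ R, ∑ b ∈ R, ∑ s' ∈ R, u b s' * (v a * w s s')
      ≤ v a * (W * ∑ b ∈ R, ∑ s' ∈ R, u b s') := by
    intro a
    have e1 : ∑ s ∈ R, ∑ b ∈ R, ∑ s' ∈ R, u b s' * (v a * w s s')
        = ∑ b ∈ R, ∑ s' ∈ R, ∑ s ∈ R, u b s' * (v a * w s s') := by
      rw [Finset.sum_comm]
      refine Finset.sum_congr rfl (fun b _ => ?_)
      rw [Finset.sum_comm]
    rw [e1, Finset.mul_sum, Finset.mul_sum]
    refine Finset.sum_le_sum (fun b _ => ?_)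
    rw [Finset.mul_sum, Finset.mul_sum]
    refine Finset.sum_le_sum (fun s' _ => ?_)
    have e2 : ∑ s ∈ R, u b s' * (v a * w s s') = u b s' * (v a * ∑ s ∈ R, w s s') := by
      rw [← Finset.mul_sum, ← Finset.mul_sum]
    rw [e2]
    have h2 : v a * ∑ s ∈ R, w s s' ≤ v a * W := mul_le_mul_of_nonneg_left (hW s') (hv a)
    calc u b s' * (v a * ∑ s ∈ R, w s s') ≤ u b s' * (v a * W) :=
          mul_le_mul_of_nonneg_left h2 (hu b s')
      _ = v a * (W * u b s') := by ring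
  calc ∑ a ∈ R, ∑ s ∈ R, ∑ b ∈ R, ∑ s' ∈ R, u b s' * (v a * w s s')
      ≤ ∑ a ∈ R, v a * (W * ∑ b ∈ R, ∑ s' ∈ R, u b s') :=
        Finset.sum_le_sum (fun a _ => h1 a)
    _ = (∑ a ∈ R, v a) * (W * ∑ b ∈ R, ∑ s' ∈ R, u b s') := by rw [Finset.sum_mul]
    _ ≤ V * (W * ∑ b ∈ R, ∑ s' ∈ R, u b s') :=
        mul_le_mul_of_nonneg_right hV (mul_nonneg hW0 hU0)
    _ = V * W * ∑ b ∈ R, ∑ s' ∈ R, u b s' := by ring

theorem sum4_le_three (R : Finset ℕ) (v1 v2 g : ℕ → ℝ) (hv1 : ∀ a, 0 ≤ v1 a)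
    (hv2 : ∀ b, 0 ≤ v2 b) (hg : ∀ s, 0 ≤ g s) (w : ℕ → ℕ → ℝ) (V1 V2 G W : ℝ)
    (hV1 : ∑ a ∈ R, v1 a ≤ V1) (hV2 : ∑ b ∈ R, v2 b ≤ V2) (hG : ∑ s ∈ R, g s ≤ G)
    (hW : ∀ s, ∑ s' ∈ R, w s s' ≤ W) (hW0 : 0 ≤ W) (hV20 : 0 ≤ V2) (hG0 : 0 ≤ G) :
    ∑ a ∈ R, ∑ s ∈ R, ∑ b ∈ R, ∑ s' ∈ R, v1 a * (v2 b * (g s * w s s'))
      ≤ V1 * V2 * (G * W) := by
  have hv20 : 0 ≤ ∑ b ∈ R, v2 b := Finset.sum_nonneg (fun b _ => hv2 b)
  have h1 : ∀ a s, ∑ b ∈ R, ∑ s' ∈ R, v1 a * (v2 b * (g s * w s s'))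
      ≤ v1 a * (g s * (V2 * W)) := by
    intro a s
    have e1 : ∀ b, ∑ s' ∈ R, v1 a * (v2 b * (g s * w s s'))
        = v1 a * (v2 b * (g s * ∑ s' ∈ R, w s s')) :=
      fun b => by rw [← Finset.mul_sum, ← Finset.mul_sum, ← Finset.mul_sum]
    rw [Finset.sum_congr rfl (fun b _ => e1 b), ← Finset.mul_sum, ← Finset.sum_mul]
    apply mul_le_mul_of_nonneg_left _ (hv1 a)
    have h2 : g s * ∑ s' ∈ R, w s s' ≤ g s * W := mul_le_mul_of_nonneg_left (hW s) (hg s)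
    calc (∑ b ∈ R, v2 b) * (g s * ∑ s' ∈ R, w s s') ≤ (∑ b ∈ R, v2 b) * (g s * W) :=
          mul_le_mul_of_nonneg_left h2 hv20
      _ ≤ V2 * (g s * W) := mul_le_mul_of_nonneg_right hV2 (mul_nonneg (hg s) hW0)
      _ = g s * (V2 * W) := by ring
  have hg0 : 0 ≤ ∑ s ∈ R, g s := Finset.sum_nonneg (fun s _ => hg s)
  have h3 : ∀ a, ∑ s ∈ R, ∑ b ∈ R, ∑ s' ∈ R, v1 a * (v2 b * (g s * w s s'))
      ≤ v1 a * (G * (V2 * W)) := by
    intro a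
    calc ∑ s ∈ R, ∑ b ∈ R, ∑ s' ∈ R, v1 a * (v2 b * (g s * w s s'))
        ≤ ∑ s ∈ R, v1 a * (g s * (V2 * W)) := Finset.sum_le_sum (fun s _ => h1 a s)
      _ = v1 a * ((∑ s ∈ R, g s) * (V2 * W)) := by rw [← Finset.mul_sum, ← Finset.sum_mul]
      _ ≤ v1 a * (G * (V2 * W)) := by
          apply mul_le_mul_of_nonneg_left _ (hv1 a)
          exact mul_le_mul_of_nonneg_right hG (mul_nonneg hV20 hW0)
  calc ∑ a ∈ R, ∑ s ∈ R, ∑ b ∈ R, ∑ s' ∈ R, v1 a * (v2 b * (g s * w s s'))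
      ≤ ∑ a ∈ R, v1 a * (G * (V2 * W)) := Finset.sum_le_sum (fun a _ => h3 a)
    _ = (∑ a ∈ R, v1 a) * (G * (V2 * W)) := by rw [Finset.sum_mul]
    _ ≤ V1 * (G * (V2 * W)) :=
        mul_le_mul_of_nonneg_right hV1 (mul_nonneg hG0 (mul_nonneg hV20 hW0))
    _ = V1 * V2 * (G * W) := by ring

theorem inCell_unique (K : ℝ) (hK : 0 < K) (ψ : ℕ → ℝ) (a s a' s' q : ℕ)
    (h : InCell K ψ a s q) (h' : InCell K ψ a' s' q) : a = a' ∧ s = s' := by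
  obtain ⟨h1, h2, h3, h4⟩ := h
  obtain ⟨h1', h2', h3', h4'⟩ := h'
  constructor
  · have e1 : K * (1 / 2 : ℝ) ^ (a + 1) < K * (1 / 2 : ℝ) ^ a' := lt_of_lt_of_le h3 h4'
    have e2 : K * (1 / 2 : ℝ) ^ (a' + 1) < K * (1 / 2 : ℝ) ^ a := lt_of_lt_of_le h3' h4
    have e3 : (1 / 2 : ℝ) ^ (a + 1) < (1 / 2 : ℝ) ^ a' := lt_of_mul_lt_mul_left e1 hK.le
    have e4 : (1 / 2 : ℝ) ^ (a' + 1) < (1 / 2 : ℝ) ^ a := lt_of_mul_lt_mul_left e2 hK.le
    have e5 : a' < a + 1 :=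
      (pow_lt_pow_iff_right_of_lt_one₀ (by norm_num) (by norm_num)).mp e3
    have e6 : a < a' + 1 :=
      (pow_lt_pow_iff_right_of_lt_one₀ (by norm_num) (by norm_num)).mp e4
    omega
  · have e1 : 2 ^ s < 2 ^ (s' + 1) := by
      rw [pow_succ]
      omega
    have e2 : 2 ^ s' < 2 ^ (s + 1) := by
      rw [pow_succ]
      omega
    have e3 : s < s' + 1 := (Nat.pow_lt_pow_iff_right (by norm_num)).mp e1
    have e4 : s' < s + 1 := (Nat.pow_lt_pow_iff_right (by norm_num)).mp e2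
    omega

theorem exists_inCell (K : ℝ) (hK : 0 < K) (ψ : ℕ → ℝ)
    (hψK : ∀ q : ℕ, 1 ≤ q → ψ q ≤ K / q) (q : ℕ) (hq : 1 ≤ q) (hpos : 0 < ψ q) :
    ∃ a : ℕ, InCell K ψ a (Nat.log 2 q) q := by
  have hqpos : (0 : ℝ) < q := by exact_mod_cast hq
  have h1 : (q : ℝ) * ψ q ≤ K := by
    have h2 := hψK q hq
    rw [le_div_iff₀ hqpos] at h2
    linarith
  have hx0 : 0 < (q : ℝ) * ψ q / K := by positivity
  have hx1 : (q : ℝ) * ψ q / K ≤ 1 := by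
    rw [div_le_one hK]
    exact h1
  obtain ⟨a, ha1, ha2⟩ := exists_nat_pow_near_of_lt_one hx0 hx1
    (by norm_num : (0 : ℝ) < 1 / 2) (by norm_num : (1 / 2 : ℝ) < 1)
  refine ⟨a, Nat.pow_log_le_self 2 (by omega), ?_, ?_, ?_⟩
  · have h3 := Nat.lt_pow_succ_log_self (by norm_num : 1 < 2) q
    rw [pow_succ] at h3
    omega
  · rw [lt_div_iff₀ hK] at ha1
    linarith
  · rw [div_le_iff₀ hK] at ha2
    linarith

open Classical in
/-- The upper mass of the cell of level `a` and scale `s` among the integers below `N`. -/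
noncomputable def cellMass (K : ℝ) (ψ : ℕ → ℝ) (N a s : ℕ) : ℝ :=
  (((Finset.range N).filter (InCell K ψ a s)).card : ℝ) * K * (1 / 2 : ℝ) ^ a / 2 ^ s

theorem cellMass_nonneg (K : ℝ) (hK : 0 < K) (ψ : ℕ → ℝ) (N a s : ℕ) :
    0 ≤ cellMass K ψ N a s := by
  unfold cellMass
  positivity

open Classical in
theorem sum_cellMass_le (K : ℝ) (hK : 0 < K) (ψ : ℕ → ℝ) (hψ : ∀ q, 0 ≤ ψ q) (N : ℕ)
    (R : Finset ℕ) :
    ∑ a ∈ R, ∑ s ∈ R, cellMass K ψ N a s ≤ 4 * ∑ q ∈ Finset.range N, ψ q := by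
  have h1 : ∀ a s, cellMass K ψ N a s
      ≤ 4 * ∑ q ∈ Finset.range N, (if InCell K ψ a s q then ψ q else 0) := by
    intro a s
    rw [← Finset.sum_filter]
    unfold cellMass
    have h2 : ∀ q ∈ (Finset.range N).filter (InCell K ψ a s),
        K * (1 / 2 : ℝ) ^ a / 2 ^ s / 4 ≤ ψ q := by
      intro q hq
      rw [Finset.mem_filter] at hq
      obtain ⟨_, h1, h2, h3, h4⟩ := hq
      have hq2 : (q : ℝ) < 2 * 2 ^ s := by exact_mod_cast h2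
      have e1 : K * (1 / 2 : ℝ) ^ a / 2 ^ s / 4 = K * (1 / 2 : ℝ) ^ (a + 1) / (2 * 2 ^ s) := by
        rw [pow_succ]
        field_simp
        ring
      rw [e1, div_le_iff₀ (by positivity)]
      have h5 : (q : ℝ) * ψ q ≤ (2 * 2 ^ s) * ψ q := mul_le_mul_of_nonneg_right hq2.le (hψ q)
      linarith
    have h3 := Finset.card_nsmul_le_sum _ _ _ h2
    rw [nsmul_eq_mul] at h3
    have e2 : (((Finset.range N).filter (InCell K ψ a s)).card : ℝ) * K * (1 / 2 : ℝ) ^ a / 2 ^ s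
        = 4 * ((((Finset.range N).filter (InCell K ψ a s)).card : ℝ)
          * (K * (1 / 2 : ℝ) ^ a / 2 ^ s / 4)) := by ring
    rw [e2]
    exact mul_le_mul_of_nonneg_left h3 (by norm_num)
  have h4 : ∀ q, ∑ a ∈ R, ∑ s ∈ R, (if InCell K ψ a s q then ψ q else 0) ≤ ψ q := by
    intro q
    by_cases hex : ∃ a0 s0, InCell K ψ a0 s0 q
    · obtain ⟨a0, s0, h0⟩ := hex
      have h5 : ∀ a s, (if InCell K ψ a s q then ψ q else 0)
          ≤ (if a = a0 then (if s = s0 then ψ q else 0) else 0) := by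
        intro a s
        by_cases hc : InCell K ψ a s q
        · obtain ⟨e1, e2⟩ := inCell_unique K hK ψ a s a0 s0 q hc h0
          rw [if_pos hc, if_pos e1, if_pos e2]
        · rw [if_neg hc]
          have := hψ q
          split_ifs <;> linarith
      calc ∑ a ∈ R, ∑ s ∈ R, (if InCell K ψ a s q then ψ q else 0)
          ≤ ∑ a ∈ R, ∑ s ∈ R, (if a = a0 then (if s = s0 then ψ q else 0) else 0) :=
            Finset.sum_le_sum (fun a _ => Finset.sum_le_sum (fun s _ => h5 a s))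
        _ ≤ ψ q := by
            have := hψ q
            simp only [Finset.sum_ite_eq', Finset.sum_ite_irrel, Finset.sum_const_zero]
            split_ifs <;> linarith
    · have h5 : ∀ a s, (if InCell K ψ a s q then ψ q else 0) = 0 := by
        intro a s
        rw [if_neg]
        intro hc
        exact hex ⟨a, s, hc⟩
      simp only [h5, Finset.sum_const_zero]
      exact hψ q
  calc ∑ a ∈ R, ∑ s ∈ R, cellMass K ψ N a s
      ≤ ∑ a ∈ R, ∑ s ∈ R, 4 * ∑ q ∈ Finset.range N, (if InCell K ψ a s q then ψ q else 0) :=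
        Finset.sum_le_sum (fun a _ => Finset.sum_le_sum (fun s _ => h1 a s))
    _ = 4 * ∑ q ∈ Finset.range N, ∑ a ∈ R, ∑ s ∈ R,
          (if InCell K ψ a s q then ψ q else 0) := by
        simp only [← Finset.mul_sum]
        congr 1
        rw [Finset.sum_congr rfl (fun a _ => Finset.sum_comm), Finset.sum_comm]
    _ ≤ 4 * ∑ q ∈ Finset.range N, ψ q := by
        apply mul_le_mul_of_nonneg_left _ (by norm_num)
        exact Finset.sum_le_sum (fun q _ => h4 q)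

open Classical in
/-- The resonant mass of a shift of finite type is at most linear in the mass of `ψ`. -/
theorem sum_resWeight_le_mass (γ c τ : ℝ) (hc : 0 < c) (hτ : 2 ≤ τ)
    (hγ : ∀ k : ℕ, 1 ≤ k → c ≤ (k : ℝ) ^ τ * |(k : ℝ) * γ - round ((k : ℝ) * γ)|)
    (K : ℝ) (hK : 1 ≤ K) (ψ : ℕ → ℝ) (hψ : ∀ q, 0 ≤ ψ q)
    (hψK : ∀ q : ℕ, 1 ≤ q → ψ q ≤ K / q) :
    ∃ C1 C2 : ℝ, ∀ N : ℕ,
      ∑ n ∈ Finset.range N, ∑ l ∈ Finset.Ico 1 n, resWeight (fun _ => γ) ψ l n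
        ≤ C1 * ∑ n ∈ Finset.range N, ψ n + C2 := by
  have hK0 : 0 < K := by linarith
  have hτ0 : 0 < τ := by linarith
  obtain ⟨r, hr0, hr8⟩ : ∃ r : ℝ, 0 < r ∧ r ^ 8 = 1 / 2 := by
    refine ⟨(1 / 2 : ℝ) ^ ((1 : ℝ) / 8), Real.rpow_pos_of_pos (by norm_num) _, ?_⟩
    rw [← Real.rpow_mul_natCast (by norm_num)]
    norm_num
  have hr1 : r < 1 := by
    by_contra h
    rw [not_lt] at h
    have h1 := one_le_pow₀ h (n := 8)
    rw [hr8] at h1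
    norm_num at h1
  have hr21 : r ^ 2 < 1 := by nlinarith
  have hr41 : r ^ 4 < 1 := by nlinarith [sq_nonneg (r ^ 2)]
  have hr81 : r ^ 8 ≤ 1 := by
    rw [hr8]
    norm_num
  obtain ⟨κ, hκ⟩ : ∃ κ : ℝ, κ = τ⁻¹ / (2 * (1 + τ)) := ⟨_, rfl⟩
  have hκ0 : 0 < κ := by
    rw [hκ]
    positivity
  obtain ⟨ϱ, hϱ⟩ : ∃ ϱ : ℝ, ϱ = ((2 : ℝ) ^ κ)⁻¹ := ⟨_, rfl⟩
  have h2κ : 1 < (2 : ℝ) ^ κ := Real.one_lt_rpow (by norm_num) hκ0
  have hϱ0 : 0 < ϱ := by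
    rw [hϱ]
    positivity
  have hϱ1 : ϱ < 1 := by
    rw [hϱ]
    exact inv_lt_one_of_one_lt₀ h2κ
  have hlev : ∀ q : ℕ, ∃ a : ℕ, 1 ≤ q → 0 < ψ q → InCell K ψ a (Nat.log 2 q) q := by
    intro q
    by_cases h : 1 ≤ q ∧ 0 < ψ q
    · obtain ⟨a, ha⟩ := exists_inCell K hK0 ψ hψK q h.1 h.2
      exact ⟨a, fun _ _ => ha⟩
    · exact ⟨0, fun h1 h2 => absurd ⟨h1, h2⟩ h⟩
  choose lev hlev' using hlev
  obtain ⟨CA, hCA⟩ : ∃ CA : ℝ, CA = 3 * K ^ 2 * anomConst c τ := ⟨_, rfl⟩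
  have hCA0 : 0 ≤ CA := by
    rw [hCA]
    have h1 := anomConst_nonneg c τ hc
    positivity
  have hg2 : 0 < (1 - r ^ 2)⁻¹ := inv_pos.mpr (by linarith)
  have hg4 : 0 < (1 - r ^ 4)⁻¹ := inv_pos.mpr (by linarith)
  have hg1 : 0 < (1 - r)⁻¹ := inv_pos.mpr (by linarith)
  have hgϱ : 0 < (1 - ϱ)⁻¹ := inv_pos.mpr (by linarith)
  refine ⟨4 * (2 * (1 - r ^ 4)⁻¹) + 4 * (448 * K * ((1 - r ^ 4)⁻¹ * (1 - r)⁻¹)),
    CA * ((1 - r ^ 2)⁻¹ * (1 - r ^ 2)⁻¹ * ((1 - ϱ)⁻¹ * (1 - r ^ 2)⁻¹)), ?_⟩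
  intro N
  obtain ⟨M, hM⟩ : ∃ M : ℕ, M = N + 1 + (Finset.range N).sup lev := ⟨_, rfl⟩
  have hMlev : ∀ q ∈ Finset.range N, lev q < M := by
    intro q hq
    have h1 := Finset.le_sup (f := lev) hq
    omega
  have hMlog : ∀ q ∈ Finset.range N, Nat.log 2 q < M := by
    intro q hq
    rw [Finset.mem_range] at hq
    have h1 := Nat.log_le_self 2 q
    omega
  obtain ⟨Rg, hRg⟩ : ∃ Rg : Finset ℕ, Rg = Finset.range M := ⟨_, rfl⟩
  obtain ⟨rwf, hrw⟩ : ∃ rwf : ℕ → ℕ → ℝ, ∀ l n, rwf l n = resWeight (fun _ => γ) ψ l n :=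
    ⟨_, fun _ _ => rfl⟩
  have hrw0 : ∀ l n, 0 ≤ rwf l n := fun l n => by
    rw [hrw]
    exact resWeight_nonneg _ ψ hψ l n
  obtain ⟨G, hG⟩ : ∃ G : (ℕ × ℕ) × (ℕ × ℕ) → ℕ → ℕ → ℝ, ∀ k l n, G k l n =
      if k.1.2 ≤ k.2.2 ∧ InCell K ψ k.1.1 k.1.2 l ∧ InCell K ψ k.2.1 k.2.2 n
      then (if l < n then rwf l n else 0) else 0 := ⟨_, fun _ _ _ => rfl⟩
  have hG0 : ∀ k l n, 0 ≤ G k l n := by
    intro k l n
    rw [hG]
    split_ifs
    · exact hrw0 l n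
    · exact le_refl _
    · exact le_refl _
  obtain ⟨KK, hKK⟩ : ∃ KK : Finset ((ℕ × ℕ) × (ℕ × ℕ)), KK = (Rg ×ˢ Rg) ×ˢ (Rg ×ˢ Rg) :=
    ⟨_, rfl⟩
  -- Step 1: every pair is covered by a pair of cells
  have hstep1 : ∀ n ∈ Finset.range N, ∀ l ∈ Finset.Ico 1 n, rwf l n ≤ ∑ k ∈ KK, G k l n := by
    intro n hn l hl
    rw [Finset.mem_Ico] at hl
    rw [Finset.mem_range] at hn
    have hsumnn : 0 ≤ ∑ k ∈ KK, G k l n := Finset.sum_nonneg (fun k _ => hG0 k l n)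
    by_cases hpos : 0 < ψ l ∧ 0 < ψ n
    · have hl' : InCell K ψ (lev l) (Nat.log 2 l) l := hlev' l hl.1 hpos.1
      have hn' : InCell K ψ (lev n) (Nat.log 2 n) n := hlev' n (by omega) hpos.2
      have hk : ((lev l, Nat.log 2 l), (lev n, Nat.log 2 n)) ∈ KK := by
        rw [hKK, hRg]
        simp only [Finset.mem_product, Finset.mem_range]
        exact ⟨⟨hMlev l (Finset.mem_range.mpr (by omega)),
          hMlog l (Finset.mem_range.mpr (by omega))⟩,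
          ⟨hMlev n (Finset.mem_range.mpr hn), hMlog n (Finset.mem_range.mpr hn)⟩⟩
      have h1 := Finset.single_le_sum (fun k _ => hG0 k l n) hk
      have h2 : G ((lev l, Nat.log 2 l), (lev n, Nat.log 2 n)) l n = rwf l n := by
        have hlog : Nat.log 2 l ≤ Nat.log 2 n := Nat.log_mono_right hl.2.le
        rw [hG, if_pos ⟨hlog, hl', hn'⟩, if_pos hl.2]
      rw [h2] at h1
      exact h1
    · have h0 : rwf l n = 0 := by
        rw [hrw]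
        have h1 := resWeight_le (fun _ => γ) ψ hψ l n
        have h2 := resWeight_nonneg (fun _ => γ) ψ hψ l n
        have h3 : min (ψ l / l) (ψ n / n) ≤ 0 := by
          rw [not_and_or, not_lt, not_lt] at hpos
          rcases hpos with h | h
          · have h4 : ψ l = 0 := le_antisymm h (hψ l)
            rw [h4, zero_div]
            exact min_le_left _ _
          · have h4 : ψ n = 0 := le_antisymm h (hψ n)
            rw [h4, zero_div]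
            exact min_le_right _ _
        have h4 : (Nat.gcd l n : ℝ) * min (ψ l / l) (ψ n / n) ≤ 0 :=
          mul_nonpos_of_nonneg_of_nonpos (Nat.cast_nonneg _) h3
        linarith
      rw [h0]
      exact hsumnn
  -- Step 2: exchange the order of summation
  have hstep2 : ∑ n ∈ Finset.range N, ∑ l ∈ Finset.Ico 1 n, rwf l n
      ≤ ∑ k ∈ KK, ∑ n ∈ Finset.range N, ∑ l ∈ Finset.range N, G k l n := by
    calc ∑ n ∈ Finset.range N, ∑ l ∈ Finset.Ico 1 n, rwf l n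
        ≤ ∑ n ∈ Finset.range N, ∑ l ∈ Finset.Ico 1 n, ∑ k ∈ KK, G k l n :=
          Finset.sum_le_sum (fun n hn => Finset.sum_le_sum (fun l hl => hstep1 n hn l hl))
      _ ≤ ∑ n ∈ Finset.range N, ∑ l ∈ Finset.range N, ∑ k ∈ KK, G k l n := by
          refine Finset.sum_le_sum (fun n hn => ?_)
          apply Finset.sum_le_sum_of_subset_of_nonneg
          · intro l hl
            rw [Finset.mem_Ico] at hl
            rw [Finset.mem_range] at hn ⊢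
            omega
          · intro l _ _
            exact Finset.sum_nonneg (fun k _ => hG0 k l n)
      _ = ∑ k ∈ KK, ∑ n ∈ Finset.range N, ∑ l ∈ Finset.range N, G k l n := by
          rw [Finset.sum_congr rfl (fun n _ => Finset.sum_comm), Finset.sum_comm]
  -- Step 3: the estimate for a pair of cells
  obtain ⟨Bf, hBf⟩ : ∃ Bf : ℕ → ℕ → ℕ → ℕ → ℝ, ∀ a s b s', Bf a s b s' =
      if s ≤ s' then (1 / 2 : ℝ) ^ b * r ^ (8 * a + 4 * (s' - s)) * cellMass K ψ N a s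
        + 448 * K * r ^ (4 * a + (s' - s)) * cellMass K ψ N b s'
        + CA * r ^ (2 * a + 2 * b + 2 * (s' - s)) * ϱ ^ s else 0 :=
    ⟨_, fun _ _ _ _ => rfl⟩
  have hstep3 : ∀ k ∈ KK, ∑ n ∈ Finset.range N, ∑ l ∈ Finset.range N, G k l n
      ≤ Bf k.1.1 k.1.2 k.2.1 k.2.2 := by
    intro k _
    obtain ⟨⟨a, s⟩, ⟨b, s'⟩⟩ := k
    show ∑ n ∈ Finset.range N, ∑ l ∈ Finset.range N, G ((a, s), (b, s')) l n ≤ Bf a s b s'
    rw [hBf]
    by_cases hss : s ≤ s'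
    · rw [if_pos hss]
      obtain ⟨i, rfl⟩ : ∃ i, s' = s + i := ⟨s' - s, by omega⟩
      have hsub : s + i - s = i := by omega
      rw [hsub]
      have hcm := cell_pair_mass γ c τ hc hτ hγ K hK ψ hψ r hr0 hr8 a b s i
        ((Finset.range N).filter (InCell K ψ a s))
        ((Finset.range N).filter (InCell K ψ b (s + i)))
        (fun q hq => (Finset.mem_filter.mp hq).2) (fun q hq => (Finset.mem_filter.mp hq).2)
      have hconv : ∑ n ∈ Finset.range N, ∑ l ∈ Finset.range N, G ((a, s), (b, s + i)) l n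
          = ∑ l ∈ (Finset.range N).filter (InCell K ψ a s),
              ∑ n ∈ (Finset.range N).filter (InCell K ψ b (s + i)),
                (if l < n then resWeight (fun _ => γ) ψ l n else 0) := by
        rw [Finset.sum_comm, Finset.sum_filter]
        refine Finset.sum_congr rfl (fun l _ => ?_)
        by_cases hl : InCell K ψ a s l
        · rw [if_pos hl, Finset.sum_filter]
          refine Finset.sum_congr rfl (fun n _ => ?_)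
          rw [hG]
          by_cases hn : InCell K ψ b (s + i) n
          · rw [if_pos ⟨hss, hl, hn⟩, if_pos hn, hrw]
          · rw [if_neg (fun h => hn h.2.2), if_neg hn]
        · rw [if_neg hl]
          refine Finset.sum_eq_zero (fun n _ => ?_)
          rw [hG, if_neg (fun h => hl h.2.1)]
      rw [hconv]
      refine le_trans hcm (le_of_eq ?_)
      unfold cellMass
      rw [hCA, hϱ, hκ]
    · rw [if_neg hss]
      refine le_of_eq (Finset.sum_eq_zero (fun n _ => Finset.sum_eq_zero (fun l _ => ?_)))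
      rw [hG, if_neg (fun h => hss h.1)]
  -- Step 4: summation over the pairs of cells
  have hsumB : ∑ k ∈ KK, Bf k.1.1 k.1.2 k.2.1 k.2.2
      = ∑ a ∈ Rg, ∑ s ∈ Rg, ∑ b ∈ Rg, ∑ s' ∈ Rg, Bf a s b s' := by
    rw [hKK, Finset.sum_product, Finset.sum_product]
    refine Finset.sum_congr rfl (fun a _ => Finset.sum_congr rfl (fun s _ => ?_))
    rw [Finset.sum_product]
  obtain ⟨u, hu⟩ : ∃ u : ℕ → ℕ → ℝ, ∀ a s, u a s = cellMass K ψ N a s := ⟨_, fun _ _ => rfl⟩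
  have hu0 : ∀ a s, 0 ≤ u a s := fun a s => by
    rw [hu]
    exact cellMass_nonneg K hK0 ψ N a s
  have hr0' : 0 ≤ r := hr0.le
  have hBle : ∀ a s b s', Bf a s b s'
      ≤ u a s * ((1 / 2 : ℝ) ^ b * (if s ≤ s' then (r ^ 4) ^ (s' - s) else 0))
        + 448 * K * (u b s' * ((r ^ 4) ^ a * (if s ≤ s' then r ^ (s' - s) else 0)))
        + CA * ((r ^ 2) ^ a * ((r ^ 2) ^ b * (ϱ ^ s
            * (if s ≤ s' then (r ^ 2) ^ (s' - s) else 0)))) := by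
    intro a s b s'
    rw [hBf]
    by_cases hss : s ≤ s'
    · rw [if_pos hss, if_pos hss, if_pos hss, if_pos hss, ← hu, ← hu]
      have e1 : r ^ (8 * a + 4 * (s' - s)) = (r ^ 8) ^ a * (r ^ 4) ^ (s' - s) := by
        rw [pow_add, pow_mul, pow_mul]
      have e2 : r ^ (4 * a + (s' - s)) = (r ^ 4) ^ a * r ^ (s' - s) := by
        rw [pow_add, pow_mul]
      have e3 : r ^ (2 * a + 2 * b + 2 * (s' - s))
          = (r ^ 2) ^ a * ((r ^ 2) ^ b * (r ^ 2) ^ (s' - s)) := by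
        rw [pow_add, pow_add, pow_mul, pow_mul, pow_mul]
        ring
      have h1 : (r ^ 8) ^ a ≤ 1 := pow_le_one₀ (by positivity) hr81
      have h2 : (1 / 2 : ℝ) ^ b * r ^ (8 * a + 4 * (s' - s)) * u a s
          ≤ u a s * ((1 / 2 : ℝ) ^ b * (r ^ 4) ^ (s' - s)) := by
        rw [e1]
        have h3 : 0 ≤ (1 / 2 : ℝ) ^ b * (r ^ 4) ^ (s' - s) * u a s := by
          have h4 := hu0 a s
          positivity
        have h5 : (1 / 2 : ℝ) ^ b * ((r ^ 8) ^ a * (r ^ 4) ^ (s' - s)) * u a s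
            = (r ^ 8) ^ a * ((1 / 2 : ℝ) ^ b * (r ^ 4) ^ (s' - s) * u a s) := by ring
        rw [h5]
        calc (r ^ 8) ^ a * ((1 / 2 : ℝ) ^ b * (r ^ 4) ^ (s' - s) * u a s)
            ≤ 1 * ((1 / 2 : ℝ) ^ b * (r ^ 4) ^ (s' - s) * u a s) :=
              mul_le_mul_of_nonneg_right h1 h3
          _ = u a s * ((1 / 2 : ℝ) ^ b * (r ^ 4) ^ (s' - s)) := by ring
      have h6 : 448 * K * r ^ (4 * a + (s' - s)) * u b s'
          = 448 * K * (u b s' * ((r ^ 4) ^ a * r ^ (s' - s))) := by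
        rw [e2]
        ring
      have h7 : CA * r ^ (2 * a + 2 * b + 2 * (s' - s)) * ϱ ^ s
          = CA * ((r ^ 2) ^ a * ((r ^ 2) ^ b * (ϱ ^ s * (r ^ 2) ^ (s' - s)))) := by
        rw [e3]
        ring
      rw [h6, h7]
      linarith
    · rw [if_neg hss, if_neg hss, if_neg hss, if_neg hss]
      simp
  have hS1 : ∑ a ∈ Rg, ∑ s ∈ Rg, ∑ b ∈ Rg, ∑ s' ∈ Rg,
      u a s * ((1 / 2 : ℝ) ^ b * (if s ≤ s' then (r ^ 4) ^ (s' - s) else 0))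
      ≤ 2 * (1 - r ^ 4)⁻¹ * ∑ a ∈ Rg, ∑ s ∈ Rg, u a s := by
    apply sum4_le_one Rg u hu0 (fun b => (1 / 2 : ℝ) ^ b) (fun b => by positivity)
      (fun s s' => if s ≤ s' then (r ^ 4) ^ (s' - s) else 0) 2 ((1 - r ^ 4)⁻¹) _
      (fun s => sum_ite_sub_le (r ^ 4) (by positivity) hr41 Rg s) hg4.le
    have h1 := sum_range_pow_le (1 / 2 : ℝ) (by norm_num) (by norm_num) Rg
    have h2 : (1 - (1 / 2 : ℝ))⁻¹ = 2 := by norm_num
    rw [h2] at h1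
    exact h1
  have hS2 : ∑ a ∈ Rg, ∑ s ∈ Rg, ∑ b ∈ Rg, ∑ s' ∈ Rg,
      u b s' * ((r ^ 4) ^ a * (if s ≤ s' then r ^ (s' - s) else 0))
      ≤ (1 - r ^ 4)⁻¹ * (1 - r)⁻¹ * ∑ b ∈ Rg, ∑ s' ∈ Rg, u b s' :=
    sum4_le_two Rg u hu0 (fun a => (r ^ 4) ^ a) (fun a => by positivity)
      (fun s s' => if s ≤ s' then r ^ (s' - s) else 0) ((1 - r ^ 4)⁻¹) ((1 - r)⁻¹)
      (sum_range_pow_le (r ^ 4) (by positivity) hr41 Rg)
      (fun s' => sum_ite_sub_le' r hr0' hr1 Rg s') hg1.le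
  have hS3 : ∑ a ∈ Rg, ∑ s ∈ Rg, ∑ b ∈ Rg, ∑ s' ∈ Rg,
      (r ^ 2) ^ a * ((r ^ 2) ^ b * (ϱ ^ s * (if s ≤ s' then (r ^ 2) ^ (s' - s) else 0)))
      ≤ (1 - r ^ 2)⁻¹ * (1 - r ^ 2)⁻¹ * ((1 - ϱ)⁻¹ * (1 - r ^ 2)⁻¹) :=
    sum4_le_three Rg (fun a => (r ^ 2) ^ a) (fun b => (r ^ 2) ^ b) (fun s => ϱ ^ s)
      (fun a => by positivity) (fun b => by positivity) (fun s => by positivity)
      (fun s s' => if s ≤ s' then (r ^ 2) ^ (s' - s) else 0)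
      ((1 - r ^ 2)⁻¹) ((1 - r ^ 2)⁻¹) ((1 - ϱ)⁻¹) ((1 - r ^ 2)⁻¹)
      (sum_range_pow_le (r ^ 2) (by positivity) hr21 Rg)
      (sum_range_pow_le (r ^ 2) (by positivity) hr21 Rg)
      (sum_range_pow_le ϱ hϱ0.le hϱ1 Rg)
      (fun s => sum_ite_sub_le (r ^ 2) (by positivity) hr21 Rg s) hg2.le hg2.le hgϱ.le
  have hmass : ∑ a ∈ Rg, ∑ s ∈ Rg, u a s ≤ 4 * ∑ q ∈ Finset.range N, ψ q := by
    rw [Finset.sum_congr rfl (fun a _ => Finset.sum_congr rfl (fun s _ => hu a s))]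
    exact sum_cellMass_le K hK0 ψ hψ N Rg
  obtain ⟨Ψ, hΨ⟩ : ∃ Ψ : ℝ, Ψ = ∑ q ∈ Finset.range N, ψ q := ⟨_, rfl⟩
  rw [← hΨ] at hmass ⊢
  obtain ⟨U, hU⟩ : ∃ U : ℝ, U = ∑ a ∈ Rg, ∑ s ∈ Rg, u a s := ⟨_, rfl⟩
  rw [← hU] at hS1 hS2 hmass
  have hU0 : 0 ≤ U := by
    rw [hU]
    exact Finset.sum_nonneg (fun a _ => Finset.sum_nonneg (fun s _ => hu0 a s))
  have htotal : ∑ a ∈ Rg, ∑ s ∈ Rg, ∑ b ∈ Rg, ∑ s' ∈ Rg, Bf a s b s'
      ≤ 2 * (1 - r ^ 4)⁻¹ * U + 448 * K * ((1 - r ^ 4)⁻¹ * (1 - r)⁻¹ * U)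
        + CA * ((1 - r ^ 2)⁻¹ * (1 - r ^ 2)⁻¹ * ((1 - ϱ)⁻¹ * (1 - r ^ 2)⁻¹)) := by
    calc ∑ a ∈ Rg, ∑ s ∈ Rg, ∑ b ∈ Rg, ∑ s' ∈ Rg, Bf a s b s'
        ≤ ∑ a ∈ Rg, ∑ s ∈ Rg, ∑ b ∈ Rg, ∑ s' ∈ Rg,
          (u a s * ((1 / 2 : ℝ) ^ b * (if s ≤ s' then (r ^ 4) ^ (s' - s) else 0))
          + 448 * K * (u b s' * ((r ^ 4) ^ a * (if s ≤ s' then r ^ (s' - s) else 0)))
          + CA * ((r ^ 2) ^ a * ((r ^ 2) ^ b * (ϱ ^ s
              * (if s ≤ s' then (r ^ 2) ^ (s' - s) else 0))))) :=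
          Finset.sum_le_sum (fun a _ => Finset.sum_le_sum (fun s _ =>
            Finset.sum_le_sum (fun b _ => Finset.sum_le_sum (fun s' _ => hBle a s b s'))))
      _ = ∑ a ∈ Rg, ∑ s ∈ Rg, ∑ b ∈ Rg, ∑ s' ∈ Rg,
            u a s * ((1 / 2 : ℝ) ^ b * (if s ≤ s' then (r ^ 4) ^ (s' - s) else 0))
          + 448 * K * ∑ a ∈ Rg, ∑ s ∈ Rg, ∑ b ∈ Rg, ∑ s' ∈ Rg,
            u b s' * ((r ^ 4) ^ a * (if s ≤ s' then r ^ (s' - s) else 0))
          + CA * ∑ a ∈ Rg, ∑ s ∈ Rg, ∑ b ∈ Rg, ∑ s' ∈ Rg,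
            (r ^ 2) ^ a * ((r ^ 2) ^ b * (ϱ ^ s
              * (if s ≤ s' then (r ^ 2) ^ (s' - s) else 0))) := by
          simp only [Finset.sum_add_distrib, Finset.mul_sum]
      _ ≤ 2 * (1 - r ^ 4)⁻¹ * U + 448 * K * ((1 - r ^ 4)⁻¹ * (1 - r)⁻¹ * U)
          + CA * ((1 - r ^ 2)⁻¹ * (1 - r ^ 2)⁻¹ * ((1 - ϱ)⁻¹ * (1 - r ^ 2)⁻¹)) :=
          add_le_add (add_le_add hS1 (mul_le_mul_of_nonneg_left hS2 (by positivity)))
            (mul_le_mul_of_nonneg_left hS3 hCA0)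
  have hfin1 : 2 * (1 - r ^ 4)⁻¹ * U ≤ 2 * (1 - r ^ 4)⁻¹ * (4 * Ψ) :=
    mul_le_mul_of_nonneg_left hmass (by positivity)
  have hfin2 : 448 * K * ((1 - r ^ 4)⁻¹ * (1 - r)⁻¹ * U)
      ≤ 448 * K * ((1 - r ^ 4)⁻¹ * (1 - r)⁻¹ * (4 * Ψ)) := by
    apply mul_le_mul_of_nonneg_left _ (by positivity)
    exact mul_le_mul_of_nonneg_left hmass (by positivity)
  calc ∑ n ∈ Finset.range N, ∑ l ∈ Finset.Ico 1 n, resWeight (fun _ => γ) ψ l n
      = ∑ n ∈ Finset.range N, ∑ l ∈ Finset.Ico 1 n, rwf l n := by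
        refine Finset.sum_congr rfl (fun n _ => Finset.sum_congr rfl (fun l _ => ?_))
        rw [hrw]
    _ ≤ ∑ k ∈ KK, ∑ n ∈ Finset.range N, ∑ l ∈ Finset.range N, G k l n := hstep2
    _ ≤ ∑ k ∈ KK, Bf k.1.1 k.1.2 k.2.1 k.2.2 := Finset.sum_le_sum hstep3
    _ = ∑ a ∈ Rg, ∑ s ∈ Rg, ∑ b ∈ Rg, ∑ s' ∈ Rg, Bf a s b s' := hsumB
    _ ≤ 2 * (1 - r ^ 4)⁻¹ * U + 448 * K * ((1 - r ^ 4)⁻¹ * (1 - r)⁻¹ * U)
        + CA * ((1 - r ^ 2)⁻¹ * (1 - r ^ 2)⁻¹ * ((1 - ϱ)⁻¹ * (1 - r ^ 2)⁻¹)) := htotal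
    _ ≤ (4 * (2 * (1 - r ^ 4)⁻¹) + 4 * (448 * K * ((1 - r ^ 4)⁻¹ * (1 - r)⁻¹))) * Ψ
        + CA * ((1 - r ^ 2)⁻¹ * (1 - r ^ 2)⁻¹ * ((1 - ϱ)⁻¹ * (1 - r ^ 2)⁻¹)) := by
        linarith

/-- Erdős–Vaaler type theorem for shifts of finite Diophantine type: `ψ q ≤ K / q` and
divergence of `∑ ψ q`. -/
theorem ae_frequently_of_finite_type (γ c τ K : ℝ) (hc : 0 < c)
    (hγ : ∀ k : ℕ, 1 ≤ k → c ≤ (k : ℝ) ^ τ * |(k : ℝ) * γ - round ((k : ℝ) * γ)|)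
    (ψ : ℕ → ℝ) (hψ : ∀ q, 0 ≤ ψ q) (hψK : ∀ q : ℕ, 1 ≤ q → ψ q ≤ K / q)
    (hdiv : ¬ Summable ψ) :
    ∀ᵐ x : ℝ, ∃ᶠ q : ℕ in atTop, ∃ a : ℤ, |(q : ℝ) * x - a - γ| < ψ q := by
  obtain ⟨τ', hτ'⟩ : ∃ τ' : ℝ, τ' = max τ 2 := ⟨_, rfl⟩
  have hτ2 : 2 ≤ τ' := by
    rw [hτ']
    exact le_max_right _ _
  have hγ' : ∀ k : ℕ, 1 ≤ k →
      c ≤ (k : ℝ) ^ τ' * |(k : ℝ) * γ - round ((k : ℝ) * γ)| := by
    intro k hk
    have h1 := hγ k hk
    have hk1 : (1 : ℝ) ≤ k := by exact_mod_cast hk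
    have h2 : (k : ℝ) ^ τ ≤ (k : ℝ) ^ τ' :=
      Real.rpow_le_rpow_of_exponent_le hk1 (by
        rw [hτ']
        exact le_max_left _ _)
    exact le_trans h1 (mul_le_mul_of_nonneg_right h2 (abs_nonneg _))
  obtain ⟨K', hK'⟩ : ∃ K' : ℝ, K' = max K 1 := ⟨_, rfl⟩
  have hK1 : 1 ≤ K' := by
    rw [hK']
    exact le_max_right _ _
  have hψK' : ∀ q : ℕ, 1 ≤ q → ψ q ≤ K' / q := fun q hq =>
    le_trans (hψK q hq)
      (div_le_div_of_nonneg_right (hK' ▸ le_max_left _ _) (Nat.cast_nonneg q))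
  obtain ⟨C1, C2, hC⟩ := sum_resWeight_le_mass γ c τ' hc hτ2 hγ' K' hK1 ψ hψ hψK'
  have htend : Tendsto (fun N => ∑ n ∈ Finset.range N, ψ n) atTop atTop :=
    (not_summable_iff_tendsto_nat_atTop_of_nonneg hψ).mp hdiv
  have hfreq : ∃ᶠ N in atTop,
      ∑ n ∈ Finset.range N, ∑ m ∈ Finset.Ico 1 n, resWeight (fun _ => γ) ψ m n
        ≤ (|C1| + |C2|) * (∑ n ∈ Finset.range N, ψ n) ^ 2 := by
    apply Eventually.frequently
    filter_upwards [htend.eventually_ge_atTop 1] with N hN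
    obtain ⟨P, hP⟩ : ∃ P : ℝ, P = ∑ n ∈ Finset.range N, ψ n := ⟨_, rfl⟩
    have h1 := hC N
    rw [← hP] at hN h1 ⊢
    have hP2 : P ≤ P ^ 2 := by nlinarith
    have hP21 : 1 ≤ P ^ 2 := by nlinarith
    have h2 : C1 * P ≤ |C1| * P ^ 2 := by
      have e1 : C1 * P ≤ |C1| * P := mul_le_mul_of_nonneg_right (le_abs_self _) (by linarith)
      have e2 : |C1| * P ≤ |C1| * P ^ 2 := mul_le_mul_of_nonneg_left hP2 (abs_nonneg _)
      linarith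
    have h3 : C2 ≤ |C2| * P ^ 2 := by
      have e1 : C2 ≤ |C2| := le_abs_self _
      have e2 : |C2| * 1 ≤ |C2| * P ^ 2 := mul_le_mul_of_nonneg_left hP21 (abs_nonneg _)
      linarith
    linarith
  exact ae_frequently_of_res_qia (fun _ => γ) ψ hψ (|C1| + |C2|) hfreq hdiv

/-- The same with a truncation: no size condition on `ψ`, divergence of
`∑ min (ψ q) (K / q)`. -/
theorem ae_frequently_of_finite_type_min (γ c τ K : ℝ) (hc : 0 < c) (hK : 0 ≤ K)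
    (hγ : ∀ k : ℕ, 1 ≤ k → c ≤ (k : ℝ) ^ τ * |(k : ℝ) * γ - round ((k : ℝ) * γ)|)
    (ψ : ℕ → ℝ) (hψ : ∀ q, 0 ≤ ψ q)
    (hdiv : ¬ Summable (fun q : ℕ => min (ψ q) (K / (q : ℝ)))) :
    ∀ᵐ x : ℝ, ∃ᶠ q : ℕ in atTop, ∃ a : ℤ, |(q : ℝ) * x - a - γ| < ψ q := by
  have h0 : ∀ q : ℕ, 0 ≤ min (ψ q) (K / (q : ℝ)) :=
    fun q => le_min (hψ q) (div_nonneg hK (Nat.cast_nonneg q))
  have h1 : ∀ q : ℕ, 1 ≤ q → min (ψ q) (K / (q : ℝ)) ≤ K / q := fun q _ => min_le_right _ _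
  have key := ae_frequently_of_finite_type γ c τ K hc hγ
    (fun q : ℕ => min (ψ q) (K / (q : ℝ))) h0 h1 hdiv
  filter_upwards [key] with x hx
  refine hx.mono fun q hq => ?_
  obtain ⟨a, ha⟩ := hq
  exact ⟨a, lt_of_lt_of_le ha (min_le_left _ _)⟩

end Vale.Agent.Lib.P028
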